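import Vale.Agent.P088.R2.H901.EllG
import Vale.Agent.P088.R2.H558.Spec

/-!
# P088: row INV, the uniform interior estimate
-/

open MeasureTheory Set Function
open scoped ContDiff ENNReal NNReal Matrix

set_option linter.unusedSectionVars false
set_option linter.unusedVariables false

noncomputable section

namespace Vale.Agent.P088.HY

open Vale.Agent.P088.LR

namespace EI

theorem D_pd {n : ℕ} (i : Fin n) (f : V n → ℝ) : D (Pi.basisFun ℝ (Fin n)) i f = pd i f := by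
  funext x
  simp [D, pd]

theorem one_kd {n : ℕ} (i j : Fin n) : (1 : Matrix (Fin n) (Fin n) ℝ) i j = kd i j := by
  simp [kd, Matrix.one_apply]

theorem norm_bF {n : ℕ} (i : Fin n) : ‖Pi.basisFun ℝ (Fin n) i‖ ≤ 1 := by
  simp [Pi.norm_single]

/-- The coefficients are near the identity. -/
theorem CO_of {n K : ℕ} {a : MF n} (h : ∀ i j, ContDiffOn ℝ ((⊤ : ℕ∞) : WithTop ℕ∞) (fun x => a x i j) (Metric.ball 0 2))
    (h1 : ∀ i j, ∀ l ≤ K, ∀ x ∈ Metric.ball (0 : V n) 2, ‖iteratedFDeriv ℝ l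
    (fun x => a x i j - (1 : Matrix (Fin n) (Fin n) ℝ) i j) x‖ ≤
      1 / (2 * Fintype.card (Fin n) + 2)) :
    CO (Pi.basisFun ℝ (Fin n)) K (fun i j x => a x i j) := by
  refine ⟨h, fun i j => ?_⟩
  have := Bd_of (b := Pi.basisFun ℝ (Fin n)) (A := 1 / (2 * Fintype.card (Fin n) + 2))
    (f := fun x => a x i j - (1 : Matrix (Fin n) (Fin n) ℝ) i j) Metric.isOpen_ball le_rfl
    norm_bF eps_pos.le ((h i j).sub contDiffOn_const) K (h1 i j)
  simpa only [one_pow, mul_one, one_kd] using this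

end EI

open EI

theorem rowINV : RowINV := by
  intro n L
  obtain ⟨C, hC, h⟩ := core (volume : Measure (V n)) (Pi.basisFun ℝ (Fin n)) L
  have hk : ∀ l : ℕ, ∃ κ : ℝ, 0 < κ ∧
    ∀ T : ContinuousMultilinearMap ℝ (fun _ : Fin l => V n) ℝ, ∀ B : ℝ, 0 ≤ B →
    (∀ v : Fin l → Fin n, |T (Pi.basisFun ℝ (Fin n) ∘ v)| ≤ B) → ‖T‖ ≤ κ * B := fun l =>
    mult_norm (Pi.basisFun ℝ (Fin n)) l
  choose κ hκ0 hκ using hk
  set Q : ℝ := ∑ l ∈ Finset.range (L + 1), κ l with hQ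
  have hQ0 : 0 < Q := Finset.sum_pos (fun l _ => hκ0 l) ⟨0, by simp⟩
  refine ⟨Fintype.card (Fin n) + L + 1, Q * C, 1 / (2 * Fintype.card (Fin n) + 2),
    mul_pos hQ0 hC, eps_pos, ?_⟩
  intro a ha ha1 w F hw hF hLw hwi M hM l hl
  have hM0 : 0 ≤ M := (norm_nonneg _).trans (hM 0 (Nat.zero_le _) 0 (by simp))
  have e : ∀ x ∈ Metric.ball (0 : V n) 2, F x = Lc (Pi.basisFun ℝ (Fin n))
      (fun i j x => a x i j) w x := by
    intro x hx
    rw [← hLw x hx]
    simp only [Lv, Lc, D_pd]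
  have hBF : Bd (Pi.basisFun ℝ (Fin n)) (Fintype.card (Fin n) + L) (Metric.ball 0 2) M
      (Lc (Pi.basisFun ℝ (Fin n)) (fun i j x => a x i j) w) := by
    have := Bd_of (b := Pi.basisFun ℝ (Fin n)) Metric.isOpen_ball le_rfl norm_bF hM0 hF
      (Fintype.card (Fin n) + L) (fun l hl x hx => hM l (by omega) x hx)
    rw [one_pow, mul_one] at this
    exact this.congr Metric.isOpen_ball e
  have hS : 0 ≤ √(∫ x in Metric.ball (0 : V n) 2, w x ^ 2) + M :=
    add_nonneg (Real.sqrt_nonneg _) hM0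
  have hsub : Metric.ball (0 : V n) 1 ⊆ Metric.ball 0 2 := Metric.ball_subset_ball (by norm_num)
  have hB : ∀ v : Fin l → Fin n, |iteratedFDeriv ℝ l w 0 (Pi.basisFun ℝ (Fin n) ∘ v)| ≤
      C * (√(∫ x in Metric.ball (0 : V n) 2, w x ^ 2) + M) := fun v =>
    h _ (CO_of ha ha1) w hw hwi M hM0 hBF
      (fun y => iteratedFDeriv ℝ l w y (Pi.basisFun ℝ (Fin n) ∘ v))
      ((cd_word (b := Pi.basisFun ℝ (Fin n)) Metric.isOpen_ball (hw.mono hsub) l _))
      ((Hs_word Metric.isOpen_ball (hw.mono hsub) l _ v).trans (Hs_le (by omega) w))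
  have h3 := hκ l (iteratedFDeriv ℝ l w 0) _ (mul_nonneg hC.le hS) hB
  have h4 : κ l ≤ Q := Finset.single_le_sum (f := κ) (fun l _ => (hκ0 l).le)
    (Finset.mem_range.2 (by omega))
  calc ‖iteratedFDeriv ℝ l w 0‖ ≤ κ l * (C * (√(∫ x in Metric.ball (0 : V n) 2, w x ^ 2) + M)) := h3
    _ ≤ Q * (C * (√(∫ x in Metric.ball (0 : V n) 2, w x ^ 2) + M)) :=
        mul_le_mul_of_nonneg_right h4 (mul_nonneg hC.le hS)
    _ = _ := by ring

end Vale.Agent.P088.HY
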