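import Vale.Agent.P088.R2.H558.Defs

/-!
# P088: the annulus `3/4 < |x| < 2`
-/

open MeasureTheory Set Function
open scoped ContDiff Matrix ENNReal Pointwise

set_option linter.unusedSectionVars false
set_option linter.unusedVariables false

noncomputable section

namespace Vale.Agent.P088.HY

open Vale.Agent.P088.LR

namespace Pl

variable {n : ℕ}

theorem sq_nn (x : V n) : 0 ≤ sq x := Finset.sum_nonneg fun _ _ => sq_nonneg _

theorem sq_smul (t : ℝ) (x : V n) : sq (t • x) = t ^ 2 * sq x := by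
  simp only [sq, Pi.smul_apply, smul_eq_mul, mul_pow, Finset.mul_sum]

theorem sq_cont : Continuous (sq : V n → ℝ) := by
  unfold sq; fun_prop

theorem sq_cd : ContDiff ℝ ∞ (sq : V n → ℝ) := by
  unfold sq; fun_prop

theorem Bs_open (ρ : ℝ) : IsOpen (Bs n ρ) := isOpen_lt sq_cont continuous_const

/-- The annulus. -/
def An (n : ℕ) : Set (V n) := {x | (3 / 4) ^ 2 < sq x ∧ sq x < 2 ^ 2}

theorem An_open : IsOpen (An n) :=
  (isOpen_lt continuous_const sq_cont).inter (isOpen_lt sq_cont continuous_const)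

theorem An_pre (hn : 2 ≤ n) : IsPreconnected (An n) := by
  have h1 : IsPreconnected (Metric.sphere (0 : EuclideanSpace ℝ (Fin n)) 1) := by
    apply isPreconnected_sphere
    rw [← Module.finrank_eq_rank, finrank_euclideanSpace_fin]
    exact_mod_cast hn
  have h2 : IsPreconnected (Metric.sphere (0 : EuclideanSpace ℝ (Fin n)) 1 ×ˢ
      Ioo (3 / 4 : ℝ) 2) := h1.prod isPreconnected_Ioo
  set φ : EuclideanSpace ℝ (Fin n) × ℝ → V n := fun p => p.2 • (WithLp.ofLp p.1 : V n) with hφ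
  have hc : Continuous φ := by
    rw [hφ]
    exact continuous_snd.smul ((PiLp.continuous_ofLp 2 _).comp continuous_fst)
  have h3 : An n = φ '' (Metric.sphere (0 : EuclideanSpace ℝ (Fin n)) 1 ×ˢ
      Ioo (3 / 4 : ℝ) 2) := by
    ext x
    constructor
    · rintro ⟨ha, hb⟩
      have h0 : 0 < sq x := lt_trans (by positivity) ha
      set r := √(sq x) with hr
      have hr0 : 0 < r := Real.sqrt_pos.2 h0
      have hr2 : r ^ 2 = sq x := Real.sq_sqrt h0.le
      refine ⟨(WithLp.toLp 2 (r⁻¹ • x), r), ⟨?_, ?_⟩, ?_⟩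
      · rw [mem_sphere_zero_iff_norm, EuclideanSpace.norm_eq]
        have : ∑ i, ‖(WithLp.toLp 2 (r⁻¹ • x) : EuclideanSpace ℝ (Fin n)) i‖ ^ 2 = 1 := by
          have e : sq (r⁻¹ • x) = 1 := by
            rw [sq_smul, ← hr2]; field_simp
          rw [← e]
          simp [sq, mul_pow]
        rw [this, Real.sqrt_one]
      · constructor
        · rw [← hr2] at ha
          exact lt_of_pow_lt_pow_left₀ 2 hr0.le ha
        · rw [← hr2] at hb
          exact lt_of_pow_lt_pow_left₀ 2 (by norm_num) hb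
      · simp only [hφ, smul_smul]
        rw [mul_inv_cancel₀ hr0.ne', one_smul]
    · rintro ⟨⟨θ, t⟩, ⟨hθ, ht⟩, rfl⟩
      rw [mem_sphere_zero_iff_norm, EuclideanSpace.norm_eq, Real.sqrt_eq_one] at hθ
      have e : sq (WithLp.ofLp θ : V n) = 1 := by
        rw [← hθ]; simp [sq]
      have e2 : sq (φ (θ, t)) = t ^ 2 := by
        rw [hφ]; simp only; rw [sq_smul, e, mul_one]
      simp only [mem_Ioo] at ht
      refine ⟨?_, ?_⟩
      · rw [e2]; exact pow_lt_pow_left₀ ht.1 (by norm_num) two_ne_zero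
      · rw [e2]; exact pow_lt_pow_left₀ ht.2 (by linarith) two_ne_zero
  rw [h3]
  exact h2.image φ hc.continuousOn

theorem Bs_smul {ρ : ℝ} (hρ : 0 < ρ) : Bs n ρ = ρ • Bs n 1 := by
  ext x
  rw [Set.mem_smul_set_iff_inv_smul_mem₀ hρ.ne']
  simp only [Bs, mem_ofPred_eq, sq_smul, one_pow]
  rw [inv_pow, inv_mul_lt_iff₀ (by positivity), mul_one]

theorem Bs_vol {ρ : ℝ} (hρ : 0 < ρ) :
    (volume : Measure (V n)).real (Bs n ρ) = ρ ^ n * (volume : Measure (V n)).real (Bs n 1) := by
  rw [Bs_smul hρ, measureReal_def, Measure.addHaar_smul, ENNReal.toReal_mul,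
    Module.finrank_fin_fun, abs_of_pos (by positivity), ENNReal.toReal_ofReal (by positivity),
    measureReal_def]

theorem Bs_fin {ρ : ℝ} (hρ : 0 < ρ) : (volume : Measure (V n)) (Bs n ρ) ≠ ⊤ := by
  have h : Bs n 1 ⊆ Metric.closedBall (0 : V n) 1 := by
    intro x hx
    rw [mem_closedBall_zero_iff, pi_norm_le_iff_of_nonneg zero_le_one]
    intro i
    have h1 : x i ^ 2 ≤ sq x := Finset.single_le_sum (f := fun j => x j ^ 2)
      (fun _ _ => sq_nonneg _) (Finset.mem_univ i)
    have h2 : sq x < 1 ^ 2 := hx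
    rw [Real.norm_eq_abs, abs_le_one_iff_mul_self_le_one]
    nlinarith
  have h1 : (volume : Measure (V n)) (Bs n 1) ≠ ⊤ :=
    ((measure_mono h).trans_lt measure_closedBall_lt_top).ne
  rw [Bs_smul hρ, Measure.addHaar_smul]
  exact ENNReal.mul_ne_top ENNReal.ofReal_ne_top h1

theorem Bs_pos : 0 < (volume : Measure (V n)).real (Bs n 1) := by
  rw [measureReal_def]
  refine ENNReal.toReal_pos ?_ (Bs_fin one_pos)
  have : (0 : V n) ∈ Bs n 1 := by simp [Bs, sq]
  exact ((Bs_open 1).measure_pos volume ⟨0, this⟩).ne'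

/-- The weight `1 / (4 - |x|²)²` is not integrable near the sphere `|x| = 2`. -/
theorem shell (hn : 1 ≤ n) {c : ℝ} (hc : 0 ≤ c) {f : V n → ℝ} (hf : IntegrableOn f (Bs n 2))
    (hf0 : ∀ x ∈ Bs n 2, 0 ≤ f x)
    (h : ∀ x ∈ An n, c / (4 - sq x) ^ 2 ≤ f x) : c = 0 := by
  by_contra hc0
  have hc1 : 0 < c := lt_of_le_of_ne hc (Ne.symm hc0)
  set v := (volume : Measure (V n)).real (Bs n 1) with hv
  have hv0 : 0 < v := Bs_pos
  set I := ∫ x in Bs n 2, f x with hI
  have hI0 : 0 ≤ I := setIntegral_nonneg (Bs_open 2).measurableSet hf0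
  have key : ∀ ρ : ℝ, 1 ≤ ρ → ρ < 2 → c * v ≤ 16 * (2 - ρ) * I := by
    intro ρ h1 h2
    have hρ0 : 0 < ρ := by linarith
    set S := Bs n 2 \ Bs n ρ with hS
    have hsub : Bs n ρ ⊆ Bs n 2 := by
      intro x hx
      have : sq x < ρ ^ 2 := hx
      show sq x < 2 ^ 2
      nlinarith
    have hSm : MeasurableSet S := (Bs_open 2).measurableSet.diff (Bs_open ρ).measurableSet
    have hS1 : (volume : Measure (V n)).real S = (2 ^ n - ρ ^ n) * v := by
      rw [hS, measureReal_sdiff hsub (Bs_open ρ).measurableSet (Bs_fin two_pos), Bs_vol two_pos,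
        Bs_vol hρ0]
      ring
    have hn1 : 2 - ρ ≤ 2 ^ n - ρ ^ n := by
      obtain ⟨m, rfl⟩ : ∃ m, n = m + 1 := ⟨n - 1, by omega⟩
      rw [pow_succ, pow_succ]
      have a1 : ρ ^ m ≤ 2 ^ m := pow_le_pow_left₀ hρ0.le h2.le m
      have a2 : 1 ≤ ρ ^ m := one_le_pow₀ h1
      nlinarith
    have hS2 : (2 - ρ) * v ≤ (volume : Measure (V n)).real S := by
      rw [hS1]; exact mul_le_mul_of_nonneg_right hn1 hv0.le
    have hfS : IntegrableOn f S := hf.mono_set sdiff_subset
    have hlow : ∀ x ∈ S, c / (16 * (2 - ρ) ^ 2) ≤ f x := by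
      intro x hx
      have hx1 : sq x < 2 ^ 2 := hx.1
      have hx2 : ρ ^ 2 ≤ sq x := not_lt.1 hx.2
      have hA : x ∈ An n := ⟨by nlinarith, hx1⟩
      refine le_trans ?_ (h x hA)
      have p1 : 0 < 4 - sq x := by linarith
      have p2 : 4 - sq x ≤ 4 * (2 - ρ) := by nlinarith
      apply div_le_div_of_nonneg_left hc (by positivity)
      have : (4 - sq x) ^ 2 ≤ (4 * (2 - ρ)) ^ 2 := pow_le_pow_left₀ p1.le p2 2
      linarith [this, mul_pow (4 : ℝ) (2 - ρ) 2]
    have h3 : c / (16 * (2 - ρ) ^ 2) * (volume : Measure (V n)).real S ≤ ∫ x in S, f x := by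
      have hfin : (volume : Measure (V n)) S ≠ ⊤ :=
        ((measure_mono sdiff_subset).trans_lt (Bs_fin two_pos).lt_top).ne
      have := setIntegral_mono_on (f := fun _ => c / (16 * (2 - ρ) ^ 2)) (g := f) (s := S)
        (integrableOn_const hfin) hfS hSm hlow
      rw [setIntegral_const, smul_eq_mul, mul_comm] at this
      exact this
    have h4 : ∫ x in S, f x ≤ I :=
      setIntegral_mono_set hf ((ae_restrict_iff' (Bs_open 2).measurableSet).2
        (ae_of_all _ hf0)) (sdiff_subset.eventuallyLE)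
    have h5 : c / (16 * (2 - ρ) ^ 2) * ((2 - ρ) * v) ≤ I :=
      (mul_le_mul_of_nonneg_left hS2 (by positivity)).trans (h3.trans h4)
    have h6 : c / (16 * (2 - ρ) ^ 2) * ((2 - ρ) * v) = c * v / (16 * (2 - ρ)) := by
      have : (2 - ρ) ≠ 0 := by linarith
      field_simp
    rw [h6, div_le_iff₀ (by nlinarith)] at h5
    linarith
  have hcv : 0 < c * v := mul_pos hc1 hv0
  have hq : 0 < c * v / (32 * (I + 1)) := by positivity
  set δ := min 1 (c * v / (32 * (I + 1))) with hδ
  have hδ0 : 0 < δ := lt_min one_pos hq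
  have h1 := key (2 - δ) (by linarith [min_le_left 1 (c * v / (32 * (I + 1)))]) (by linarith)
  have h2 : 16 * (2 - (2 - δ)) * I ≤ c * v / 2 := by
    have a1 : δ ≤ c * v / (32 * (I + 1)) := min_le_right _ _
    have a2 : δ * (I + 1) ≤ c * v / 32 := by
      calc δ * (I + 1) ≤ c * v / (32 * (I + 1)) * (I + 1) :=
            mul_le_mul_of_nonneg_right a1 (by linarith)
        _ = c * v / 32 := by field_simp
    nlinarith
  linarith

end Pl

end Vale.Agent.P088.HY
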