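import Vale.Agent.P088.R2.H551.V.Defs
import Vale.Agent.P088.R2.H16.Calc

/-!
# P088: complex matrix functions of `(x, y)` as real vectors
-/

open MeasureTheory Set
open scoped ContDiff Matrix

set_option linter.unusedSectionVars false
set_option linter.unusedVariables false

noncomputable section

namespace Vale.Agent.P088.PJ.H901

open Vale.Agent.P088.LR Vale.Agent.P088.LR.U Vale.Agent.P088.LR.H158
open Vale.Agent.P088.HY (VV Bs Bn Un DB Co CoOk Com LxG LyG Lx Ly dx dy)

variable {n N : ℕ}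

/-- Indices of the real components. -/
abbrev Ix (N : ℕ) := Fin N × Fin N × Fin 2

/-- The number of real components. -/
abbrev mm (N : ℕ) : ℕ := Fintype.card (Ix N)

/-- The enumeration. -/
def eqv (N : ℕ) : Ix N ≃ Fin (mm N) := Fintype.equivFin (Ix N)

/-- Real and imaginary part. -/
def cm (c : Fin 2) : ℂ →L[ℝ] ℝ := if c = 0 then Complex.reCLM else Complex.imCLM

/-- The matrix of the multiplication by `β`. -/
def mc (c d : Fin 2) : ℂ →L[ℝ] ℝ :=
  if c = d then Complex.reCLM else if c = 0 then -Complex.imCLM else Complex.imCLM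

theorem cm_norm (c : Fin 2) : ‖cm c‖ ≤ 1 := by
  unfold cm; split_ifs <;> simp

theorem mc_norm (c d : Fin 2) : ‖mc c d‖ ≤ 1 := by
  unfold mc; split_ifs <;> simp [norm_neg]

theorem cm_mul (c : Fin 2) (β w : ℂ) : cm c (β * w) = ∑ d, mc c d β * cm d w := by
  fin_cases c
  · simp [cm, mc, Fin.sum_univ_two, Complex.mul_re]; ring
  · simp [cm, mc, Fin.sum_univ_two, Complex.mul_im]; ring

theorem cm_smul (c : Fin 2) (r : ℝ) (w : ℂ) : cm c ((r : ℂ) * w) = r * cm c w := by
  fin_cases c <;> simp [cm]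

theorem cm_sq (w : ℂ) : ∑ c, cm c w ^ 2 = ‖w‖ ^ 2 := by
  rw [Fin.sum_univ_two, ← Complex.normSq_eq_norm_sq, Complex.normSq_apply]
  simp [cm]; ring

/-- The vector of the real components. -/
def vec (K : KC n N) (p : Fin (mm N)) (z : VV n) : ℝ :=
  cm ((eqv N).symm p).2.2 (K z ((eqv N).symm p).1 ((eqv N).symm p).2.1)

theorem vec_sq (K : KC n N) (z : VV n) : ∑ p, vec K p z ^ 2 = nq (K z) := by
  have : ∑ p, vec K p z ^ 2 = ∑ i : Ix N, cm i.2.2 (K z i.1 i.2.1) ^ 2 :=
    (Equiv.sum_comp (eqv N).symm (fun i : Ix N => cm i.2.2 (K z i.1 i.2.1) ^ 2))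
  rw [this, Fintype.sum_prod_type]
  unfold nq
  refine Finset.sum_congr rfl fun a _ => ?_
  rw [Fintype.sum_prod_type]
  refine Finset.sum_congr rfl fun b _ => ?_
  exact cm_sq _

/-- The coefficients of the left multiplication. -/
def coL (β : Fin n → MC n N) : Co n (mm N) where
  b l x := Matrix.of fun p q =>
    if ((eqv N).symm p).2.1 = ((eqv N).symm q).2.1 then
      mc ((eqv N).symm p).2.2 ((eqv N).symm q).2.2 (β l x ((eqv N).symm p).1 ((eqv N).symm q).1)
    else 0
  c _ := 0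

/-- The coefficients of the right multiplication. -/
def coR (β : Fin n → MC n N) : Co n (mm N) where
  b l x := Matrix.of fun p q =>
    if ((eqv N).symm p).1 = ((eqv N).symm q).1 then
      mc ((eqv N).symm p).2.2 ((eqv N).symm q).2.2
        (β l x ((eqv N).symm q).2.1 ((eqv N).symm p).2.1)
    else 0
  c _ := 0

/-! ## Calculus -/

section cal

variable {O : Set (VV n)} {K : KC n N} {z : VV n}

theorem cm_fd (c : Fin 2) {f : VV n → ℂ} (hf : DifferentiableAt ℝ f z) (v : VV n) :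
    fderiv ℝ (fun z => cm c (f z)) z v = cm c (fderiv ℝ f z v) := by
  have h := (cm c).hasFDerivAt.comp z hf.hasFDerivAt
  have h2 : (fun z => cm c (f z)) = ⇑(cm c) ∘ f := rfl
  rw [h2, h.fderiv]
  rfl

theorem SmK_da (hO : IsOpen O) (hK : SmK O K) (hz : z ∈ O) (a b : Fin N) :
    DifferentiableAt ℝ (fun z => K z a b) z :=
  ((hK a b).contDiffAt (hO.mem_nhds hz)).differentiableAt (by simp)

theorem SmK_dxk (hO : IsOpen O) (hK : SmK O K) (i : Fin n) : SmK O (dxk i K) := fun a b =>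
  ((hK a b).fderiv_of_isOpen hO (by simp)).clm_apply contDiffOn_const

theorem SmK_dyk (hO : IsOpen O) (hK : SmK O K) (i : Fin n) : SmK O (dyk i K) := fun a b =>
  ((hK a b).fderiv_of_isOpen hO (by simp)).clm_apply contDiffOn_const

theorem vec_cd (hK : SmK O K) (p : Fin (mm N)) : ContDiffOn ℝ ∞ (vec K p) O :=
  (cm _).contDiff.comp_contDiffOn (hK _ _)

theorem dx_vec (hO : IsOpen O) (hK : SmK O K) (hz : z ∈ O) (i : Fin n) (p : Fin (mm N)) :
    dx i (vec K p) z = vec (dxk i K) p z :=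
  cm_fd _ (SmK_da hO hK hz _ _) _

theorem dy_vec (hO : IsOpen O) (hK : SmK O K) (hz : z ∈ O) (i : Fin n) (p : Fin (mm N)) :
    dy i (vec K p) z = vec (dyk i K) p z :=
  cm_fd _ (SmK_da hO hK hz _ _) _

theorem dx_congr' (hO : IsOpen O) {f g : VV n → ℝ} (h : ∀ x ∈ O, f x = g x) (hz : z ∈ O)
    (i : Fin n) : dx i f z = dx i g z := by
  have : f =ᶠ[nhds z] g := Filter.eventuallyEq_of_mem (hO.mem_nhds hz) h
  simp only [dx, this.fderiv_eq]

theorem dy_congr' (hO : IsOpen O) {f g : VV n → ℝ} (h : ∀ x ∈ O, f x = g x) (hz : z ∈ O)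
    (i : Fin n) : dy i f z = dy i g z := by
  have : f =ᶠ[nhds z] g := Filter.eventuallyEq_of_mem (hO.mem_nhds hz) h
  simp only [dy, this.fderiv_eq]

theorem dxx_vec (hO : IsOpen O) (hK : SmK O K) (hz : z ∈ O) (i j : Fin n) (p : Fin (mm N)) :
    dx i (dx j (vec K p)) z = vec (dxk i (dxk j K)) p z := by
  rw [dx_congr' hO (fun y hy => dx_vec hO hK hy j p) hz i]
  exact dx_vec hO (SmK_dxk hO hK j) hz i p

theorem dyy_vec (hO : IsOpen O) (hK : SmK O K) (hz : z ∈ O) (i j : Fin n) (p : Fin (mm N)) :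
    dy i (dy j (vec K p)) z = vec (dyk i (dyk j K)) p z := by
  rw [dy_congr' hO (fun y hy => dy_vec hO hK hy j p) hz i]
  exact dy_vec hO (SmK_dyk hO hK j) hz i p

theorem dxy_vec (hO : IsOpen O) (hK : SmK O K) (hz : z ∈ O) (i j : Fin n) (p : Fin (mm N)) :
    dx i (dy j (vec K p)) z = vec (dxk i (dyk j K)) p z := by
  rw [dx_congr' hO (fun y hy => dy_vec hO hK hy j p) hz i]
  exact dx_vec hO (SmK_dyk hO hK j) hz i p

theorem sum_eqv (f : Ix N → ℝ) : ∑ q, f ((eqv N).symm q) = ∑ c, ∑ d, ∑ e, f (c, d, e) := by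
  rw [Equiv.sum_comp (eqv N).symm f, Fintype.sum_prod_type]
  refine Finset.sum_congr rfl fun a _ => ?_
  rw [Fintype.sum_prod_type]

theorem sum3 {A B C : Type} [Fintype A] [Fintype B] [Fintype C] (f : A → B → C → ℝ) :
    ∑ a, ∑ b, ∑ c, f a b c = ∑ c, ∑ a, ∑ b, f a b c := by
  have h : ∀ a, ∑ b, ∑ c, f a b c = ∑ c, ∑ b, f a b c := fun a => Finset.sum_comm
  simp only [h]
  exact Finset.sum_comm

/-- The operator in `x`. -/
theorem vec_Lk (hO : IsOpen O) (hK : SmK O K) (hz : z ∈ O) (s : MF n) (β : Fin n → MC n N)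
    (p : Fin (mm N)) : LxG s (coL β) (vec K) p z = vec (Lk s β K) p z := by
  obtain ⟨⟨a, b, c⟩, rfl⟩ := (eqv N).surjective p
  set g : Ix N → ℝ := fun i => ∑ l, (if b = i.2.1 then mc c i.2.2 (β l z.1 a i.1) else 0) *
        cm i.2.2 (dxk l K z i.1 i.2.1) with hg
  have e1 : ∀ q, (∑ l, (coL β).b l z.1 ((eqv N) (a, b, c)) q * dx l (vec K q) z +
      (coL β).c z.1 ((eqv N) (a, b, c)) q * vec K q z) = g ((eqv N).symm q) := by
    intro q
    simp only [dx_vec hO hK hz]
    simp [coL, vec, hg]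
  have e2 : ∀ (c' d : Fin N) (e : Fin 2), g (c', d, e) =
      ∑ l, (if b = d then mc c e (β l z.1 a c') * cm e (dxk l K z c' d) else 0) := by
    intro c' d e
    simp only [hg]
    refine Finset.sum_congr rfl fun l _ => ?_
    split_ifs <;> simp
  have e3 : ∑ q, g ((eqv N).symm q) = cm c ((∑ l, β l z.1 * dxk l K z) a b) := by
    rw [sum_eqv]
    calc ∑ c', ∑ d, ∑ e, g (c', d, e) = ∑ c', ∑ e, ∑ l, mc c e (β l z.1 a c') *
          cm e (dxk l K z c' b) := by
          refine Finset.sum_congr rfl fun c' _ => ?_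
          rw [Finset.sum_eq_single b]
          · refine Finset.sum_congr rfl fun e _ => ?_
            rw [e2]; simp
          · intro d _ hd
            refine Finset.sum_eq_zero fun e _ => ?_
            rw [e2]; simp [Ne.symm hd]
          · intro h; exact absurd (Finset.mem_univ _) h
      _ = ∑ l, ∑ c', ∑ e, mc c e (β l z.1 a c') * cm e (dxk l K z c' b) := sum3 _
      _ = _ := by
          simp only [Matrix.sum_apply, Matrix.mul_apply, map_sum, cm_mul]
  have e4 : vec (Lk s β K) ((eqv N) (a, b, c)) z =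
      cm c (∑ i, ∑ j, (s z.1 i j : ℂ) * dxk i (dxk j K) z a b) +
      cm c ((∑ l, β l z.1 * dxk l K z) a b) := by
    simp only [vec, Equiv.symm_apply_apply, Lk, Matrix.add_apply, map_add]
    congr 2
    simp only [Matrix.sum_apply, Matrix.smul_apply, smul_eq_mul]
  rw [e4]
  unfold LxG
  rw [Finset.sum_congr rfl fun q _ => e1 q, e3]
  congr 1
  unfold Lx
  simp only [map_sum, cm_smul, dxx_vec hO hK hz]
  simp only [vec, Equiv.symm_apply_apply]

/-- The operator in `y`. -/
theorem vec_Rk (hO : IsOpen O) (hK : SmK O K) (hz : z ∈ O) (s : MF n) (β : Fin n → MC n N)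
    (p : Fin (mm N)) : LyG s (coR β) (vec K) p z = vec (Rk s β K) p z := by
  obtain ⟨⟨a, b, c⟩, rfl⟩ := (eqv N).surjective p
  set g : Ix N → ℝ := fun i => ∑ l, (if a = i.1 then mc c i.2.2 (β l z.2 i.2.1 b) else 0) *
        cm i.2.2 (dyk l K z i.1 i.2.1) with hg
  have e1 : ∀ q, (∑ l, (coR β).b l z.2 ((eqv N) (a, b, c)) q * dy l (vec K q) z +
      (coR β).c z.2 ((eqv N) (a, b, c)) q * vec K q z) = g ((eqv N).symm q) := by
    intro q
    simp only [dy_vec hO hK hz]
    simp [coR, vec, hg]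
  have e2 : ∀ (c' d : Fin N) (e : Fin 2), g (c', d, e) =
      ∑ l, (if a = c' then mc c e (β l z.2 d b) * cm e (dyk l K z c' d) else 0) := by
    intro c' d e
    simp only [hg]
    refine Finset.sum_congr rfl fun l _ => ?_
    split_ifs <;> simp
  have e0 : ∀ (β w : ℂ), cm c (w * β) = ∑ d, mc c d β * cm d w := fun β w => by
    rw [mul_comm, cm_mul]
  have e3 : ∑ q, g ((eqv N).symm q) = cm c ((∑ l, dyk l K z * β l z.2) a b) := by
    rw [sum_eqv]
    calc ∑ c', ∑ d, ∑ e, g (c', d, e) = ∑ d, ∑ e, ∑ l, mc c e (β l z.2 d b) *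
          cm e (dyk l K z a d) := by
          rw [Finset.sum_eq_single a]
          · refine Finset.sum_congr rfl fun d _ => Finset.sum_congr rfl fun e _ => ?_
            rw [e2]; simp
          · intro c' _ hd
            refine Finset.sum_eq_zero fun d _ => Finset.sum_eq_zero fun e _ => ?_
            rw [e2]; simp [Ne.symm hd]
          · intro h; exact absurd (Finset.mem_univ _) h
      _ = ∑ l, ∑ d, ∑ e, mc c e (β l z.2 d b) * cm e (dyk l K z a d) := sum3 _
      _ = _ := by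
          simp only [Matrix.sum_apply, Matrix.mul_apply, map_sum, e0]
  have e4 : vec (Rk s β K) ((eqv N) (a, b, c)) z =
      cm c (∑ i, ∑ j, (s z.2 i j : ℂ) * dyk i (dyk j K) z a b) +
      cm c ((∑ l, dyk l K z * β l z.2) a b) := by
    simp only [vec, Equiv.symm_apply_apply, Rk, Matrix.add_apply, map_add]
    congr 2
    simp only [Matrix.sum_apply, Matrix.smul_apply, smul_eq_mul]
  rw [e4]
  unfold LyG
  rw [Finset.sum_congr rfl fun q _ => e1 q, e3]
  congr 1
  unfold Ly
  simp only [map_sum, cm_smul, dyy_vec hO hK hz]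
  simp only [vec, Equiv.symm_apply_apply]

end cal

/-! ## Bounds -/

theorem clm_it {E : Type} [NormedAddCommGroup E] [NormedSpace ℝ E] {L : ℂ →L[ℝ] ℝ} (hL : ‖L‖ ≤ 1)
    {f : E → ℂ} {x : E} (hf : ContDiffAt ℝ ∞ f x) (l : ℕ) :
    ‖iteratedFDeriv ℝ l (fun x => L (f x)) x‖ ≤ ‖iteratedFDeriv ℝ l f x‖ := by
  have h := L.iteratedFDeriv_comp_left hf (i := l) (by exact_mod_cast le_top)
  have h2 : (fun x => L (f x)) = ⇑L ∘ f := rfl
  rw [h2, h]
  refine (ContinuousLinearMap.norm_compContinuousMultilinearMap_le _ _).trans ?_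
  exact mul_le_of_le_one_left (norm_nonneg _) hL

theorem vec_it {K : KC n N} {z : VV n} (hK : ∀ a b, ContDiffAt ℝ ∞ (fun z => K z a b) z) {l : ℕ}
    {B : ℝ} (hB : ∀ a b, ‖iteratedFDeriv ℝ l (fun z => K z a b) z‖ ≤ B) (p : Fin (mm N)) :
    ‖iteratedFDeriv ℝ l (vec K p) z‖ ≤ B :=
  (clm_it (cm_norm _) (hK _ _) l).trans (hB _ _)

theorem zero_it {E : Type} [NormedAddCommGroup E] [NormedSpace ℝ E] (l : ℕ) (x : E) :
    ‖iteratedFDeriv ℝ l (fun _ : E => (0 : ℝ)) x‖ = 0 := by
  have : iteratedFDeriv ℝ l (fun _ : E => (0 : ℝ)) = 0 := iteratedFDeriv_fun_zero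
  rw [this]; simp

theorem coL_ok {β : Fin n → MC n N} {k : ℕ} {ε M : ℝ} (hε : 0 ≤ ε) (hM : 0 ≤ M)
    (hs : ∀ i, SmC (β i)) (hb : ∀ i, ClC k ε (β i)) : CoOk k ε M (coL β) := by
  refine ⟨?_, ?_, ?_, ?_⟩
  · intro l p q
    by_cases h : ((eqv N).symm p).2.1 = ((eqv N).symm q).2.1
    · simp only [coL, Matrix.of_apply, if_pos h]
      exact (mc _ _).contDiff.comp (hs l _ _)
    · simp only [coL, Matrix.of_apply, if_neg h]
      exact contDiff_const
  · intro p q
    exact contDiff_const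
  · intro l p q j hj x
    by_cases h : ((eqv N).symm p).2.1 = ((eqv N).symm q).2.1
    · simp only [coL, Matrix.of_apply, if_pos h]
      exact (clm_it (mc_norm _ _) (hs l _ _).contDiffAt j).trans (hb l _ _ j hj x)
    · simp only [coL, Matrix.of_apply, if_neg h]
      rw [zero_it]; exact hε
  · intro p q j hj x
    have : (fun x => (coL β).c x p q) = fun _ => (0 : ℝ) := rfl
    rw [this, zero_it]; exact hM

theorem coR_ok {β : Fin n → MC n N} {k : ℕ} {ε M : ℝ} (hε : 0 ≤ ε) (hM : 0 ≤ M)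
    (hs : ∀ i, SmC (β i)) (hb : ∀ i, ClC k ε (β i)) : CoOk k ε M (coR β) := by
  refine ⟨?_, ?_, ?_, ?_⟩
  · intro l p q
    by_cases h : ((eqv N).symm p).1 = ((eqv N).symm q).1
    · simp only [coR, Matrix.of_apply, if_pos h]
      exact (mc _ _).contDiff.comp (hs l _ _)
    · simp only [coR, Matrix.of_apply, if_neg h]
      exact contDiff_const
  · intro p q
    exact contDiff_const
  · intro l p q j hj x
    by_cases h : ((eqv N).symm p).1 = ((eqv N).symm q).1
    · simp only [coR, Matrix.of_apply, if_pos h]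
      exact (clm_it (mc_norm _ _) (hs l _ _).contDiffAt j).trans (hb l _ _ j hj x)
    · simp only [coR, Matrix.of_apply, if_neg h]
      rw [zero_it]; exact hε
  · intro p q j hj x
    have : (fun x => (coR β).c x p q) = fun _ => (0 : ℝ) := rfl
    rw [this, zero_it]; exact hM

/-! ## Commutation -/

theorem mc_mul (c e : Fin 2) (β β' : ℂ) : ∑ d, mc c d β * mc d e β' = mc c e (β * β') := by
  fin_cases c <;> fin_cases e <;>
    simp [mc, Fin.sum_univ_two, Complex.mul_re, Complex.mul_im] <;> ring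

theorem com_LR (β₁ β₂ : Fin n → MC n N) : Com (coL β₁) (coR β₂) := by
  refine ⟨?_, ?_, ?_, ?_⟩
  · intro k l x y
    ext p r
    obtain ⟨⟨a, b, c⟩, rfl⟩ := (eqv N).surjective p
    obtain ⟨⟨a', b', c'⟩, rfl⟩ := (eqv N).surjective r
    have e1 : ((coL β₁).b k x * (coR β₂).b l y) ((eqv N) (a, b, c)) ((eqv N) (a', b', c')) =
        mc c c' (β₁ k x a a' * β₂ l y b' b) := by
      rw [Matrix.mul_apply]
      set g : Ix N → ℝ := fun i => (if b = i.2.1 then mc c i.2.2 (β₁ k x a i.1) else 0) *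
        (if i.1 = a' then mc i.2.2 c' (β₂ l y b' i.2.1) else 0) with hg
      have h1 : ∀ q, (coL β₁).b k x ((eqv N) (a, b, c)) q * (coR β₂).b l y q
          ((eqv N) (a', b', c')) = g ((eqv N).symm q) := by
        intro q; simp [coL, coR, hg]
      rw [Finset.sum_congr rfl fun q _ => h1 q, sum_eqv, Finset.sum_eq_single a',
        Finset.sum_eq_single b]
      · simp only [hg, if_true]
        exact mc_mul _ _ _ _
      · intro d _ hd
        simp [hg, Ne.symm hd]
      · intro h; exact absurd (Finset.mem_univ _) h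
      · intro d _ hd
        simp [hg, hd]
      · intro h; exact absurd (Finset.mem_univ _) h
    have e2 : ((coR β₂).b l y * (coL β₁).b k x) ((eqv N) (a, b, c)) ((eqv N) (a', b', c')) =
        mc c c' (β₂ l y b' b * β₁ k x a a') := by
      rw [Matrix.mul_apply]
      set g : Ix N → ℝ := fun i => (if a = i.1 then mc c i.2.2 (β₂ l y i.2.1 b) else 0) *
        (if i.2.1 = b' then mc i.2.2 c' (β₁ k x i.1 a') else 0) with hg
      have h1 : ∀ q, (coR β₂).b l y ((eqv N) (a, b, c)) q * (coL β₁).b k x q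
          ((eqv N) (a', b', c')) = g ((eqv N).symm q) := by
        intro q; simp [coL, coR, hg]
      rw [Finset.sum_congr rfl fun q _ => h1 q, sum_eqv, Finset.sum_eq_single a,
        Finset.sum_eq_single b']
      · simp only [hg, if_true]
        exact mc_mul _ _ _ _
      · intro d _ hd
        simp [hg, hd]
      · intro h; exact absurd (Finset.mem_univ _) h
      · intro d _ hd
        simp [hg, Ne.symm hd]
      · intro h; exact absurd (Finset.mem_univ _) h
    rw [e1, e2, mul_comm]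
  · intro k x y
    show _ * (0 : Matrix _ _ ℝ) = 0 * _
    simp
  · intro l x y
    show (0 : Matrix _ _ ℝ) * _ = _ * 0
    simp
  · intro x y
    rfl

end Vale.Agent.P088.PJ.H901
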