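import Mathlib

/-!
# P088: interior estimates, calculus with directional derivatives
-/

open MeasureTheory Set Function
open scoped ContDiff

noncomputable section

namespace Vale.Agent.P088.HY.EI

variable {J E : Type} [NormedAddCommGroup E] [NormedSpace ℝ E]

/-- Derivative in the direction `b i`. -/
def D (b : J → E) (i : J) (f : E → ℝ) (z : E) : ℝ := fderiv ℝ f z (b i)

variable {b : J → E} {i j : J} {f g : E → ℝ} {O B : Set E} {z : E}

theorem cd_D (hO : IsOpen O) (hf : ContDiffOn ℝ ∞ f O) (i : J) : ContDiffOn ℝ ∞ (D b i f) O :=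
  (hf.fderiv_of_isOpen hO (by simp)).clm_apply contDiffOn_const

theorem cdg_D (hf : ContDiff ℝ ∞ f) (i : J) : ContDiff ℝ ∞ (D b i f) :=
  (hf.fderiv_right (by simp)).clm_apply contDiff_const

theorem da (hO : IsOpen O) (hf : ContDiffOn ℝ ∞ f O) (hz : z ∈ O) : DifferentiableAt ℝ f z :=
  (hf.contDiffAt (hO.mem_nhds hz)).differentiableAt (by simp)

theorem D_congr (hO : IsOpen O) (h : ∀ x ∈ O, f x = g x) (hz : z ∈ O) (i : J) :
    D b i f z = D b i g z := by
  have : f =ᶠ[nhds z] g := Filter.eventuallyEq_of_mem (hO.mem_nhds hz) h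
  simp only [D, this.fderiv_eq]

theorem D_mul (hf : DifferentiableAt ℝ f z) (hg : DifferentiableAt ℝ g z) (i : J) :
    D b i (fun x => f x * g x) z = f z * D b i g z + D b i f z * g z := by
  simp only [D, fderiv_fun_mul hf hg]
  simp [mul_comm]

theorem D_add (hf : DifferentiableAt ℝ f z) (hg : DifferentiableAt ℝ g z) (i : J) :
    D b i (fun x => f x + g x) z = D b i f z + D b i g z := by
  simp only [D, fderiv_fun_add hf hg]
  simp

theorem D_sub (hf : DifferentiableAt ℝ f z) (hg : DifferentiableAt ℝ g z) (i : J) :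
    D b i (fun x => f x - g x) z = D b i f z - D b i g z := by
  simp only [D, fderiv_fun_sub hf hg]
  simp

theorem D_const (c : ℝ) (i : J) : D b i (fun _ => c) z = 0 := by
  simp [D]

theorem D_sum {ι : Type*} (s : Finset ι) {f : ι → E → ℝ} (hf : ∀ k ∈ s, DifferentiableAt ℝ (f k) z)
    (i : J) : D b i (fun x => ∑ k ∈ s, f k x) z = ∑ k ∈ s, D b i (f k) z := by
  simp only [D, fderiv_fun_sum hf]
  simp

theorem two_le_inf : (2 : WithTop ℕ∞) ≤ ∞ := by
  exact WithTop.coe_le_coe.2 (le_top : (2 : ℕ∞) ≤ ⊤)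

theorem D_comm (hO : IsOpen O) (hf : ContDiffOn ℝ ∞ f O) (hz : z ∈ O) (i j : J) :
    D b i (D b j f) z = D b j (D b i f) z := by
  have h2 : ContDiffAt ℝ ∞ f z := hf.contDiffAt (hO.mem_nhds hz)
  have hs := h2.isSymmSndFDerivAt (by simpa using two_le_inf)
  have hd : DifferentiableAt ℝ (fderiv ℝ f) z :=
    (h2.fderiv_right (m := ∞) (by simp)).differentiableAt (by simp)
  have e : ∀ i j : J, D b i (D b j f) z = fderiv ℝ (fderiv ℝ f) z (b i) (b j) := by
    intro i j
    unfold D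
    rw [fderiv_clm_apply hd (differentiableAt_const _)]
    simp
  rw [e, e]
  exact hs _ _

/-- Multiplication by a cut-off. -/
theorem cd_cut (hO : IsOpen O) (hf : ContDiffOn ℝ ∞ f O) (hg : ContDiff ℝ ∞ g)
    (h : tsupport g ⊆ O) : ContDiff ℝ ∞ (fun x => g x * f x) := by
  rw [contDiff_iff_contDiffAt]
  intro x
  by_cases hx : x ∈ O
  · exact hg.contDiffAt.mul (hf.contDiffAt (hO.mem_nhds hx))
  · have h1 : x ∉ tsupport g := fun h' => hx (h h')
    have h2 : (fun x => g x * f x) =ᶠ[nhds x] fun _ => 0 := by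
      filter_upwards [(isClosed_tsupport g).isOpen_compl.mem_nhds h1] with y hy
      have : g y = 0 := image_eq_zero_of_notMem_tsupport hy
      simp [this]
    exact contDiffAt_const.congr_of_eventuallyEq h2

theorem D_supp (hf : HasCompactSupport f) (i : J) : HasCompactSupport (D b i f) := by
  have := hf.fderiv (𝕜 := ℝ)
  refine this.mono ?_
  intro x hx h
  apply hx
  simp [D, h]

theorem ts_D (i : J) : tsupport (D b i f) ⊆ tsupport f := by
  refine subset_trans ?_ (tsupport_fderiv_subset ℝ (f := f))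
  apply closure_mono
  intro x hx h
  apply hx
  simp [D, h]

/-- The operator `∑ c_ij ∂_i ∂_j`. -/
def Lc [Fintype J] (b : J → E) (c : J → J → E → ℝ) (f : E → ℝ) (z : E) : ℝ :=
  ∑ i, ∑ j, c i j z * D b i (D b j f) z

theorem cd_Lc [Fintype J] {c : J → J → E → ℝ} (hO : IsOpen O) (hc : ∀ i j, ContDiffOn ℝ ∞ (c i j) O)
    (hf : ContDiffOn ℝ ∞ f O) : ContDiffOn ℝ ∞ (Lc b c f) O :=
  ContDiffOn.sum fun i _ => ContDiffOn.sum fun j _ =>
    (hc i j).mul (cd_D hO (cd_D hO hf j) i)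

/-- All derivatives in the directions `b i` up to order `k` are bounded by `A` on `B`. -/
def Bd (b : J → E) : ℕ → Set E → ℝ → (E → ℝ) → Prop
  | 0, B, A, f => ∀ x ∈ B, |f x| ≤ A
  | k + 1, B, A, f => (∀ x ∈ B, |f x| ≤ A) ∧ ∀ i, Bd b k B A (D b i f)

variable {k : ℕ} {A A' : ℝ}

theorem Bd.zz (h : Bd b k B A f) : ∀ x ∈ B, |f x| ≤ A := by
  cases k with
  | zero => exact h
  | succ k => exact h.1

theorem Bd.mono_set {B' : Set E} (hB : B' ⊆ B) : ∀ {k : ℕ} {f : E → ℝ}, Bd b k B A f →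
    Bd b k B' A f
  | 0, _, h => fun x hx => h x (hB hx)
  | _ + 1, _, h => ⟨fun x hx => h.1 x (hB hx), fun i => Bd.mono_set hB (h.2 i)⟩

theorem Bd.mono (hA : A ≤ A') : ∀ {k : ℕ} {f : E → ℝ}, Bd b k B A f → Bd b k B A' f
  | 0, _, h => fun x hx => (h x hx).trans hA
  | _ + 1, _, h => ⟨fun x hx => (h.1 x hx).trans hA, fun i => Bd.mono hA (h.2 i)⟩

theorem Bd.down : ∀ {k : ℕ} {f : E → ℝ}, Bd b (k + 1) B A f → Bd b k B A f
  | 0, _, h => h.1
  | _ + 1, _, h => ⟨h.1, fun i => Bd.down (h.2 i)⟩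

theorem Bd.le {l : ℕ} (hl : l ≤ k) (h : Bd b k B A f) : Bd b l B A f := by
  induction hl with
  | refl => exact h
  | step _ ih => exact ih h.down

theorem Bd.congr (hB : IsOpen B) : ∀ {k : ℕ} {f g : E → ℝ}, (∀ x ∈ B, f x = g x) →
    Bd b k B A f → Bd b k B A g
  | 0, _, _, e, h => fun x hx => by rw [← e x hx]; exact h x hx
  | _ + 1, _, _, e, h => ⟨fun x hx => by rw [← e x hx]; exact h.1 x hx,
      fun i => Bd.congr hB (fun x hx => D_congr hB e hx i) (h.2 i)⟩

/-- Bounds of the Fréchet derivatives give bounds of the directional derivatives. -/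
theorem Bd_of_aux (hB : IsOpen B) {β : ℝ} (hβ : 1 ≤ β) (hb : ∀ i, ‖b i‖ ≤ β) (hA : 0 ≤ A)
    {g : E → ℝ} (hg : ContDiffOn ℝ ∞ g B) (k : ℕ) : ∀ (m : ℕ) (v : Fin m → E),
    (∀ j, ‖v j‖ ≤ β) → (∀ l ≤ m + k, ∀ x ∈ B, ‖iteratedFDeriv ℝ l g x‖ ≤ A) →
    Bd b k B (A * β ^ (m + k)) (fun x => iteratedFDeriv ℝ m g x v) := by
  have h0 : ∀ (m : ℕ) (v : Fin m → E), (∀ j, ‖v j‖ ≤ β) → ∀ (x : E) (r : ℕ),
      ‖iteratedFDeriv ℝ m g x‖ ≤ A → |iteratedFDeriv ℝ m g x v| ≤ A * β ^ (m + r) := by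
    intro m v hv x r h
    have h1 := (iteratedFDeriv ℝ m g x).le_opNorm v
    have h2 : ∏ j, ‖v j‖ ≤ β ^ m := by
      calc ∏ j, ‖v j‖ ≤ ∏ _j : Fin m, β :=
            Finset.prod_le_prod (fun _ _ => norm_nonneg _) fun j _ => hv j
        _ = β ^ m := by simp
    calc |iteratedFDeriv ℝ m g x v| ≤ ‖iteratedFDeriv ℝ m g x‖ * ∏ j, ‖v j‖ := h1
      _ ≤ A * β ^ m := mul_le_mul h h2 (Finset.prod_nonneg fun _ _ => norm_nonneg _) hA
      _ ≤ A * β ^ (m + r) := by
          apply mul_le_mul_of_nonneg_left _ hA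
          exact pow_le_pow_right₀ hβ (by omega)
  induction k with
  | zero =>
    intro m v hv h x hx
    exact h0 m v hv x 0 (h m (by omega) x hx)
  | succ k ih =>
    intro m v hv h
    refine ⟨fun x hx => h0 m v hv x (k + 1) (h m (by omega) x hx), fun i => ?_⟩
    have h1 := ih (m + 1) (Fin.cons (b i) v) (by
      intro j
      refine Fin.cases ?_ ?_ j
      · simpa using hb i
      · intro j; simpa using hv j) (by
      intro l hl x hx
      exact h l (by omega) x hx)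
    have h2 : m + 1 + k = m + (k + 1) := by omega
    rw [h2] at h1
    refine Bd.congr hB ?_ h1
    intro x hx
    have hd : DifferentiableAt ℝ (iteratedFDeriv ℝ m g) x :=
      ((hg.contDiffAt (hB.mem_nhds hx)).iteratedFDeriv_right (m := ∞) (i := m)
        (by exact_mod_cast le_top)).differentiableAt (by simp)
    rw [iteratedFDeriv_succ_apply_left]
    simp only [Fin.cons_zero, Fin.tail_cons]
    unfold D
    have h3 : (fun y => iteratedFDeriv ℝ m g y v) =
        fun y => ContinuousMultilinearMap.apply ℝ (fun _ : Fin m => E) ℝ v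
          (iteratedFDeriv ℝ m g y) := rfl
    rw [h3]
    have h4 := ((ContinuousMultilinearMap.apply ℝ (fun _ : Fin m => E) ℝ v).hasFDerivAt.comp x
      hd.hasFDerivAt).fderiv
    have h5 : (fun y => ContinuousMultilinearMap.apply ℝ (fun _ : Fin m => E) ℝ v
          (iteratedFDeriv ℝ m g y)) = (⇑(ContinuousMultilinearMap.apply ℝ (fun _ : Fin m => E) ℝ v)
          ∘ iteratedFDeriv ℝ m g) := rfl
    rw [h5, h4]
    simp

theorem Bd_of (hB : IsOpen B) {β : ℝ} (hβ : 1 ≤ β) (hb : ∀ i, ‖b i‖ ≤ β) (hA : 0 ≤ A)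
    (hf : ContDiffOn ℝ ∞ f B) (k : ℕ) (h : ∀ l ≤ k, ∀ x ∈ B, ‖iteratedFDeriv ℝ l f x‖ ≤ A) :
    Bd b k B (A * β ^ k) f := by
  have := Bd_of_aux hB hβ hb hA hf k 0 Fin.elim0 (fun j => j.elim0) (by
    intro l hl; exact h l (by omega))
  simpa using this

end Vale.Agent.P088.HY.EI
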