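import Vale.Agent.P088.R2.H901.EllA

/-!
# P088: interior estimates, Sobolev energies
-/

open MeasureTheory Set Function
open scoped ContDiff ENNReal NNReal

set_option linter.unusedSectionVars false
set_option linter.unusedVariables false

noncomputable section

namespace Vale.Agent.P088.HY.EI

variable {J E : Type} [NormedAddCommGroup E] [NormedSpace ℝ E]
  [MeasurableSpace E] [BorelSpace E] {μ : Measure E}

/-- `∫_B f²`. -/
def nn (μ : Measure E) (B : Set E) (f : E → ℝ) : ℝ≥0∞ := ∫⁻ x in B, ENNReal.ofReal (f x ^ 2) ∂μ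

variable {b : J → E} {i j : J} {f g : E → ℝ} {O B B' : Set E} {z : E} {k : ℕ} {A : ℝ}

omit [NormedSpace ℝ E] [BorelSpace E] in
theorem nn_mono (h : B ⊆ B') (f : E → ℝ) : nn μ B f ≤ nn μ B' f :=
  lintegral_mono_set h

omit [NormedSpace ℝ E] in
theorem nn_congr (hB : IsOpen B) (h : ∀ x ∈ B, f x = g x) : nn μ B f = nn μ B g := by
  apply setLIntegral_congr_fun hB.measurableSet
  intro x hx
  simp only [h x hx]

omit [NormedSpace ℝ E] in
theorem nn_mul (hB : IsOpen B) (h : ∀ x ∈ B, |g x| ≤ A) :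
    nn μ B (fun x => g x * f x) ≤ ENNReal.ofReal (A ^ 2) * nn μ B f := by
  unfold nn
  rw [← lintegral_const_mul' _ _ ENNReal.ofReal_ne_top]
  apply setLIntegral_mono' hB.measurableSet
  intro x hx
  rw [← ENNReal.ofReal_mul (sq_nonneg _)]
  apply ENNReal.ofReal_le_ofReal
  rw [mul_pow]
  apply mul_le_mul_of_nonneg_right _ (sq_nonneg _)
  rw [← sq_abs]
  exact pow_le_pow_left₀ (abs_nonneg _) (h x hx) 2

theorem aem (hB : IsOpen B) (hf : ContDiffOn ℝ ((⊤ : ℕ∞) : WithTop ℕ∞) f B) :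
    AEMeasurable (fun x => ENNReal.ofReal (f x ^ 2)) (μ.restrict B) := by
  have := (hf.continuousOn.aemeasurable (μ := μ) hB.measurableSet)
  exact (this.pow_const 2).ennreal_ofReal

theorem nn_add (hB : IsOpen B) (hf : ContDiffOn ℝ ((⊤ : ℕ∞) : WithTop ℕ∞) f B) :
    nn μ B (fun x => f x + g x) ≤ 2 * (nn μ B f + nn μ B g) := by
  unfold nn
  rw [← lintegral_add_left' (aem hB hf), ← lintegral_const_mul' _ _ (by simp)]
  apply setLIntegral_mono' hB.measurableSet
  intro x _
  rw [← ENNReal.ofReal_add (sq_nonneg _) (sq_nonneg _)]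
  have : (2 : ℝ≥0∞) = ENNReal.ofReal 2 := by simp
  rw [this, ← ENNReal.ofReal_mul (by norm_num)]
  apply ENNReal.ofReal_le_ofReal
  nlinarith [sq_nonneg (f x - g x)]

omit [NormedSpace ℝ E] [BorelSpace E] in
theorem nn_zero : nn μ B (fun _ => 0) = 0 := by
  simp [nn]

variable [Fintype J]

/-- The sum of the `L²` norms of all iterated directional derivatives of order `≤ k`. -/
def Hs (μ : Measure E) (b : J → E) : ℕ → Set E → (E → ℝ) → ℝ≥0∞
  | 0, B, f => nn μ B f
  | k + 1, B, f => nn μ B f + ∑ i, Hs μ b k B (D b i f)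

omit [BorelSpace E] in
theorem Hs_mono (h : B ⊆ B') : ∀ (k : ℕ) (f : E → ℝ), Hs μ b k B f ≤ Hs μ b k B' f
  | 0, f => nn_mono h f
  | k + 1, f => add_le_add (nn_mono h f) (Finset.sum_le_sum fun _ _ => Hs_mono h k _)

omit [BorelSpace E] in
theorem Hs_succ : ∀ (k : ℕ) (f : E → ℝ), Hs μ b k B f ≤ Hs μ b (k + 1) B f
  | 0, f => le_self_add
  | k + 1, f => add_le_add le_rfl (Finset.sum_le_sum fun _ _ => Hs_succ k _)

omit [BorelSpace E] in
theorem Hs_le {l : ℕ} (h : k ≤ l) (f : E → ℝ) : Hs μ b k B f ≤ Hs μ b l B f := by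
  induction h with
  | refl => exact le_rfl
  | step _ ih => exact ih.trans (Hs_succ _ _)

omit [BorelSpace E] in
theorem nn_le_Hs (k : ℕ) (f : E → ℝ) : nn μ B f ≤ Hs μ b k B f :=
  Hs_le (k := 0) (Nat.zero_le _) f

omit [BorelSpace E] in
theorem Hs_D (k : ℕ) (i : J) (f : E → ℝ) : Hs μ b k B (D b i f) ≤ Hs μ b (k + 1) B f := by
  refine le_trans ?_ le_add_self
  exact Finset.single_le_sum (f := fun i => Hs μ b k B (D b i f)) (fun _ _ => zero_le)
    (Finset.mem_univ i)

theorem Hs_congr (hB : IsOpen B) : ∀ (k : ℕ) {f g : E → ℝ}, (∀ x ∈ B, f x = g x) →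
    Hs μ b k B f = Hs μ b k B g
  | 0, _, _, h => nn_congr hB h
  | k + 1, f, g, h => by
    unfold Hs
    rw [nn_congr hB h]
    congr 1
    exact Finset.sum_congr rfl fun i _ => Hs_congr hB k fun x hx => D_congr hB h hx i

theorem Hs_add (hB : IsOpen B) : ∀ (k : ℕ) {f g : E → ℝ}, ContDiffOn ℝ ((⊤ : ℕ∞) : WithTop ℕ∞) f B →
    ContDiffOn ℝ ((⊤ : ℕ∞) : WithTop ℕ∞) g B → Hs μ b k B (fun x => f x + g x) ≤ 2 * (Hs μ b k B f + Hs μ b k B g)
  | 0, _, _, hf, _ => nn_add hB hf
  | k + 1, f, g, hf, hg => by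
    unfold Hs
    have h1 : ∀ i, Hs μ b k B (D b i fun x => f x + g x) ≤
        2 * (Hs μ b k B (D b i f) + Hs μ b k B (D b i g)) := by
      intro i
      rw [Hs_congr hB k (g := fun x => D b i f x + D b i g x)
        (fun x hx => D_add (da hB hf hx) (da hB hg hx) i)]
      exact Hs_add hB k (cd_D hB hf i) (cd_D hB hg i)
    calc _ ≤ 2 * (nn μ B f + nn μ B g) +
        ∑ i, 2 * (Hs μ b k B (D b i f) + Hs μ b k B (D b i g)) :=
          add_le_add (nn_add hB hf) (Finset.sum_le_sum fun i _ => h1 i)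
      _ = _ := by
          rw [← Finset.mul_sum, Finset.sum_add_distrib]
          ring

omit [BorelSpace E] in
theorem Hs_zero (hB : IsOpen B) : ∀ (k : ℕ), Hs μ b k B (fun _ => 0) = 0
  | 0 => nn_zero
  | k + 1 => by
    unfold Hs
    have : ∀ i, D b i (fun _ : E => (0 : ℝ)) = fun _ => 0 := by
      intro i; funext z; exact D_const 0 i
    simp only [this, nn_zero, Hs_zero hB k, Finset.sum_const_zero, add_zero]

theorem Hs_sum (hB : IsOpen B) (k : ℕ) {ι : Type*} (s : Finset ι) (f : ι → E → ℝ)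
    (hf : ∀ i ∈ s, ContDiffOn ℝ ((⊤ : ℕ∞) : WithTop ℕ∞) (f i) B) :
    Hs μ b k B (fun x => ∑ i ∈ s, f i x) ≤ 2 ^ s.card * ∑ i ∈ s, Hs μ b k B (f i) := by
  classical
  induction s using Finset.induction_on with
  | empty => simp [Hs_zero hB k]
  | insert a s ha ih =>
    have h1 := ih (fun i hi => hf i (Finset.mem_insert_of_mem hi))
    have h2 : (fun x => ∑ i ∈ insert a s, f i x) = fun x => f a x + ∑ i ∈ s, f i x := by
      funext x; rw [Finset.sum_insert ha]
    rw [h2]
    refine (Hs_add hB k (hf a (Finset.mem_insert_self _ _)) (ContDiffOn.sum fun i hi =>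
      hf i (Finset.mem_insert_of_mem hi))).trans ?_
    rw [Finset.sum_insert ha, Finset.card_insert_of_notMem ha, pow_succ, mul_add]
    calc 2 * Hs μ b k B (f a) + 2 * Hs μ b k B (fun x => ∑ i ∈ s, f i x)
        ≤ 2 * (2 ^ s.card * Hs μ b k B (f a)) + 2 * (2 ^ s.card * ∑ i ∈ s, Hs μ b k B (f i)) := by
          gcongr
          exact le_mul_of_one_le_left (zero_le) (one_le_pow₀ (by norm_num))
      _ = _ := by ring

/-- The constant of the product estimate. -/
def cst (J : Type) [Fintype J] : ℕ → ℝ≥0∞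
  | 0 => 1
  | k + 1 => 1 + 2 * cst J k + 2 * Fintype.card J * cst J k

omit [NormedAddCommGroup E] [NormedSpace ℝ E] [MeasurableSpace E] [BorelSpace E] in
theorem cst_ne (k : ℕ) : cst J k ≠ ⊤ := by
  induction k with
  | zero => simp [cst]
  | succ k ih =>
    unfold cst
    finiteness

theorem Hs_mul (hB : IsOpen B) : ∀ (k : ℕ) {f g : E → ℝ}, ContDiffOn ℝ ((⊤ : ℕ∞) : WithTop ℕ∞) f B →
    ContDiffOn ℝ ((⊤ : ℕ∞) : WithTop ℕ∞) g B → Bd b k B A g →
    Hs μ b k B (fun x => g x * f x) ≤ cst J k * ENNReal.ofReal (A ^ 2) * Hs μ b k B f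
  | 0, f, g, _, _, h => by
    simpa [Hs, cst] using nn_mul (μ := μ) (f := f) hB h
  | k + 1, f, g, hf, hg, h => by
    unfold Hs
    have h1 : ∀ i, Hs μ b k B (D b i fun x => g x * f x) ≤
        2 * (cst J k * ENNReal.ofReal (A ^ 2) * Hs μ b k B (D b i f) +
          cst J k * ENNReal.ofReal (A ^ 2) * Hs μ b k B f) := by
      intro i
      rw [Hs_congr hB k (g := fun x => g x * D b i f x + D b i g x * f x)
        (fun x hx => D_mul (da hB hg hx) (da hB hf hx) i)]
      refine (Hs_add hB k (hg.mul (cd_D hB hf i)) ((cd_D hB hg i).mul hf)).trans ?_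
      gcongr
      · exact Hs_mul hB k (cd_D hB hf i) hg h.down
      · exact Hs_mul hB k hf (cd_D hB hg i) (h.2 i)
    have h2 : Hs μ b k B f ≤ nn μ B f + ∑ i, Hs μ b k B (D b i f) := Hs_succ k f
    have h3 : nn μ B (fun x => g x * f x) ≤ ENNReal.ofReal (A ^ 2) * nn μ B f := nn_mul hB h.1
    set S : ℝ≥0∞ := nn μ B f + ∑ i, Hs μ b k B (D b i f) with hS
    calc nn μ B (fun x => g x * f x) + ∑ i, Hs μ b k B (D b i fun x => g x * f x)
        ≤ ENNReal.ofReal (A ^ 2) * nn μ B f +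
          ∑ i, 2 * (cst J k * ENNReal.ofReal (A ^ 2) * Hs μ b k B (D b i f) +
          cst J k * ENNReal.ofReal (A ^ 2) * Hs μ b k B f) :=
          add_le_add h3 (Finset.sum_le_sum fun i _ => h1 i)
      _ = ENNReal.ofReal (A ^ 2) * nn μ B f +
          2 * cst J k * ENNReal.ofReal (A ^ 2) * ∑ i, Hs μ b k B (D b i f) +
          2 * Fintype.card J * cst J k * ENNReal.ofReal (A ^ 2) * Hs μ b k B f := by
          rw [← Finset.mul_sum, Finset.sum_add_distrib, ← Finset.mul_sum, Finset.sum_const,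
            Finset.card_univ, nsmul_eq_mul]
          ring
      _ ≤ ENNReal.ofReal (A ^ 2) * S + 2 * cst J k * ENNReal.ofReal (A ^ 2) * S +
          2 * Fintype.card J * cst J k * ENNReal.ofReal (A ^ 2) * S := by
          gcongr
          · exact le_self_add
          · exact le_add_self
      _ = cst J (k + 1) * ENNReal.ofReal (A ^ 2) * S := by
          simp only [cst]; ring

end Vale.Agent.P088.HY.EI
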