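import Vale.Agent.P088.R2.H901.EllB

/-!
# P088: interior estimates, the two energy inequalities
-/

open MeasureTheory Set Function
open scoped ContDiff ENNReal NNReal

set_option linter.unusedSectionVars false
set_option linter.unusedVariables false

noncomputable section

namespace Vale.Agent.P088.HY.EI

variable {J E : Type} [NormedAddCommGroup E] [NormedSpace ℝ E] [FiniteDimensional ℝ E]
  [MeasurableSpace E] [BorelSpace E] {μ : Measure E} [μ.IsAddHaarMeasure]

variable {b : J → E} {i j : J} {f g v w : E → ℝ} {O B B' : Set E} {z : E} {k : ℕ} {A ε : ℝ}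

theorem intg (hf : ContDiff ℝ ((⊤ : ℕ∞) : WithTop ℕ∞) f) (hc : HasCompactSupport f) : Integrable f μ :=
  hf.continuous.integrable_of_hasCompactSupport hc

theorem int_D (hg : ContDiff ℝ ((⊤ : ℕ∞) : WithTop ℕ∞) g) (hc : HasCompactSupport g) (i : J) :
    ∫ x, D b i g x ∂μ = 0 := by
  have h := integral_mul_fderiv_eq_neg_fderiv_mul_of_integrable (μ := μ) (f := fun _ : E => (1 : ℝ))
    (g := g) (v := b i) (by simp) (by
      have := intg (μ := μ) (cdg_D (b := b) hg i) (D_supp hc i)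
      simp only [one_mul]
      exact this) (by
      simpa using intg (μ := μ) hg hc) (fun x _ => differentiableAt_const _)
      (fun x _ => hg.differentiable (by simp) x)
  simpa [D] using h

theorem hc_sq (h : HasCompactSupport f) : HasCompactSupport (fun x => f x ^ 2) :=
  h.comp_left (g := fun t : ℝ => t ^ 2) (by simp)

theorem ibp (hf : ContDiff ℝ ((⊤ : ℕ∞) : WithTop ℕ∞) f) (hg : ContDiff ℝ ((⊤ : ℕ∞) : WithTop ℕ∞) g) (hc : HasCompactSupport g) (i : J) :
    ∫ x, f x * D b i g x ∂μ = - ∫ x, D b i f x * g x ∂μ := by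
  have h := int_D (μ := μ) (b := b) (g := fun x => f x * g x) (hf.mul hg) hc.mul_left i
  have h1 : ∀ x, D b i (fun x => f x * g x) x = f x * D b i g x + D b i f x * g x := fun x =>
    D_mul (hf.differentiable (by simp) x) (hg.differentiable (by simp) x) i
  simp only [h1] at h
  rw [integral_add (intg (hf.mul (cdg_D hg i)) (D_supp hc i).mul_left)
    (intg ((cdg_D hf i).mul hg) hc.mul_left)] at h
  linarith

theorem Dc (hf : ContDiff ℝ ((⊤ : ℕ∞) : WithTop ℕ∞) f) (i j : J) : D b i (D b j f) = D b j (D b i f) := by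
  funext z
  exact D_comm isOpen_univ hf.contDiffOn (mem_univ z) i j

variable [Fintype J]

theorem int_hess (hv : ContDiff ℝ ((⊤ : ℕ∞) : WithTop ℕ∞) v) (hc : HasCompactSupport v) :
    ∫ x, ∑ i, ∑ j, D b i (D b j v) x ^ 2 ∂μ = ∫ x, (∑ i, D b i (D b i v) x) ^ 2 ∂μ := by
  have hs : ∀ i j, ContDiff ℝ ((⊤ : ℕ∞) : WithTop ℕ∞) (D b i (D b j v)) := fun i j => cdg_D (cdg_D hv j) i
  have hsc : ∀ i j, HasCompactSupport (D b i (D b j v)) := fun i j => D_supp (D_supp hc j) i
  have h1 : ∀ i j, ∫ x, D b i (D b j v) x ^ 2 ∂μ = ∫ x, D b i (D b i v) x * D b j (D b j v) x ∂μ := by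
    intro i j
    have e1 : ∫ x, D b i (D b j v) x * D b i (D b j v) x ∂μ
        = - ∫ x, D b i (D b i (D b j v)) x * D b j v x ∂μ :=
      ibp (hs i j) (cdg_D hv j) (D_supp hc j) i
    have e2 : ∫ x, D b i (D b i v) x * D b j (D b j v) x ∂μ
        = - ∫ x, D b j (D b i (D b i v)) x * D b j v x ∂μ :=
      ibp (hs i i) (cdg_D hv j) (D_supp hc j) j
    have e3 : D b j (D b i (D b i v)) = D b i (D b i (D b j v)) := by
      rw [Dc (cdg_D hv i) j i, Dc hv j i]
    rw [e2, e3, ← e1]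
    simp only [sq]
  have i1 : ∀ i j, Integrable (fun x => D b i (D b j v) x ^ 2) μ := fun i j =>
    intg ((hs i j).pow 2) (hc_sq (hsc i j))
  have i2 : ∀ i j, Integrable (fun x => D b i (D b i v) x * D b j (D b j v) x) μ := fun i j =>
    intg ((hs i i).mul (hs j j)) ((hsc j j).mul_left)
  rw [integral_finsetSum _ fun i _ => integrable_finsetSum _ fun j _ => i1 i j]
  simp only [sq (∑ i, D b i (D b i v) _), Finset.sum_mul_sum]
  rw [integral_finsetSum _ fun i _ => integrable_finsetSum _ fun j _ => i2 i j]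
  refine Finset.sum_congr rfl fun i _ => ?_
  rw [integral_finsetSum _ fun j _ => i1 i j, integral_finsetSum _ fun j _ => i2 i j]
  exact Finset.sum_congr rfl fun j _ => h1 i j

/-- `δ_ij`. -/
def kd [DecidableEq J] (i j : J) : ℝ := if i = j then 1 else 0

theorem Lc_kd [DecidableEq J] (x : E) :
    Lc b (fun i j _ => kd i j) v x = ∑ i, D b i (D b i v) x := by
  simp [Lc, kd]

theorem sum2_sq_le (a : J → J → ℝ) :
    (∑ i, ∑ j, a i j) ^ 2 ≤ (Fintype.card J : ℝ) ^ 2 * ∑ i, ∑ j, a i j ^ 2 := by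
  calc (∑ i, ∑ j, a i j) ^ 2 ≤ Fintype.card J * ∑ i, (∑ j, a i j) ^ 2 := by
        simpa using sq_sum_le_card_mul_sum_sq (s := Finset.univ) (f := fun i => ∑ j, a i j)
    _ ≤ Fintype.card J * ∑ i, (Fintype.card J * ∑ j, a i j ^ 2) := by
        gcongr with i
        simpa using sq_sum_le_card_mul_sum_sq (s := Finset.univ) (f := fun j => a i j)
    _ = _ := by rw [← Finset.mul_sum]; ring

/-- The second order estimate for test functions. -/
theorem E1 [DecidableEq J] (hO : IsOpen O) {c : J → J → E → ℝ}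
    (hc : ∀ i j, ContDiffOn ℝ ((⊤ : ℕ∞) : WithTop ℕ∞) (c i j) O)
    (hε : ∀ i j, ∀ x ∈ O, |c i j x - kd i j| ≤ ε) (hε0 : 0 ≤ ε)
    (hN : 2 * ε * Fintype.card J ≤ 1)
    (hv : ContDiff ℝ ((⊤ : ℕ∞) : WithTop ℕ∞) v) (hvc : HasCompactSupport v) (hvO : tsupport v ⊆ O) :
    ∫ x, ∑ i, ∑ j, D b i (D b j v) x ^ 2 ∂μ ≤ 4 * ∫ x, Lc b c v x ^ 2 ∂μ := by
  have hs : ∀ i j, ContDiff ℝ ((⊤ : ℕ∞) : WithTop ℕ∞) (D b i (D b j v)) := fun i j => cdg_D (cdg_D hv j) i
  have hsc : ∀ i j, HasCompactSupport (D b i (D b j v)) := fun i j => D_supp (D_supp hvc j) i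
  have hts : ∀ i j, tsupport (D b i (D b j v)) ⊆ O := fun i j =>
    ((ts_D i).trans (ts_D j)).trans hvO
  have hL : ContDiff ℝ ((⊤ : ℕ∞) : WithTop ℕ∞) (Lc b c v) := by
    have : Lc b c v = fun x => ∑ i, ∑ j, D b i (D b j v) x * c i j x := by
      funext x; simp only [Lc, mul_comm]
    rw [this]
    exact ContDiff.sum fun i _ => ContDiff.sum fun j _ => cd_cut hO (hc i j) (hs i j) (hts i j)
  have hz : ∀ x, x ∉ tsupport v → ∀ i j, D b i (D b j v) x = 0 := fun x hx i j =>
    image_eq_zero_of_notMem_tsupport fun h => hx ((ts_D j) ((ts_D i) h))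
  have hLc : HasCompactSupport (Lc b c v) := by
    refine HasCompactSupport.of_support_subset_isCompact hvc ?_
    intro x hx
    by_contra h
    apply hx
    simp [Lc, hz x h]
  rw [int_hess hv hvc]
  set N : ℝ := (Fintype.card J : ℝ)
  have hN0 : 0 ≤ N := Nat.cast_nonneg _
  have p : ∀ x, (∑ i, D b i (D b i v) x) ^ 2 ≤ 2 * Lc b c v x ^ 2 +
      (1 / 2) * ∑ i, ∑ j, D b i (D b j v) x ^ 2 := by
    intro x
    by_cases hx : x ∈ O
    · have e : ∑ i, D b i (D b i v) x = Lc b c v x - ∑ i, ∑ j, (c i j x - kd i j) *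
          D b i (D b j v) x := by
        rw [← Lc_kd]
        simp only [Lc, sub_mul, Finset.sum_sub_distrib]
        ring
      have h1 : (∑ i, ∑ j, (c i j x - kd i j) * D b i (D b j v) x) ^ 2 ≤
          N ^ 2 * (ε ^ 2 * ∑ i, ∑ j, D b i (D b j v) x ^ 2) := by
        refine (sum2_sq_le _).trans ?_
        gcongr
        rw [Finset.mul_sum]
        gcongr with i _
        rw [Finset.mul_sum]
        gcongr with j _
        rw [mul_pow]
        refine mul_le_mul_of_nonneg_right ?_ (sq_nonneg _)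
        rw [← sq_abs]
        exact pow_le_pow_left₀ (abs_nonneg _) (hε i j x hx) 2
      set S := ∑ i, ∑ j, D b i (D b j v) x ^ 2
      have hS : 0 ≤ S := Finset.sum_nonneg fun i _ => Finset.sum_nonneg fun j _ => sq_nonneg _
      have h2 : N ^ 2 * (ε ^ 2 * S) ≤ (1 / 4) * S := by
        have : (ε * N) ^ 2 ≤ (1 / 2) ^ 2 := by
          apply pow_le_pow_left₀ (by positivity)
          linarith
        nlinarith
      rw [e]
      nlinarith [sq_nonneg (Lc b c v x + ∑ i, ∑ j, (c i j x - kd i j) * D b i (D b j v) x)]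
    · have hx' : x ∉ tsupport v := fun h => hx (hvO h)
      simp [Lc, hz x hx']
  have i1 : Integrable (fun x => ∑ i, ∑ j, D b i (D b j v) x ^ 2) μ :=
    integrable_finsetSum _ fun i _ => integrable_finsetSum _ fun j _ =>
      intg ((hs i j).pow 2) (hc_sq (hsc i j))
  have i2 : Integrable (fun x => Lc b c v x ^ 2) μ := intg (hL.pow 2) (hc_sq hLc)
  have i3 : Integrable (fun x => (∑ i, D b i (D b i v) x) ^ 2) μ := by
    refine intg ((ContDiff.sum fun i _ => hs i i).pow 2) ?_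
    refine HasCompactSupport.of_support_subset_isCompact hvc ?_
    intro x hx
    by_contra h
    apply hx
    simp [hz x h]
  have q := integral_mono i3 ((i2.const_mul 2).add (i1.const_mul (1 / 2))) p
  simp only [Pi.add_apply] at q
  rw [integral_add (i2.const_mul 2) (i1.const_mul (1 / 2)), integral_const_mul,
    integral_const_mul, int_hess hv hvc] at q
  linarith

/-- The vector field in Caccioppoli's inequality, pointwise. -/
theorem cac_pt [DecidableEq J] (z : ℝ) (za : J → ℝ) (c : J → J → ℝ) (dc : J → J → ℝ) (w F : ℝ)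
    (wa : J → ℝ) (A ε : ℝ) (hA : 0 ≤ A) (hz : |z| ≤ A) (hza : ∀ a, |za a| ≤ A)
    (hc : ∀ a b, |c a b - kd a b| ≤ ε) (hc1 : ∀ a b, |c a b| ≤ 2) (hdc : ∀ a b, |dc a b| ≤ 1)
    (hN : 2 * ε * Fintype.card J ≤ 1) :
    (1 / 4) * (z ^ 2 * ∑ a, wa a ^ 2) ≤
      ((∑ a, ∑ b, (2 * z * za a * c a b * w * wa b + z ^ 2 * dc a b * w * wa b +
        z ^ 2 * c a b * wa a * wa b)) + z ^ 2 * w * F) +
      (A ^ 2 + Fintype.card J * (5 * A * Fintype.card J) ^ 2) * (w ^ 2 + F ^ 2) := by
  set N : ℝ := (Fintype.card J : ℝ) with hNd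
  have hN0 : 0 ≤ N := Nat.cast_nonneg _
  set S : ℝ := ∑ a, wa a ^ 2 with hS
  have hS0 : 0 ≤ S := Finset.sum_nonneg fun _ _ => sq_nonneg _
  -- the quadratic part
  have q1 : (1 / 2) * S ≤ ∑ a, ∑ b, c a b * wa a * wa b := by
    have e : ∑ a, ∑ b, c a b * wa a * wa b = S + ∑ a, ∑ b, (c a b - kd a b) * (wa a * wa b) := by
      have : S = ∑ a, ∑ b, kd a b * (wa a * wa b) := by
        simp [kd, hS, sq]
      rw [this]
      simp only [← Finset.sum_add_distrib]
      refine Finset.sum_congr rfl fun a _ => Finset.sum_congr rfl fun b _ => by ring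
    have h1 : |∑ a, ∑ b, (c a b - kd a b) * (wa a * wa b)| ≤ ε * (N * S) := by
      calc |∑ a, ∑ b, (c a b - kd a b) * (wa a * wa b)|
          ≤ ∑ a, ∑ b, |(c a b - kd a b) * (wa a * wa b)| :=
            (Finset.abs_sum_le_sum_abs _ _).trans
              (Finset.sum_le_sum fun a _ => Finset.abs_sum_le_sum_abs _ _)
        _ ≤ ∑ a, ∑ b, ε * (|wa a| * |wa b|) := by
            refine Finset.sum_le_sum fun a _ => Finset.sum_le_sum fun b _ => ?_
            rw [abs_mul, abs_mul]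
            exact mul_le_mul_of_nonneg_right (hc a b) (by positivity)
        _ = ε * (∑ a, |wa a|) ^ 2 := by
            rw [sq, Finset.sum_mul_sum, Finset.mul_sum]
            exact Finset.sum_congr rfl fun a _ => by rw [Finset.mul_sum]
        _ ≤ ε * (N * S) := by
            rcases isEmpty_or_nonempty J with hJ | ⟨⟨a0⟩⟩
            · simp [hS]
            · have hε : 0 ≤ ε := (abs_nonneg _).trans (hc a0 a0)
              gcongr
              simpa [hS] using sq_sum_le_card_mul_sum_sq (s := Finset.univ) (f := fun a => |wa a|)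
    have h2 : ε * (N * S) ≤ (1 / 2) * S := by nlinarith
    have := neg_abs_le (∑ a, ∑ b, (c a b - kd a b) * (wa a * wa b))
    rw [e]; linarith
  -- the mixed part
  have q2 : ∀ a, -((1 / 4) * (z * wa a) ^ 2 + (5 * A * N) ^ 2 * w ^ 2) ≤
      z * w * wa a * ∑ i, (2 * za i * c i a + z * dc i a) := by
    intro a
    set h : ℝ := ∑ i, (2 * za i * c i a + z * dc i a)
    have h1 : |h| ≤ 5 * A * N := by
      calc |h| ≤ ∑ i, |2 * za i * c i a + z * dc i a| := Finset.abs_sum_le_sum_abs _ _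
        _ ≤ ∑ _i : J, 5 * A := by
            refine Finset.sum_le_sum fun i _ => (abs_add_le _ _).trans ?_
            rw [abs_mul, abs_mul, abs_mul, abs_two]
            have h3 : |za i| * |c i a| ≤ A * 2 := mul_le_mul (hza i) (hc1 i a) (abs_nonneg _) hA
            have h4 : |z| * |dc i a| ≤ A * 1 := mul_le_mul hz (hdc i a) (abs_nonneg _) hA
            nlinarith
        _ = 5 * A * N := by simp [hNd]; ring
    have h2 : h ^ 2 ≤ (5 * A * N) ^ 2 := by
      rw [← sq_abs]; exact pow_le_pow_left₀ (abs_nonneg _) h1 2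
    have h3 : h ^ 2 * w ^ 2 ≤ (5 * A * N) ^ 2 * w ^ 2 := mul_le_mul_of_nonneg_right h2 (sq_nonneg _)
    nlinarith [sq_nonneg ((1 / 2) * (z * wa a) + w * h)]
  have e1 : ∑ a, ∑ b, (2 * z * za a * c a b * w * wa b + z ^ 2 * dc a b * w * wa b +
        z ^ 2 * c a b * wa a * wa b) = ∑ a, (z * w * wa a * ∑ i, (2 * za i * c i a + z * dc i a)) +
        z ^ 2 * ∑ a, ∑ b, c a b * wa a * wa b := by
    have : ∑ a, (z * w * wa a * ∑ i, (2 * za i * c i a + z * dc i a)) =
        ∑ a, ∑ b, (z * w * wa b * (2 * za a * c a b + z * dc a b)) := by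
      rw [Finset.sum_comm]
      exact Finset.sum_congr rfl fun a _ => Finset.mul_sum _ _ _
    rw [this, Finset.mul_sum]
    simp only [Finset.mul_sum, ← Finset.sum_add_distrib]
    refine Finset.sum_congr rfl fun a _ => Finset.sum_congr rfl fun b _ => by ring
  have q3 : -((1 / 4) * (z ^ 2 * S) + N * (5 * A * N) ^ 2 * w ^ 2) ≤
      ∑ a, (z * w * wa a * ∑ i, (2 * za i * c i a + z * dc i a)) := by
    have := Finset.sum_le_sum (s := Finset.univ) fun a (_ : a ∈ Finset.univ) => q2 a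
    refine le_trans (le_of_eq ?_) this
    rw [Finset.sum_neg_distrib, Finset.sum_add_distrib, ← Finset.mul_sum, Finset.sum_const,
      Finset.card_univ, nsmul_eq_mul, hS]
    simp only [mul_pow, ← Finset.mul_sum]
    ring
  have q4 : z ^ 2 ≤ A ^ 2 := by rw [← sq_abs]; exact pow_le_pow_left₀ (abs_nonneg _) hz 2
  have q5 : -(A ^ 2 * (w ^ 2 + F ^ 2)) ≤ z ^ 2 * w * F := by
    have : -(z ^ 2 * (w ^ 2 + F ^ 2)) ≤ z ^ 2 * w * F := by
      have h0 : 0 ≤ z ^ 2 := sq_nonneg _
      nlinarith [mul_nonneg h0 (sq_nonneg (w + F)), mul_nonneg h0 (add_nonneg (sq_nonneg w) (sq_nonneg F))]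
    have h6 : z ^ 2 * (w ^ 2 + F ^ 2) ≤ A ^ 2 * (w ^ 2 + F ^ 2) :=
      mul_le_mul_of_nonneg_right q4 (by positivity)
    linarith
  have q6 : z ^ 2 * ((1 / 2) * S) ≤ z ^ 2 * ∑ a, ∑ b, c a b * wa a * wa b :=
    mul_le_mul_of_nonneg_left q1 (sq_nonneg _)
  have q7 : 0 ≤ N * (5 * A * N) ^ 2 * F ^ 2 := by positivity
  rw [e1]
  nlinarith

/-- `ofReal` of an integral of squares against an indicator. -/
theorem ofReal_setInt {K : Set E} (hK : IsCompact K) (hKB : K ⊆ B') (h : ContinuousOn f B') :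
    ENNReal.ofReal (∫ x in K, f x ^ 2 ∂μ) ≤ nn μ B' f := by
  have hi : IntegrableOn (fun x => f x ^ 2) K μ :=
    ((h.mono hKB).pow 2).integrableOn_compact hK
  rw [ofReal_integral_eq_lintegral_ofReal hi (ae_of_all _ fun _ => sq_nonneg _)]
  exact lintegral_mono_set hKB

theorem nn_le_of (hB : MeasurableSet B) (hf : Integrable g μ) (h0 : ∀ x, 0 ≤ g x)
    (h : ∀ x ∈ B, f x ^ 2 ≤ g x) : nn μ B f ≤ ENNReal.ofReal (∫ x, g x ∂μ) := by
  rw [ofReal_integral_eq_lintegral_ofReal hf (ae_of_all _ h0)]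
  calc nn μ B f ≤ ∫⁻ x in B, ENNReal.ofReal (g x) ∂μ :=
        setLIntegral_mono' hB fun x hx => ENNReal.ofReal_le_ofReal (h x hx)
    _ ≤ _ := setLIntegral_le_lintegral _ _

/-- Caccioppoli's inequality. -/
theorem E2 [DecidableEq J] (hO : IsOpen O) {c : J → J → E → ℝ}
    (hc : ∀ i j, ContDiffOn ℝ ((⊤ : ℕ∞) : WithTop ℕ∞) (c i j) O)
    (hε : ∀ i j, ∀ x ∈ O, |c i j x - kd i j| ≤ ε) (hc1 : ∀ i j, ∀ x ∈ O, |c i j x| ≤ 2)
    (hdc : ∀ i j, ∀ x ∈ O, |D b i (c i j) x| ≤ 1)
    (hN : 2 * ε * Fintype.card J ≤ 1) {ζ : E → ℝ} (hζ : ContDiff ℝ ((⊤ : ℕ∞) : WithTop ℕ∞) ζ)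
    (hζc : HasCompactSupport ζ) (hB' : IsOpen B') (hζO : tsupport ζ ⊆ B') (hB'O : B' ⊆ O)
    (hA : 0 ≤ A) (hz : ∀ x, |ζ x| ≤ A)
    (hz1 : ∀ i x, |D b i ζ x| ≤ A) (hB : MeasurableSet B) (hζ1 : ∀ x ∈ B, ζ x = 1)
    (hw : ContDiffOn ℝ ((⊤ : ℕ∞) : WithTop ℕ∞) w O) :
    ∑ i, nn μ B (D b i w) ≤ ENNReal.ofReal (4 * Fintype.card J *
      (A ^ 2 + Fintype.card J * (5 * A * Fintype.card J) ^ 2)) *
      (nn μ B' w + nn μ B' (Lc b c w)) := by
  have hζO' : tsupport ζ ⊆ O := hζO.trans hB'O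
  -- the vector field
  set G : J → E → ℝ := fun i x => (ζ x * ζ x) * ∑ j, c i j x * (w x * D b j w x) with hG
  have hζ2 : ContDiff ℝ ((⊤ : ℕ∞) : WithTop ℕ∞) (fun x => ζ x * ζ x) := hζ.mul hζ
  have hζ2c : HasCompactSupport (fun x => ζ x * ζ x) := hζc.mul_left
  have hts : tsupport (fun x => ζ x * ζ x) ⊆ tsupport ζ := by
    apply closure_mono
    intro x hx h
    apply hx
    simp [h]
  have hin : ∀ i, ContDiffOn ℝ ((⊤ : ℕ∞) : WithTop ℕ∞) (fun x => ∑ j, c i j x * (w x * D b j w x)) O := fun i =>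
    ContDiffOn.sum fun j _ => (hc i j).mul (hw.mul (cd_D hO hw j))
  have hGs : ∀ i, ContDiff ℝ ((⊤ : ℕ∞) : WithTop ℕ∞) (G i) := fun i =>
    cd_cut hO (hin i) hζ2 (hts.trans hζO')
  have hGc : ∀ i, HasCompactSupport (G i) := fun i => hζ2c.mul_right
  have hQ0 : ∫ x, ∑ i, D b i (G i) x ∂μ = 0 := by
    rw [integral_finsetSum _ fun i _ => intg (cdg_D (hGs i) i) (D_supp (hGc i) i)]
    exact Finset.sum_eq_zero fun i _ => int_D (hGs i) (hGc i) i
  have hQi : Integrable (fun x => ∑ i, D b i (G i) x) μ :=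
    integrable_finsetSum _ fun i _ => intg (cdg_D (hGs i) i) (D_supp (hGc i) i)
  set C₁ : ℝ := A ^ 2 + Fintype.card J * (5 * A * Fintype.card J) ^ 2 with hC₁
  have hC₁0 : 0 ≤ C₁ := by positivity
  -- pointwise
  have hK := hζc.isCompact
  have hKO : tsupport ζ ⊆ B' := hζO
  have hwc : ContinuousOn w B' := hw.continuousOn.mono hB'O
  have hLs : ContDiffOn ℝ ((⊤ : ℕ∞) : WithTop ℕ∞) (Lc b c w) O := cd_Lc hO hc hw
  have hLc : ContinuousOn (Lc b c w) B' := hLs.continuousOn.mono hB'O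
  have p : ∀ x, (1 / 4) * (ζ x ^ 2 * ∑ i, D b i w x ^ 2) ≤ ∑ i, D b i (G i) x +
      (tsupport ζ).indicator (fun x => C₁ * (w x ^ 2 + Lc b c w x ^ 2)) x := by
    intro x
    by_cases hx : x ∈ tsupport ζ
    · rw [indicator_of_mem hx]
      have hxO := hζO' hx
      have hwd := da hO hw hxO
      have e : ∑ i, D b i (G i) x = (∑ i, ∑ j, (2 * ζ x * D b i ζ x * c i j x * w x * D b j w x +
          ζ x ^ 2 * D b i (c i j) x * w x * D b j w x +
          ζ x ^ 2 * c i j x * D b i w x * D b j w x)) + ζ x ^ 2 * w x * Lc b c w x := by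
        have e1 : ∀ i, D b i (G i) x = ∑ j, (2 * ζ x * D b i ζ x * c i j x * w x * D b j w x +
          ζ x ^ 2 * D b i (c i j) x * w x * D b j w x +
          ζ x ^ 2 * c i j x * D b i w x * D b j w x + ζ x ^ 2 * w x * (c i j x *
            D b i (D b j w) x)) := by
          intro i
          have hζd : DifferentiableAt ℝ ζ x := hζ.differentiable (by simp) x
          rw [hG]
          simp only
          rw [D_mul (hζ2.differentiable (by simp) x) (da hO (hin i) hxO),
            D_mul hζd hζd, D_sum _ fun j _ => da hO ((hc i j).mul (hw.mul (cd_D hO hw j))) hxO]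
          have e2 : ∀ j, D b i (fun x => c i j x * (w x * D b j w x)) x =
              c i j x * (w x * D b i (D b j w) x + D b i w x * D b j w x) +
              D b i (c i j) x * (w x * D b j w x) := by
            intro j
            rw [D_mul (da hO (hc i j) hxO) (da hO (hw.mul (cd_D hO hw j)) hxO),
              D_mul hwd (da hO (cd_D hO hw j) hxO)]
          simp only [e2, Finset.mul_sum, ← Finset.sum_add_distrib]
          refine Finset.sum_congr rfl fun j _ => by ring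
        simp only [e1]
        unfold Lc
        rw [Finset.mul_sum, ← Finset.sum_add_distrib]
        refine Finset.sum_congr rfl fun i _ => ?_
        rw [Finset.mul_sum, ← Finset.sum_add_distrib]
      rw [e]
      exact cac_pt (ζ x) (fun i => D b i ζ x) (fun i j => c i j x) (fun i j => D b i (c i j) x)
        (w x) (Lc b c w x) (fun i => D b i w x) A ε hA (hz x) (fun i => hz1 i x)
        (fun i j => hε i j x hxO) (fun i j => hc1 i j x hxO) (fun i j => hdc i j x hxO) hN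
    · rw [indicator_of_notMem hx, image_eq_zero_of_notMem_tsupport hx]
      have : ∀ i, D b i (G i) x = 0 := fun i => by
        apply image_eq_zero_of_notMem_tsupport
        intro h
        apply hx
        apply hts
        have h1 := ts_D i h
        exact (tsupport_mul_subset_left (f := fun x => ζ x * ζ x)
          (g := fun x => ∑ j, c i j x * (w x * D b j w x))) h1
      simp [this]
  have hi1 : ∀ i, Integrable (fun x => (ζ x * D b i w x) ^ 2) μ := fun i =>
    intg ((cd_cut hO (cd_D hO hw i) hζ hζO').pow 2) (hc_sq hζc.mul_right)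
  have e0 : ∀ x, ζ x ^ 2 * ∑ i, D b i w x ^ 2 = ∑ i, (ζ x * D b i w x) ^ 2 := fun x => by
    rw [Finset.mul_sum]; exact Finset.sum_congr rfl fun i _ => by ring
  have hi2 : Integrable (fun x => (1 / 4) * (ζ x ^ 2 * ∑ i, D b i w x ^ 2)) μ := by
    simp only [e0]
    exact (integrable_finsetSum _ fun i _ => hi1 i).const_mul _
  have hi3 : IntegrableOn (fun x => w x ^ 2) (tsupport ζ) μ :=
    ((hwc.mono hKO).pow 2).integrableOn_compact hK
  have hi4 : IntegrableOn (fun x => Lc b c w x ^ 2) (tsupport ζ) μ :=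
    ((hLc.mono hKO).pow 2).integrableOn_compact hK
  have hi5 : Integrable ((tsupport ζ).indicator (fun x => C₁ * (w x ^ 2 + Lc b c w x ^ 2))) μ :=
    (integrable_indicator_iff hK.measurableSet).2 ((hi3.add hi4).const_mul C₁)
  have q := integral_mono hi2 (hQi.add hi5) p
  simp only [Pi.add_apply] at q
  rw [integral_add hQi hi5, hQ0, zero_add, integral_const_mul, integral_indicator hK.measurableSet,
    integral_const_mul, integral_add hi3 hi4] at q
  have q2 : ∫ x, ζ x ^ 2 * ∑ i, D b i w x ^ 2 ∂μ ≤ 4 * C₁ *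
      ((∫ x in tsupport ζ, w x ^ 2 ∂μ) + ∫ x in tsupport ζ, Lc b c w x ^ 2 ∂μ) := by linarith
  -- conclusion
  have hi6 : Integrable (fun x => ζ x ^ 2 * ∑ i, D b i w x ^ 2) μ := by
    simp only [e0]
    exact (integrable_finsetSum _ fun i _ => hi1 i)
  have r1 : ∀ i, nn μ B (D b i w) ≤ ENNReal.ofReal (∫ x, ζ x ^ 2 * ∑ i, D b i w x ^ 2 ∂μ) := by
    intro i
    refine nn_le_of hB hi6 (fun x => ?_) (fun x hx => ?_)
    · exact mul_nonneg (sq_nonneg _) (Finset.sum_nonneg fun _ _ => sq_nonneg _)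
    · rw [hζ1 x hx, one_pow, one_mul]
      exact Finset.single_le_sum (f := fun i => D b i w x ^ 2) (fun _ _ => sq_nonneg _)
        (Finset.mem_univ i)
  have r2 : ENNReal.ofReal (∫ x, ζ x ^ 2 * ∑ i, D b i w x ^ 2 ∂μ) ≤
      ENNReal.ofReal (4 * C₁) * (nn μ B' w + nn μ B' (Lc b c w)) := by
    refine (ENNReal.ofReal_le_ofReal q2).trans ?_
    rw [ENNReal.ofReal_mul (by positivity)]
    gcongr
    refine ENNReal.ofReal_add_le.trans ?_
    exact add_le_add (ofReal_setInt hK hKO hwc) (ofReal_setInt hK hKO hLc)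
  calc ∑ i, nn μ B (D b i w) ≤ ∑ _i : J, ENNReal.ofReal (4 * C₁) *
        (nn μ B' w + nn μ B' (Lc b c w)) := Finset.sum_le_sum fun i _ => (r1 i).trans r2
    _ = ENNReal.ofReal (4 * Fintype.card J * C₁) * (nn μ B' w + nn μ B' (Lc b c w)) := by
        rw [Finset.sum_const, Finset.card_univ, nsmul_eq_mul, ← mul_assoc]
        congr 1
        rw [← ENNReal.ofReal_natCast, ← ENNReal.ofReal_mul (by positivity)]
        congr 1; ring

end Vale.Agent.P088.HY.EI
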