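import Vale.Agent.P088.R2.H901.EllC

/-!
# P088: interior estimates, all orders
-/

open MeasureTheory Set Function
open scoped ContDiff ENNReal NNReal

set_option linter.unusedSectionVars false
set_option linter.unusedVariables false

noncomputable section

namespace Vale.Agent.P088.HY.EI

variable {J E : Type} [NormedAddCommGroup E] [NormedSpace ℝ E] [FiniteDimensional ℝ E]
  [MeasurableSpace E] [BorelSpace E] {μ : Measure E} [μ.IsAddHaarMeasure]

variable {b : J → E} {i j : J} {f g v w : E → ℝ} {O B B' : Set E} {z : E} {k : ℕ} {A ε : ℝ}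

theorem Bd_cpt (b : J → E) [Finite J] : ∀ (k : ℕ) {f : E → ℝ}, ContDiff ℝ ((⊤ : ℕ∞) : WithTop ℕ∞) f →
    HasCompactSupport f → ∃ A, 0 ≤ A ∧ Bd b k univ A f
  | 0, f, hf, hc => by
    obtain ⟨C, hC⟩ := hc.exists_bound_of_continuous hf.continuous
    exact ⟨max C 0, le_max_right _ _, fun x _ => (hC x).trans (le_max_left _ _)⟩
  | k + 1, f, hf, hc => by
    obtain ⟨C, hC⟩ := hc.exists_bound_of_continuous hf.continuous
    have h : ∀ i, ∃ A, 0 ≤ A ∧ Bd b k univ A (D b i f) := fun i =>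
      Bd_cpt b k (cdg_D hf i) (D_supp hc i)
    choose a ha0 ha using h
    obtain ⟨M, hM⟩ := (Set.finite_range a).bddAbove
    refine ⟨max (max C 0) M, le_max_of_le_left (le_max_right _ _), fun x _ =>
      (hC x).trans ((le_max_left _ _).trans (le_max_left _ _)), fun i => ?_⟩
    exact (ha i).mono ((hM (mem_range_self i)).trans (le_max_right _ _))

/-- Cut-offs between two balls. -/
theorem exists_cut {r R : ℝ} (hr : 0 < r) (hR : r < R) : ∃ ζ : E → ℝ, ContDiff ℝ ((⊤ : ℕ∞) : WithTop ℕ∞) ζ ∧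
    HasCompactSupport ζ ∧ tsupport ζ ⊆ Metric.ball 0 R ∧ ∀ x ∈ Metric.ball (0 : E) r, ζ x = 1 := by
  let ζ : ContDiffBump (0 : E) := ⟨r, (r + R) / 2, hr, by linarith⟩
  refine ⟨ζ, ζ.contDiff, ζ.hasCompactSupport, ?_, fun x hx => ?_⟩
  · rw [ζ.tsupport_eq]
    exact Metric.closedBall_subset_ball (show (r + R) / 2 < R by linarith)
  · exact ζ.one_of_mem_closedBall (Metric.ball_subset_closedBall hx)

variable [Fintype J] [DecidableEq J]

/-- Coefficients near the identity. -/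
structure CO (b : J → E) (k : ℕ) (c : J → J → E → ℝ) : Prop where
  s : ∀ i j, ContDiffOn ℝ ((⊤ : ℕ∞) : WithTop ℕ∞) (c i j) (Metric.ball 0 2)
  h : ∀ i j, Bd b k (Metric.ball 0 2) (1 / (2 * Fintype.card J + 2)) (fun x => c i j x - kd i j)

theorem eps_pos : 0 < (1 / (2 * Fintype.card J + 2) : ℝ) := by positivity

theorem eps_le : (1 / (2 * Fintype.card J + 2) : ℝ) ≤ 1 := by
  rw [div_le_one (by positivity)]
  have : (0 : ℝ) ≤ Fintype.card J := Nat.cast_nonneg _
  linarith

theorem eps_N : 2 * (1 / (2 * Fintype.card J + 2) : ℝ) * Fintype.card J ≤ 1 := by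
  have : (0 : ℝ) ≤ Fintype.card J := Nat.cast_nonneg _
  rw [mul_one_div, div_mul_eq_mul_div, div_le_one (by positivity)]
  linarith

variable {c : J → J → E → ℝ}

theorem CO.e (h : CO b k c) (i j : J) : ∀ x ∈ Metric.ball (0 : E) 2,
    |c i j x - kd i j| ≤ 1 / (2 * Fintype.card J + 2) := (h.h i j).zz

theorem CO.c2 (h : CO b k c) (i j : J) : ∀ x ∈ Metric.ball (0 : E) 2, |c i j x| ≤ 2 := by
  intro x hx
  have h1 := (h.e i j x hx).trans eps_le
  have h2 : |kd i j| ≤ 1 := by unfold kd; split_ifs <;> simp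
  have h3 : c i j x = (c i j x - kd i j) + kd i j := by ring
  rw [h3]
  exact (abs_add_le _ _).trans (by linarith)

theorem CO.D (h : CO b k c) (i j l : J) : ∀ x ∈ Metric.ball (0 : E) 2,
    EI.D b l (fun x => c i j x - kd i j) x = EI.D b l (c i j) x := by
  intro x hx
  rw [D_sub (da Metric.isOpen_ball (h.s i j) hx) (differentiableAt_const _), D_const, sub_zero]

theorem CO.dc (h : CO b (k + 1) c) (i j l : J) : ∀ x ∈ Metric.ball (0 : E) 2,
    |EI.D b l (c i j) x| ≤ 1 := by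
  intro x hx
  rw [← h.D i j l x hx]
  exact (((h.h i j).2 l).zz x hx).trans eps_le

theorem CO.down (h : CO b (k + 1) c) : CO b k c := ⟨h.s, fun i j => (h.h i j).down⟩

theorem ofReal_int {K : Set E} (hf : Continuous f) (hc : HasCompactSupport f)
    (hB : tsupport f ⊆ B') : ENNReal.ofReal (∫ x, f x ^ 2 ∂μ) ≤ nn μ B' f := by
  have : ∫ x, f x ^ 2 ∂μ = ∫ x in tsupport f, f x ^ 2 ∂μ := by
    rw [setIntegral_eq_integral_of_forall_compl_eq_zero]
    intro x hx
    simp [image_eq_zero_of_notMem_tsupport hx]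
  rw [this]
  exact ofReal_setInt hc.isCompact hB hf.continuousOn

/-- Second derivatives, in terms of first derivatives. -/
theorem second (μ : Measure E) [μ.IsAddHaarMeasure] (b : J → E) {r R : ℝ} (hr : 0 < r)
    (hrR : r < R) (hR : R ≤ 2) : ∃ C : ℝ≥0∞, C ≠ ⊤ ∧ ∀ c : J → J → E → ℝ, CO b 1 c →
    ∀ w : E → ℝ, ContDiffOn ℝ ((⊤ : ℕ∞) : WithTop ℕ∞) w (Metric.ball 0 2) → ∀ i j,
    nn μ (Metric.ball 0 r) (D b i (D b j w)) ≤ C * (nn μ (Metric.ball 0 R) (Lc b c w) +
      ∑ i, nn μ (Metric.ball 0 R) (D b i w) + nn μ (Metric.ball 0 R) w) := by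
  obtain ⟨ζ, hζ, hζc, hζR, hζ1⟩ := exists_cut (E := E) hr hrR
  obtain ⟨A, hA, hbd⟩ := Bd_cpt b 2 hζ hζc
  set N : ℝ := (Fintype.card J : ℝ) with hN
  have hN0 : 0 ≤ N := Nat.cast_nonneg _
  set C₂ : ℝ := 2 * A * N ^ 2 with hC₂
  set C₁ : ℝ := 4 * A * N with hC₁
  refine ⟨4 * (2 * (ENNReal.ofReal (A ^ 2) + 2 * (2 ^ Fintype.card J * ENNReal.ofReal (C₁ ^ 2) +
    ENNReal.ofReal (C₂ ^ 2)))), by finiteness, ?_⟩
  intro c hc w hw i₀ j₀
  have hO : IsOpen (Metric.ball (0 : E) 2) := Metric.isOpen_ball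
  have hBR : IsOpen (Metric.ball (0 : E) R) := Metric.isOpen_ball
  have hBr : IsOpen (Metric.ball (0 : E) r) := Metric.isOpen_ball
  have hsub : Metric.ball (0 : E) R ⊆ Metric.ball 0 2 := Metric.ball_subset_ball hR
  have hsub' : Metric.ball (0 : E) r ⊆ Metric.ball 0 2 := Metric.ball_subset_ball (by linarith)
  set v : E → ℝ := fun x => ζ x * w x with hv
  have hvs : ContDiff ℝ ((⊤ : ℕ∞) : WithTop ℕ∞) v := cd_cut hO hw hζ (hζR.trans hsub)
  have hvc : HasCompactSupport v := hζc.mul_right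
  have hvt : tsupport v ⊆ tsupport ζ := tsupport_mul_subset_left
  have hvR : tsupport v ⊆ Metric.ball 0 R := hvt.trans hζR
  have hw' := hw.mono hsub
  -- left side
  have s1 : nn μ (Metric.ball 0 r) (D b i₀ (D b j₀ w)) ≤
      ENNReal.ofReal (∫ x, ∑ i, ∑ j, D b i (D b j v) x ^ 2 ∂μ) := by
    have e : nn μ (Metric.ball 0 r) (D b i₀ (D b j₀ w)) =
        nn μ (Metric.ball 0 r) (D b i₀ (D b j₀ v)) := by
      have h0 : ∀ x ∈ Metric.ball (0 : E) r, w x = v x := fun x hx => by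
        simp [hv, hζ1 x hx]
      exact nn_congr hBr fun x hx => D_congr hBr (fun y hy => D_congr hBr h0 hy j₀) hx i₀
    rw [e]
    refine nn_le_of hBr.measurableSet ?_ (fun x => ?_) (fun x _ => ?_)
    · exact integrable_finsetSum _ fun i _ => integrable_finsetSum _ fun j _ =>
        intg ((cdg_D (cdg_D hvs j) i).pow 2) (hc_sq (D_supp (D_supp hvc j) i))
    · exact Finset.sum_nonneg fun i _ => Finset.sum_nonneg fun j _ => sq_nonneg _
    · calc D b i₀ (D b j₀ v) x ^ 2 ≤ ∑ j, D b i₀ (D b j v) x ^ 2 :=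
            Finset.single_le_sum (f := fun j => D b i₀ (D b j v) x ^ 2)
              (fun _ _ => sq_nonneg _) (Finset.mem_univ j₀)
        _ ≤ _ := Finset.single_le_sum (f := fun i => ∑ j, D b i (D b j v) x ^ 2)
              (fun _ _ => Finset.sum_nonneg fun _ _ => sq_nonneg _) (Finset.mem_univ i₀)
  have s2 := E1 (μ := μ) (b := b) hO hc.s hc.e eps_pos.le eps_N hvs hvc (hvR.trans hsub)
  -- L v
  have hz : ∀ x, x ∉ tsupport v → ∀ i j, D b i (D b j v) x = 0 := fun x hx i j =>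
    image_eq_zero_of_notMem_tsupport fun h => hx ((ts_D j) ((ts_D i) h))
  have hLv : ContDiff ℝ ((⊤ : ℕ∞) : WithTop ℕ∞) (Lc b c v) := by
    have : Lc b c v = fun x => ∑ i, ∑ j, D b i (D b j v) x * c i j x := by
      funext x; simp only [Lc, mul_comm]
    rw [this]
    exact ContDiff.sum fun i _ => ContDiff.sum fun j _ => cd_cut hO (hc.s i j)
      (cdg_D (cdg_D hvs j) i) (((ts_D i).trans (ts_D j)).trans (hvR.trans hsub))
  have hLs : support (Lc b c v) ⊆ tsupport v := by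
    intro x hx
    by_contra h
    apply hx
    simp [Lc, hz x h]
  have hLt : tsupport (Lc b c v) ⊆ tsupport v :=
    closure_minimal hLs (isClosed_tsupport _)
  have hLc : HasCompactSupport (Lc b c v) :=
    HasCompactSupport.of_support_subset_isCompact hvc hLs
  have s3 : ENNReal.ofReal (∫ x, Lc b c v x ^ 2 ∂μ) ≤ nn μ (Metric.ball 0 R) (Lc b c v) :=
    ofReal_int (K := univ) hLv.continuous hLc (hLt.trans hvR)
  -- expansion
  have e : ∀ x ∈ Metric.ball (0 : E) R, Lc b c v x = ζ x * Lc b c w x +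
      ((∑ j, (∑ i, (c i j x + c j i x) * D b i ζ x) * D b j w x) + Lc b c ζ x * w x) := by
    intro x hx
    have hx2 := hsub hx
    have e1 : ∀ i j, D b i (D b j v) x = ζ x * D b i (D b j w) x + D b i ζ x * D b j w x +
        (D b j ζ x * D b i w x + D b i (D b j ζ) x * w x) := by
      intro i j
      have h1 : ∀ y ∈ Metric.ball (0 : E) 2, D b j v y = ζ y * D b j w y + D b j ζ y * w y :=
        fun y hy => D_mul (hζ.differentiable (by simp) y) (da hO hw hy) j
      rw [D_congr (b := b) hO h1 hx2 i, D_add, D_mul, D_mul]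
      · exact (cdg_D hζ j).differentiable (by simp) x
      · exact da hO hw hx2
      · exact hζ.differentiable (by simp) x
      · exact da hO (cd_D hO hw j) hx2
      · exact (hζ.differentiable (by simp) x).mul (da hO (cd_D hO hw j) hx2)
      · exact ((cdg_D hζ j).differentiable (by simp) x).mul (da hO hw hx2)
    have e2 : Lc b c v x = (∑ i, ∑ j, ζ x * (c i j x * D b i (D b j w) x)) +
        ((∑ i, ∑ j, c i j x * D b i ζ x * D b j w x) +
        (∑ i, ∑ j, c i j x * D b j ζ x * D b i w x)) +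
        ∑ i, ∑ j, c i j x * D b i (D b j ζ) x * w x := by
      unfold Lc
      simp only [e1, ← Finset.sum_add_distrib]
      refine Finset.sum_congr rfl fun i _ => Finset.sum_congr rfl fun j _ => by ring
    rw [e2]
    unfold Lc
    simp only [Finset.mul_sum, Finset.sum_mul]
    rw [add_assoc]
    congr 1
    congr 1
    rw [Finset.sum_comm (f := fun i j => c i j x * D b i ζ x * D b j w x)]
    simp only [← Finset.sum_add_distrib]
    refine Finset.sum_congr rfl fun i _ => Finset.sum_congr rfl fun j _ => by ring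
  -- bounds
  have b1 : ∀ x ∈ Metric.ball (0 : E) R, |ζ x| ≤ A := fun x _ => hbd.1 x (mem_univ _)
  have b2 : ∀ j, ∀ x ∈ Metric.ball (0 : E) R, |∑ i, (c i j x + c j i x) * D b i ζ x| ≤ C₁ := by
    intro j x hx
    calc |∑ i, (c i j x + c j i x) * D b i ζ x| ≤ ∑ i, |(c i j x + c j i x) * D b i ζ x| :=
          Finset.abs_sum_le_sum_abs _ _
      _ ≤ ∑ _i : J, 4 * A := by
          refine Finset.sum_le_sum fun i _ => ?_
          rw [abs_mul]
          have h1 := hc.c2 i j x (hsub hx)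
          have h2 := hc.c2 j i x (hsub hx)
          have h3 := (hbd.2 i).1 x (mem_univ _)
          have h4 : |c i j x + c j i x| ≤ 4 := (abs_add_le _ _).trans (by linarith)
          exact mul_le_mul h4 h3 (abs_nonneg _) (by norm_num)
      _ = C₁ := by simp [hC₁, hN]; ring
  have b3 : ∀ x ∈ Metric.ball (0 : E) R, |Lc b c ζ x| ≤ C₂ := by
    intro x hx
    calc |Lc b c ζ x| ≤ ∑ i, ∑ j, |c i j x * D b i (D b j ζ) x| :=
          (Finset.abs_sum_le_sum_abs _ _).trans
            (Finset.sum_le_sum fun _ _ => Finset.abs_sum_le_sum_abs _ _)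
      _ ≤ ∑ _i : J, ∑ _j : J, 2 * A := by
          refine Finset.sum_le_sum fun i _ => Finset.sum_le_sum fun j _ => ?_
          rw [abs_mul]
          exact mul_le_mul (hc.c2 i j x (hsub hx)) (((hbd.2 j).2 i) x (mem_univ _)) (abs_nonneg _)
            (by norm_num)
      _ = C₂ := by simp [hC₂, hN]; ring
  have sL : ContDiffOn ℝ ((⊤ : ℕ∞) : WithTop ℕ∞) (Lc b c w) (Metric.ball 0 R) := (cd_Lc hO hc.s hw).mono hsub
  have sj : ∀ j, ContDiffOn ℝ ((⊤ : ℕ∞) : WithTop ℕ∞) (fun x => (∑ i, (c i j x + c j i x) * D b i ζ x) * D b j w x)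
      (Metric.ball 0 R) := fun j =>
    (ContDiffOn.sum fun i _ => (((hc.s i j).mono hsub).add ((hc.s j i).mono hsub)).mul
      (cdg_D hζ i).contDiffOn).mul ((cd_D hO hw j).mono hsub)
  have s4 : nn μ (Metric.ball 0 R) (Lc b c v) ≤ 2 * (ENNReal.ofReal (A ^ 2) *
      nn μ (Metric.ball 0 R) (Lc b c w) + 2 * ((2 ^ Fintype.card J * ENNReal.ofReal (C₁ ^ 2) *
      ∑ i, nn μ (Metric.ball 0 R) (D b i w)) + ENNReal.ofReal (C₂ ^ 2) *
      nn μ (Metric.ball 0 R) w)) := by
    rw [nn_congr hBR e]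
    refine (nn_add hBR (hζ.contDiffOn.mul sL)).trans ?_
    gcongr
    · exact nn_mul hBR b1
    · refine (nn_add hBR (ContDiffOn.sum fun j _ => sj j)).trans ?_
      gcongr
      · refine (Hs_sum (b := b) hBR 0 Finset.univ _ fun j _ => sj j).trans ?_
        have h5 : ∑ j, nn μ (Metric.ball 0 R) (fun x => (∑ i, (c i j x + c j i x) * D b i ζ x) *
            D b j w x) ≤ ENNReal.ofReal (C₁ ^ 2) * ∑ i, nn μ (Metric.ball 0 R) (D b i w) := by
          rw [Finset.mul_sum]
          exact Finset.sum_le_sum fun j _ => nn_mul hBR (b2 j)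
        rw [Finset.card_univ, mul_assoc]
        exact mul_le_mul_right h5 _
      · exact nn_mul hBR b3
  set X := nn μ (Metric.ball 0 R) (Lc b c w)
  set Y := ∑ i, nn μ (Metric.ball 0 R) (D b i w)
  set Z := nn μ (Metric.ball 0 R) w
  calc nn μ (Metric.ball 0 r) (D b i₀ (D b j₀ w))
      ≤ ENNReal.ofReal (∫ x, ∑ i, ∑ j, D b i (D b j v) x ^ 2 ∂μ) := s1
    _ ≤ ENNReal.ofReal (4 * ∫ x, Lc b c v x ^ 2 ∂μ) := ENNReal.ofReal_le_ofReal s2
    _ = 4 * ENNReal.ofReal (∫ x, Lc b c v x ^ 2 ∂μ) := by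
        rw [ENNReal.ofReal_mul (by norm_num)]; norm_num
    _ ≤ 4 * (2 * (ENNReal.ofReal (A ^ 2) * X + 2 * ((2 ^ Fintype.card J *
        ENNReal.ofReal (C₁ ^ 2) * Y) + ENNReal.ofReal (C₂ ^ 2) * Z))) := by
        gcongr
        exact s3.trans s4
    _ ≤ 4 * (2 * (ENNReal.ofReal (A ^ 2) * (X + Y + Z) + 2 * ((2 ^ Fintype.card J *
        ENNReal.ofReal (C₁ ^ 2) * (X + Y + Z)) + ENNReal.ofReal (C₂ ^ 2) * (X + Y + Z)))) := by
        gcongr
        · rw [add_assoc]; exact le_self_add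
        · rw [add_assoc, add_left_comm]; exact le_self_add
        · exact le_add_self
    _ = _ := by ring

end Vale.Agent.P088.HY.EI
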