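import Vale.Agent.P088.R2.H901.EllD

/-!
# P088: interior estimates, induction over the order
-/

open MeasureTheory Set Function
open scoped ContDiff ENNReal NNReal

set_option linter.unusedSectionVars false
set_option linter.unusedVariables false

noncomputable section

namespace Vale.Agent.P088.HY.EI

variable {J E : Type} [NormedAddCommGroup E] [NormedSpace ℝ E] [FiniteDimensional ℝ E]
  [MeasurableSpace E] [BorelSpace E] [Fintype J] [DecidableEq J]

theorem Bd.neg {b : J → E} {B : Set E} {A : ℝ} : ∀ {k : ℕ} {f : E → ℝ}, Bd b k B A f →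
    Bd b k B A (fun x => -f x)
  | 0, _, h => fun x hx => by rw [abs_neg]; exact h x hx
  | _ + 1, f, h => ⟨fun x hx => by rw [abs_neg]; exact h.1 x hx, fun i => by
      have : EI.D b i (fun x => -f x) = fun x => -EI.D b i f x := by
        funext x; simp [EI.D, fderiv_fun_neg]
      rw [this]
      exact Bd.neg (h.2 i)⟩

/-- First derivatives. -/
theorem first (μ : Measure E) [μ.IsAddHaarMeasure] (b : J → E) {r R : ℝ} (hr : 0 < r)
    (hrR : r < R) (hR : R ≤ 2) : ∃ C : ℝ≥0∞, C ≠ ⊤ ∧ ∀ c : J → J → E → ℝ, CO b 1 c →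
    ∀ w : E → ℝ, ContDiffOn ℝ ((⊤ : ℕ∞) : WithTop ℕ∞) w (Metric.ball 0 2) →
    ∑ i, nn μ (Metric.ball 0 r) (D b i w) ≤ C * (nn μ (Metric.ball 0 R) w +
      nn μ (Metric.ball 0 R) (Lc b c w)) := by
  obtain ⟨ζ, hζ, hζc, hζR, hζ1⟩ := exists_cut (E := E) hr hrR
  obtain ⟨A, hA, hbd⟩ := Bd_cpt b 1 hζ hζc
  refine ⟨ENNReal.ofReal (4 * Fintype.card J *
      (A ^ 2 + Fintype.card J * (5 * A * Fintype.card J) ^ 2)), ENNReal.ofReal_ne_top, ?_⟩
  intro c hc w hw
  exact E2 (μ := μ) (b := b) Metric.isOpen_ball hc.s hc.e hc.c2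
    (fun i j => hc.dc i j i) eps_N hζ hζc Metric.isOpen_ball hζR (Metric.ball_subset_ball hR) hA
    (fun x => hbd.1 x (mem_univ _)) (fun i x => (hbd.2 i) x (mem_univ _))
    Metric.isOpen_ball.measurableSet hζ1 hw

theorem base (μ : Measure E) [μ.IsAddHaarMeasure] (b : J → E) {r R : ℝ} (hr : 0 < r)
    (hrR : r < R) (hR : R ≤ 2) : ∃ C : ℝ≥0∞, C ≠ ⊤ ∧ ∀ c : J → J → E → ℝ, CO b 1 c →
    ∀ w : E → ℝ, ContDiffOn ℝ ((⊤ : ℕ∞) : WithTop ℕ∞) w (Metric.ball 0 2) →
    Hs μ b 2 (Metric.ball 0 r) w ≤ C * (nn μ (Metric.ball 0 R) w +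
      nn μ (Metric.ball 0 R) (Lc b c w)) := by
  obtain ⟨C₁, hC₁, h₁⟩ := first μ b (r := (r + R) / 2) (R := R) (by linarith) (by linarith) hR
  obtain ⟨C₂, hC₂, h₂⟩ := second μ b (r := r) (R := (r + R) / 2) hr (by linarith) (by linarith)
  refine ⟨1 + C₁ + Fintype.card J * (Fintype.card J * (C₂ * (2 + C₁))), by finiteness, ?_⟩
  intro c hc w hw
  have a1 := h₁ c hc w hw
  have a2 := h₂ c hc w hw
  set Z := nn μ (Metric.ball 0 R) w
  set X := nn μ (Metric.ball 0 R) (Lc b c w)
  have m1 : nn μ (Metric.ball 0 r) w ≤ Z := nn_mono (Metric.ball_subset_ball (by linarith)) _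
  have m2 : nn μ (Metric.ball 0 ((r + R) / 2)) w ≤ Z :=
    nn_mono (Metric.ball_subset_ball (by linarith)) _
  have m3 : nn μ (Metric.ball 0 ((r + R) / 2)) (Lc b c w) ≤ X :=
    nn_mono (Metric.ball_subset_ball (by linarith)) _
  have m4 : ∑ i, nn μ (Metric.ball 0 r) (D b i w) ≤ C₁ * (Z + X) := by
    refine le_trans (Finset.sum_le_sum fun i _ => ?_) a1
    exact nn_mono (Metric.ball_subset_ball (by linarith)) _
  have m5 : ∀ i j, nn μ (Metric.ball 0 r) (D b i (D b j w)) ≤ C₂ * ((2 + C₁) * (Z + X)) := by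
    intro i j
    refine (a2 i j).trans ?_
    gcongr
    calc _ ≤ X + C₁ * (Z + X) + Z := by gcongr
      _ = Z + X + C₁ * (Z + X) := by ring
      _ ≤ (Z + X) + (Z + X) + C₁ * (Z + X) := by
          gcongr
          all_goals first | exact le_self_add | exact le_add_self
      _ = _ := by ring
  calc Hs μ b 2 (Metric.ball 0 r) w = nn μ (Metric.ball 0 r) w +
        (∑ i, nn μ (Metric.ball 0 r) (D b i w) +
        ∑ i, ∑ j, nn μ (Metric.ball 0 r) (D b j (D b i w))) := by
        simp only [Hs, Finset.sum_add_distrib]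
    _ ≤ Z + (C₁ * (Z + X) + ∑ _i : J, ∑ _j : J, C₂ * ((2 + C₁) * (Z + X))) := by
        gcongr with i _ j _
        exact m5 j i
    _ ≤ (Z + X) + (C₁ * (Z + X) + ∑ _i : J, ∑ _j : J, C₂ * ((2 + C₁) * (Z + X))) := by
        gcongr; exact le_self_add
    _ = _ := by
        simp only [Finset.sum_const, Finset.card_univ, nsmul_eq_mul]
        ring

/-- Interior estimate of all orders. -/
theorem all (μ : Measure E) [μ.IsAddHaarMeasure] (b : J → E) (k : ℕ) : ∀ {r R : ℝ}, 0 < r →
    r < R → R ≤ 2 → ∃ C : ℝ≥0∞, C ≠ ⊤ ∧ ∀ c : J → J → E → ℝ, CO b (k + 1) c →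
    ∀ w : E → ℝ, ContDiffOn ℝ ((⊤ : ℕ∞) : WithTop ℕ∞) w (Metric.ball 0 2) →
    Hs μ b (k + 2) (Metric.ball 0 r) w ≤ C * (nn μ (Metric.ball 0 R) w +
      Hs μ b k (Metric.ball 0 R) (Lc b c w)) := by
  induction k with
  | zero => exact fun hr hrR hR => base μ b hr hrR hR
  | succ k ih =>
    intro r R hr hrR hR
    obtain ⟨C₁, hC₁, h₁⟩ := ih (r := (r + R) / 2) (R := R) (by linarith) (by linarith) hR
    obtain ⟨C₂, hC₂, h₂⟩ := ih (r := r) (R := (r + R) / 2) hr (by linarith) (by linarith)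
    set ρ : ℝ := (r + R) / 2 with hρ
    have hρ2 : ρ ≤ 2 := by rw [hρ]; linarith
    set N : ℝ≥0∞ := (Fintype.card J : ℝ≥0∞) with hN
    set K : ℝ≥0∞ := 2 ^ Fintype.card J * (2 ^ Fintype.card J * (cst J k *
      ENNReal.ofReal (1 ^ 2) * (N * N))) with hK
    have hKt : K ≠ ⊤ := by
      have := cst_ne (J := J) k
      finiteness
    refine ⟨1 + N * (C₂ * (C₁ + (2 * 1 + 2 * (K * C₁)))), by finiteness, ?_⟩
    intro c hc w hw
    have hO : IsOpen (Metric.ball (0 : E) 2) := Metric.isOpen_ball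
    have hρo : IsOpen (Metric.ball (0 : E) ρ) := Metric.isOpen_ball
    have hsub : Metric.ball (0 : E) ρ ⊆ Metric.ball 0 2 := Metric.ball_subset_ball hρ2
    have a1 := h₁ c hc.down w hw
    set Z := nn μ (Metric.ball 0 R) w
    set X := Hs μ b (k + 1) (Metric.ball 0 R) (Lc b c w)
    have hX : Hs μ b k (Metric.ball 0 R) (Lc b c w) ≤ X := Hs_succ _ _
    have a1' : Hs μ b (k + 2) (Metric.ball 0 ρ) w ≤ C₁ * (Z + X) := a1.trans (by gcongr)
    have hLs := cd_Lc (b := b) hO hc.s hw
    have key : ∀ i, Hs μ b (k + 2) (Metric.ball 0 r) (D b i w) ≤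
        C₂ * (C₁ + (2 * 1 + 2 * (K * C₁))) * (Z + X) := by
      intro i
      refine (h₂ c hc.down (D b i w) (cd_D hO hw i)).trans ?_
      have b1 : nn μ (Metric.ball 0 ρ) (D b i w) ≤ C₁ * (Z + X) :=
        ((nn_le_Hs (k + 1) _).trans (Hs_D (k + 1) i w)).trans a1'
      have e : ∀ x ∈ Metric.ball (0 : E) ρ, Lc b c (D b i w) x =
          D b i (Lc b c w) x + ∑ p, ∑ q, (-(D b i (c p q) x)) * D b p (D b q w) x := by
        intro x hx
        have hx2 := hsub hx
        have e1 : D b i (Lc b c w) x = ∑ p, ∑ q, (c p q x * D b i (D b p (D b q w)) x +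
            D b i (c p q) x * D b p (D b q w) x) := by
          unfold Lc
          rw [D_sum _ fun p _ => da hO (ContDiffOn.sum fun q _ =>
            (hc.s p q).mul (cd_D hO (cd_D hO hw q) p)) hx2]
          refine Finset.sum_congr rfl fun p _ => ?_
          rw [D_sum _ fun q _ => da hO ((hc.s p q).mul (cd_D hO (cd_D hO hw q) p)) hx2]
          refine Finset.sum_congr rfl fun q _ => ?_
          rw [D_mul (da hO (hc.s p q) hx2) (da hO (cd_D hO (cd_D hO hw q) p) hx2)]
        rw [e1]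
        unfold Lc
        simp only [← Finset.sum_add_distrib]
        refine Finset.sum_congr rfl fun p _ => Finset.sum_congr rfl fun q _ => ?_
        have e2 : D b p (D b q (D b i w)) x = D b i (D b p (D b q w)) x := by
          rw [D_congr hO (fun y hy => D_comm hO hw hy q i) hx2 p,
            D_comm hO (cd_D hO hw q) hx2 p i]
        rw [e2]; ring
      have b2 : Hs μ b k (Metric.ball 0 ρ) (Lc b c (D b i w)) ≤
          2 * (1 * (Z + X)) + 2 * (K * (C₁ * (Z + X))) := by
        rw [Hs_congr hρo k e]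
        have s1 : ContDiffOn ℝ ((⊤ : ℕ∞) : WithTop ℕ∞) (D b i (Lc b c w)) (Metric.ball 0 ρ) :=
          (cd_D hO hLs i).mono hsub
        have s2 : ∀ p q, ContDiffOn ℝ ((⊤ : ℕ∞) : WithTop ℕ∞) (fun x => (-(D b i (c p q) x)) * D b p (D b q w) x)
            (Metric.ball 0 ρ) := fun p q =>
          ((((cd_D hO (hc.s p q) i).neg).mul (cd_D hO (cd_D hO hw q) p)).mono hsub)
        refine (Hs_add hρo k s1 (ContDiffOn.sum fun p _ => ContDiffOn.sum fun q _ =>
          s2 p q)).trans ?_
        rw [mul_add]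
        gcongr
        · rw [one_mul]
          calc Hs μ b k (Metric.ball 0 ρ) (D b i (Lc b c w))
              ≤ Hs μ b (k + 1) (Metric.ball 0 ρ) (Lc b c w) := Hs_D k i _
            _ ≤ X := Hs_mono (Metric.ball_subset_ball (by rw [hρ]; linarith)) _ _
            _ ≤ Z + X := le_add_self
        · refine (Hs_sum hρo k Finset.univ _ fun p _ => ContDiffOn.sum fun q _ => s2 p q).trans ?_
          rw [Finset.card_univ, hK]
          have t1 : ∀ p q, Hs μ b k (Metric.ball 0 ρ)
              (fun x => (-(D b i (c p q) x)) * D b p (D b q w) x) ≤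
              cst J k * ENNReal.ofReal (1 ^ 2) * (C₁ * (Z + X)) := by
            intro p q
            have hb : Bd b k (Metric.ball 0 ρ) 1 (fun x => -(D b i (c p q) x)) := by
              have h0 : Bd b k (Metric.ball 0 2) 1 (D b i fun x => c p q x - kd p q) :=
                (((hc.h p q).2 i).down).mono eps_le
              exact ((h0.congr hO (hc.D p q i)).neg).mono_set hsub
            refine (Hs_mul hρo k ((cd_D hO (cd_D hO hw q) p).mono hsub)
              (((cd_D hO (hc.s p q) i).neg).mono hsub) hb).trans ?_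
            gcongr
            exact ((Hs_D k p _).trans (Hs_D (k + 1) q w)).trans a1'
          calc 2 ^ Fintype.card J * ∑ p, Hs μ b k (Metric.ball 0 ρ)
                (fun x => ∑ q, (-(D b i (c p q) x)) * D b p (D b q w) x)
              ≤ 2 ^ Fintype.card J * ∑ _p : J, (2 ^ Fintype.card J * ∑ _q : J,
                cst J k * ENNReal.ofReal (1 ^ 2) * (C₁ * (Z + X))) := by
                gcongr with p _
                refine (Hs_sum hρo k Finset.univ _ fun q _ => s2 p q).trans ?_
                rw [Finset.card_univ]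
                gcongr with q _
                exact t1 p q
            _ = _ := by
                simp only [Finset.sum_const, Finset.card_univ, nsmul_eq_mul, hN]
                ring
      calc _ ≤ C₂ * (C₁ * (Z + X) + (2 * (1 * (Z + X)) + 2 * (K * (C₁ * (Z + X))))) := by
            gcongr
        _ = _ := by ring
    calc Hs μ b (k + 1 + 2) (Metric.ball 0 r) w = nn μ (Metric.ball 0 r) w +
          ∑ i, Hs μ b (k + 2) (Metric.ball 0 r) (D b i w) := rfl
      _ ≤ (Z + X) + ∑ _i : J, C₂ * (C₁ + (2 * 1 + 2 * (K * C₁))) * (Z + X) := by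
          gcongr with i _
          · exact (nn_mono (Metric.ball_subset_ball (by linarith)) _).trans le_self_add
          · exact key i
      _ = _ := by
          simp only [Finset.sum_const, Finset.card_univ, nsmul_eq_mul, hN]
          ring

end Vale.Agent.P088.HY.EI
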