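import Vale.Agent.P088.R2.H901.EllE

/-!
# P088: interior estimates, Sobolev inequality
-/

open MeasureTheory Set Function
open scoped ContDiff ENNReal NNReal

set_option linter.unusedSectionVars false
set_option linter.unusedVariables false

noncomputable section

namespace Vale.Agent.P088.HY.EI

/-- Iterated directional derivative along a list; the head of the list acts first. -/
def DL {J E : Type} [NormedAddCommGroup E] [NormedSpace ℝ E] (b : J → E) :
    List J → (E → ℝ) → E → ℝ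
  | [], f => f
  | i :: l, f => DL b l (D b i f)

section gen

variable {J E : Type} [NormedAddCommGroup E] [NormedSpace ℝ E] {b : J → E}

theorem DL_cd : ∀ (l : List J) {f : E → ℝ}, ContDiff ℝ ((⊤ : ℕ∞) : WithTop ℕ∞) f → ContDiff ℝ ((⊤ : ℕ∞) : WithTop ℕ∞) (DL b l f)
  | [], _, h => h
  | _ :: l, _, h => DL_cd l (cdg_D h _)

theorem DL_supp : ∀ (l : List J) {f : E → ℝ}, HasCompactSupport f → HasCompactSupport (DL b l f)
  | [], _, h => h
  | _ :: l, _, h => DL_supp l (D_supp h _)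

theorem DL_ts : ∀ (l : List J) {f : E → ℝ}, tsupport (DL b l f) ⊆ tsupport f
  | [], _ => subset_rfl
  | _ :: l, _ => (DL_ts l).trans (ts_D _)

theorem nn_DL [MeasurableSpace E] {μ : Measure E} [Fintype J] {B : Set E} :
    ∀ (l : List J) (f : E → ℝ), nn μ B (DL b l f) ≤ Hs μ b l.length B f
  | [], f => le_rfl
  | i :: l, f => (nn_DL l (D b i f)).trans (Hs_D _ _ _)

end gen

section pi

variable {J : Type} [Fintype J] [DecidableEq J]

/-- The standard directions. -/
def sb (J : Type) [DecidableEq J] (i : J) : J → ℝ := Pi.single i 1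

theorem one_dim {f : (J → ℝ) → ℝ} (hf : ContDiff ℝ ((⊤ : ℕ∞) : WithTop ℕ∞) f) (hc : HasCompactSupport f) (i : J)
    (x : J → ℝ) : ‖f x‖ₑ ≤ ∫⁻ t, ‖D (sb J) i f (update x i t)‖ₑ := by
  have h1 : ContDiff ℝ 1 f := hf.of_le (by simp)
  calc ‖f x‖ₑ
    _ ≤ ∫⁻ t in Iic (x i), ‖deriv (f ∘ update x i) t‖ₑ := by
        apply le_trans (by simp) (HasCompactSupport.enorm_le_lintegral_Ici_deriv _ _ _)
        · exact h1.comp (by convert! contDiff_update 1 x i)
        · exact hc.comp_isClosedEmbedding (isClosedEmbedding_update x i)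
    _ ≤ ∫⁻ t, ‖deriv (f ∘ update x i) t‖ₑ := setLIntegral_le_lintegral _ _
    _ = ∫⁻ t, ‖D (sb J) i f (update x i t)‖ₑ := by
        apply lintegral_congr
        intro y
        rw [fderiv_comp_deriv _ (h1.differentiable one_ne_zero).differentiableAt
          (hasDerivAt_update x i y).differentiableAt, (hasDerivAt_update x i y).deriv]
        rfl

theorem lmarg (l : List J) (hl : l.Nodup) : ∀ {f : (J → ℝ) → ℝ}, ContDiff ℝ ((⊤ : ℕ∞) : WithTop ℕ∞) f →
    HasCompactSupport f → ∀ x, ‖f x‖ₑ ≤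
      (∫⋯∫⁻_l.toFinset, (fun y => ‖DL (sb J) l f y‖ₑ) ∂fun _ => (volume : Measure ℝ)) x := by
  induction l with
  | nil =>
    intro f hf hc x
    simp [DL]
  | cons i l ih =>
    intro f hf hc x
    have hl' := List.nodup_cons.1 hl
    rw [List.toFinset_cons]
    show ‖f x‖ₑ ≤ (∫⋯∫⁻_insert i l.toFinset, (fun y => ‖DL (sb J) l (D (sb J) i f) y‖ₑ)
      ∂fun _ => (volume : Measure ℝ)) x
    rw [lmarginal_insert _ ((DL_cd l (cdg_D hf i)).continuous.measurable.enorm)
      (by simpa using hl'.1)]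
    refine (one_dim hf hc i x).trans (lintegral_mono fun t => ?_)
    exact ih hl'.2 (cdg_D hf i) (D_supp hc i) _

theorem sup_le {f : (J → ℝ) → ℝ} (hf : ContDiff ℝ ((⊤ : ℕ∞) : WithTop ℕ∞) f) (hc : HasCompactSupport f)
    (x : J → ℝ) : ‖f x‖ₑ ≤ ∫⁻ y, ‖DL (sb J) (Finset.univ : Finset J).toList f y‖ₑ := by
  have := lmarg (Finset.univ : Finset J).toList (Finset.nodup_toList _) hf hc x
  rw [Finset.toList_toFinset, lmarginal_univ] at this
  exact this

end pi

section sob

variable {J E : Type} [NormedAddCommGroup E] [NormedSpace ℝ E] [FiniteDimensional ℝ E]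
  [MeasurableSpace E] [BorelSpace E] [Fintype J] [DecidableEq J]

theorem DL_comp (b : Module.Basis J ℝ E) : ∀ (l : List J) {f : E → ℝ}, ContDiff ℝ ((⊤ : ℕ∞) : WithTop ℕ∞) f →
    DL (sb J) l (f ∘ b.equivFunL.symm) = DL b l f ∘ b.equivFunL.symm
  | [], f, _ => rfl
  | i :: l, f, hf => by
    have : D (sb J) i (f ∘ b.equivFunL.symm) = D b i f ∘ b.equivFunL.symm := by
      funext x
      have h1 : HasFDerivAt (f ∘ b.equivFunL.symm)
          ((fderiv ℝ f (b.equivFunL.symm x)).comp (b.equivFunL.symm : (J → ℝ) →L[ℝ] E)) x :=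
        (hf.differentiable (by simp) _).hasFDerivAt.comp x b.equivFunL.symm.hasFDerivAt
      have h2 : b.equivFunL.symm (sb J i) = b i := by
        have : b.equivFun.symm (Pi.single i 1) = b i := by
          rw [Module.Basis.equivFun_symm_apply]
          simp [Pi.single_apply, ite_smul]
        exact this
      simp only [D, h1.fderiv, ContinuousLinearMap.comp_apply, comp_apply]
      congr 1
    show DL (sb J) l (D (sb J) i (f ∘ b.equivFunL.symm)) = _
    rw [this, DL_comp b l (cdg_D hf i)]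
    rfl

theorem sup_le' (μ : Measure E) [μ.IsAddHaarMeasure] (b : Module.Basis J ℝ E) :
    ∃ C : ℝ≥0∞, C ≠ ⊤ ∧ ∀ f : E → ℝ, ContDiff ℝ ((⊤ : ℕ∞) : WithTop ℕ∞) f → HasCompactSupport f → ∀ x,
      ‖f x‖ₑ ≤ C * ∫⁻ y, ‖DL b (Finset.univ : Finset J).toList f y‖ₑ ∂μ := by
  set e := b.equivFunL.symm with he
  set ν : Measure E := Measure.map e volume with hν
  have : ν.IsAddHaarMeasure := e.isAddHaarMeasure_map volume
  obtain ⟨κ, h2⟩ : ∃ κ : ℝ≥0, ν = κ • μ := ⟨_, Measure.isAddLeftInvariant_eq_smul ν μ⟩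
  refine ⟨κ, ENNReal.coe_ne_top, ?_⟩
  intro f hf hc x
  have h1 := sup_le (f := f ∘ e) (hf.comp e.contDiff) (hc.comp_homeomorph e.toHomeomorph)
    (e.symm x)
  simp only [comp_apply, ContinuousLinearEquiv.apply_symm_apply] at h1
  refine h1.trans (le_of_eq ?_)
  rw [DL_comp b _ hf]
  have h3 : ∫⁻ y, ‖(DL b (Finset.univ : Finset J).toList f ∘ e) y‖ₑ =
      ∫⁻ y, ‖DL b (Finset.univ : Finset J).toList f y‖ₑ ∂ν := by
    rw [hν, lintegral_map (DL_cd _ hf).continuous.measurable.enorm e.continuous.measurable]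
    rfl
  rw [h3, h2, lintegral_smul_measure]
  rfl

theorem enorm_sq (a : ℝ) : ‖a‖ₑ ^ 2 = ENNReal.ofReal (a ^ 2) := by
  rw [Real.enorm_eq_ofReal_abs, ← ENNReal.ofReal_pow (abs_nonneg _), sq_abs]

theorem csq {μ : Measure E} {B : Set E} {h : E → ℝ} (hh : Continuous h) :
    (∫⁻ y in B, ‖h y‖ₑ ∂μ) ^ 2 ≤ μ B * nn μ B h := by
  have hm : AEMeasurable (fun y => ‖h y‖ₑ) (μ.restrict B) := hh.measurable.enorm.aemeasurable
  have := ENNReal.lintegral_mul_le_Lp_mul_Lq (μ.restrict B) (p := 2) (q := 2)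
    Real.HolderConjugate.two_two (f := fun y => ‖h y‖ₑ) (g := fun _ => 1) hm aemeasurable_const
  simp only [Pi.mul_apply, mul_one, ENNReal.one_rpow, lintegral_one, Measure.restrict_apply_univ]
    at this
  have h2 := pow_le_pow_left₀ (zero_le) this 2
  refine h2.trans (le_of_eq ?_)
  rw [mul_pow, mul_comm]
  have e2 : ∀ a : ℝ≥0∞, (a ^ (1 / (2 : ℝ))) ^ 2 = a := by
    intro a
    rw [← ENNReal.rpow_natCast, ← ENNReal.rpow_mul]
    norm_num
  rw [e2, e2]
  congr 1
  unfold nn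
  refine lintegral_congr fun y => ?_
  rw [← enorm_sq]
  norm_num

theorem sob (μ : Measure E) [μ.IsAddHaarMeasure] (b : Module.Basis J ℝ E) {R : ℝ} (hR : 0 < R) :
    ∃ C : ℝ≥0∞, C ≠ ⊤ ∧ ∀ f : E → ℝ, ContDiffOn ℝ ((⊤ : ℕ∞) : WithTop ℕ∞) f (Metric.ball 0 R) →
      ENNReal.ofReal (f 0 ^ 2) ≤ C * Hs μ b (Fintype.card J) (Metric.ball 0 R) f := by
  obtain ⟨C, hC, h⟩ := sup_le' μ b
  obtain ⟨ζ, hζ, hζc, hζR, hζ1⟩ := exists_cut (E := E) (half_pos hR) (half_lt_self hR)
  obtain ⟨A, hA, hbd⟩ := Bd_cpt b (Fintype.card J) hζ hζc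
  refine ⟨C ^ 2 * (μ (Metric.ball 0 R) * (cst J (Fintype.card J) * ENNReal.ofReal (A ^ 2))), ?_, ?_⟩
  · have h1 := cst_ne (J := J) (Fintype.card J)
    have h2 : μ (Metric.ball 0 R) ≠ ⊤ := measure_ball_lt_top.ne
    finiteness
  intro f hf
  set g : E → ℝ := fun x => ζ x * f x with hg
  set l := (Finset.univ : Finset J).toList with hl
  have hlen : l.length = Fintype.card J := by rw [hl, Finset.length_toList, Finset.card_univ]
  have hgs : ContDiff ℝ ((⊤ : ℕ∞) : WithTop ℕ∞) g := cd_cut Metric.isOpen_ball hf hζ hζR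
  have hgc : HasCompactSupport g := hζc.mul_right
  have hgt : tsupport g ⊆ Metric.ball 0 R := tsupport_mul_subset_left.trans hζR
  have h1 := h g hgs hgc 0
  have h2 : ∫⁻ y, ‖DL b l g y‖ₑ ∂μ = ∫⁻ y in Metric.ball 0 R, ‖DL b l g y‖ₑ ∂μ := by
    rw [← lintegral_indicator Metric.isOpen_ball.measurableSet]
    refine lintegral_congr fun y => ?_
    by_cases hy : y ∈ Metric.ball (0 : E) R
    · rw [indicator_of_mem hy]
    · rw [indicator_of_notMem hy]
      have : DL b l g y = 0 := image_eq_zero_of_notMem_tsupport fun h => hy (hgt (DL_ts l h))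
      simp [this]
  have h3 : g 0 = f 0 := by
    simp [hg, hζ1 0 (Metric.mem_ball_self (half_pos hR))]
  rw [h2] at h1
  have h4 := pow_le_pow_left₀ zero_le h1 2
  rw [enorm_sq, h3] at h4
  refine h4.trans ?_
  rw [mul_pow, mul_assoc]
  gcongr
  refine (csq (DL_cd l hgs).continuous).trans ?_
  rw [mul_assoc]
  gcongr
  refine (nn_DL l g).trans ?_
  rw [hlen]
  exact Hs_mul Metric.isOpen_ball _ hf hζ.contDiffOn (hbd.mono_set (subset_univ _))

end sob

end Vale.Agent.P088.HY.EI
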