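import Vale.Agent.P088.R2.H901.EllF

/-!
# P088: interior estimates, the pointwise estimate
-/

open MeasureTheory Set Function
open scoped ContDiff ENNReal NNReal

set_option linter.unusedSectionVars false
set_option linter.unusedVariables false

noncomputable section

namespace Vale.Agent.P088.HY.EI

variable {J E : Type} [NormedAddCommGroup E] [NormedSpace ℝ E] [FiniteDimensional ℝ E]
  [MeasurableSpace E] [BorelSpace E] [Fintype J] [DecidableEq J]

/-- The constant of `Hs_bd`. -/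
def cs2 (J : Type) [Fintype J] : ℕ → ℝ≥0∞
  | 0 => 1
  | k + 1 => 1 + Fintype.card J * cs2 J k

omit [DecidableEq J] in
theorem cs2_ne (k : ℕ) : cs2 J k ≠ ⊤ := by
  induction k with
  | zero => simp [cs2]
  | succ k ih =>
    unfold cs2
    finiteness

theorem Hs_bd {μ : Measure E} {b : J → E} {B : Set E} (hB : MeasurableSet B) {A : ℝ} : ∀ (k : ℕ)
    {f : E → ℝ}, Bd b k B A f → Hs μ b k B f ≤ cs2 J k * (ENNReal.ofReal (A ^ 2) * μ B) := by
  have h0 : ∀ f : E → ℝ, (∀ x ∈ B, |f x| ≤ A) → nn μ B f ≤ ENNReal.ofReal (A ^ 2) * μ B := by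
    intro f hf
    rw [← setLIntegral_const]
    refine setLIntegral_mono' hB fun x hx => ENNReal.ofReal_le_ofReal ?_
    rw [← sq_abs]
    exact pow_le_pow_left₀ (abs_nonneg _) (hf x hx) 2
  intro k
  induction k with
  | zero => intro f h; simpa [cs2, Hs] using h0 f h
  | succ k ih =>
    intro f h
    have h1 : ∑ i, Hs μ b k B (D b i f) ≤ ∑ _i : J, cs2 J k * (ENNReal.ofReal (A ^ 2) * μ B) :=
      Finset.sum_le_sum fun i _ => ih (h.2 i)
    calc Hs μ b (k + 1) B f = nn μ B f + ∑ i, Hs μ b k B (D b i f) := rfl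
      _ ≤ ENNReal.ofReal (A ^ 2) * μ B + ∑ _i : J, cs2 J k * (ENNReal.ofReal (A ^ 2) * μ B) :=
          add_le_add (h0 f h.1) h1
      _ = _ := by
          simp only [Finset.sum_const, Finset.card_univ, nsmul_eq_mul, cs2]
          ring

theorem nn_eq {μ : Measure E} {B : Set E} {f : E → ℝ} (h : IntegrableOn (fun x => f x ^ 2) B μ) :
    nn μ B f = ENNReal.ofReal (∫ x in B, f x ^ 2 ∂μ) :=
  (ofReal_integral_eq_lintegral_ofReal h (ae_of_all _ fun _ => sq_nonneg _)).symm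

/-- The pointwise interior estimate. -/
theorem core (μ : Measure E) [μ.IsAddHaarMeasure] (b : Module.Basis J ℝ E) (L : ℕ) :
    ∃ C : ℝ, 0 < C ∧ ∀ c : J → J → E → ℝ, CO b (Fintype.card J + L + 1) c →
    ∀ w : E → ℝ, ContDiffOn ℝ ((⊤ : ℕ∞) : WithTop ℕ∞) w (Metric.ball 0 2) →
    IntegrableOn (fun x => w x ^ 2) (Metric.ball 0 2) μ → ∀ M : ℝ, 0 ≤ M →
    Bd b (Fintype.card J + L) (Metric.ball 0 2) M (Lc b c w) →
    ∀ f : E → ℝ, ContDiffOn ℝ ((⊤ : ℕ∞) : WithTop ℕ∞) f (Metric.ball 0 1) →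
    Hs μ b (Fintype.card J) (Metric.ball 0 1) f ≤
      Hs μ b (Fintype.card J + L) (Metric.ball 0 1) w →
    |f 0| ≤ C * (√(∫ x in Metric.ball 0 2, w x ^ 2 ∂μ) + M) := by
  obtain ⟨C₁, hC₁, h₁⟩ := all μ b (Fintype.card J + L) (r := 1) (R := 2) one_pos (by norm_num)
    le_rfl
  obtain ⟨C₂, hC₂, h₂⟩ := sob μ b (R := 1) one_pos
  set m : ℝ≥0∞ := μ (Metric.ball 0 2) with hm
  have hmt : m ≠ ⊤ := measure_ball_lt_top.ne
  set c2 : ℝ≥0∞ := cs2 J (Fintype.card J + L) with hc2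
  have hc2t : c2 ≠ ⊤ := cs2_ne _
  set Dc : ℝ≥0∞ := C₂ * (C₁ * (1 + c2 * m)) with hDc
  have hDt : Dc ≠ ⊤ := by finiteness
  refine ⟨√(Dc.toReal) + 1, by positivity, ?_⟩
  intro c hc w hw hwi M hM hF f hf hfw
  set S : ℝ := √(∫ x in Metric.ball 0 2, w x ^ 2 ∂μ) with hS
  have hS0 : 0 ≤ S := Real.sqrt_nonneg _
  have hSS : ∫ x in Metric.ball 0 2, w x ^ 2 ∂μ = S ^ 2 := by
    rw [hS, Real.sq_sqrt (integral_nonneg fun _ => sq_nonneg _)]
  have e1 : nn μ (Metric.ball 0 2) w = ENNReal.ofReal (S ^ 2) := by rw [nn_eq hwi, hSS]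
  have e2 : Hs μ b (Fintype.card J + L) (Metric.ball 0 2) (Lc b c w) ≤
      c2 * (ENNReal.ofReal (M ^ 2) * m) := Hs_bd measurableSet_ball _ hF
  have e3 : ENNReal.ofReal (f 0 ^ 2) ≤ ENNReal.ofReal (Dc.toReal * (S ^ 2 + M ^ 2)) := by
    calc ENNReal.ofReal (f 0 ^ 2) ≤ C₂ * Hs μ b (Fintype.card J) (Metric.ball 0 1) f := h₂ f hf
      _ ≤ C₂ * Hs μ b (Fintype.card J + L + 2) (Metric.ball 0 1) w := by
          gcongr
          exact hfw.trans (Hs_le (by omega) w)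
      _ ≤ C₂ * (C₁ * (nn μ (Metric.ball 0 2) w +
          Hs μ b (Fintype.card J + L) (Metric.ball 0 2) (Lc b c w))) := by
          gcongr
          exact h₁ c hc w hw
      _ ≤ C₂ * (C₁ * (ENNReal.ofReal (S ^ 2) + c2 * (ENNReal.ofReal (M ^ 2) * m))) := by
          rw [e1]
          gcongr
      _ ≤ C₂ * (C₁ * ((ENNReal.ofReal (S ^ 2) + ENNReal.ofReal (M ^ 2)) +
          c2 * ((ENNReal.ofReal (S ^ 2) + ENNReal.ofReal (M ^ 2)) * m))) := by
          gcongr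
          · exact le_self_add
          · exact le_add_self
      _ = Dc * (ENNReal.ofReal (S ^ 2) + ENNReal.ofReal (M ^ 2)) := by
          rw [hDc]; ring
      _ = ENNReal.ofReal (Dc.toReal * (S ^ 2 + M ^ 2)) := by
          rw [ENNReal.ofReal_mul ENNReal.toReal_nonneg, ENNReal.ofReal_toReal hDt,
            ENNReal.ofReal_add (sq_nonneg _) (sq_nonneg _)]
  have e4 : f 0 ^ 2 ≤ Dc.toReal * (S ^ 2 + M ^ 2) :=
    (ENNReal.ofReal_le_ofReal_iff (by positivity)).1 e3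
  have e5 : f 0 ^ 2 ≤ ((√(Dc.toReal) + 1) * (S + M)) ^ 2 := by
    have h1 : Dc.toReal ≤ (√(Dc.toReal) + 1) ^ 2 := by
      have := Real.sq_sqrt (ENNReal.toReal_nonneg (a := Dc))
      nlinarith [Real.sqrt_nonneg Dc.toReal]
    have h2 : S ^ 2 + M ^ 2 ≤ (S + M) ^ 2 := by nlinarith
    rw [mul_pow]
    exact e4.trans (mul_le_mul h1 h2 (by positivity) (by positivity))
  exact abs_le_of_sq_le_sq e5 (by positivity)

theorem Hs_word {μ : Measure E} {b : J → E} {B : Set E} (hB : IsOpen B) {w : E → ℝ}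
    (hw : ContDiffOn ℝ ((⊤ : ℕ∞) : WithTop ℕ∞) w B) (l : ℕ) : ∀ (k : ℕ) (v : Fin l → J),
    Hs μ b k B (fun y => iteratedFDeriv ℝ l w y (b ∘ v)) ≤ Hs μ b (k + l) B w := by
  induction l with
  | zero => intro k v; simp
  | succ l ih =>
    intro k v
    have h1 : ∀ x ∈ B, iteratedFDeriv ℝ (l + 1) w x (b ∘ v) =
        D b (v 0) (fun y => iteratedFDeriv ℝ l w y (b ∘ Fin.tail v)) x := by
      intro x hx
      have hd : DifferentiableAt ℝ (iteratedFDeriv ℝ l w) x :=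
        ((hw.contDiffAt (hB.mem_nhds hx)).iteratedFDeriv_right (m := ((⊤ : ℕ∞) : WithTop ℕ∞)) (i := l)
          (by exact_mod_cast le_top)).differentiableAt (by simp)
      rw [iteratedFDeriv_succ_apply_left]
      unfold D
      have h4 := ((ContinuousMultilinearMap.apply ℝ (fun _ : Fin l => E) ℝ
        (b ∘ Fin.tail v)).hasFDerivAt.comp x hd.hasFDerivAt).fderiv
      have h5 : (fun y => iteratedFDeriv ℝ l w y (b ∘ Fin.tail v)) =
        (⇑(ContinuousMultilinearMap.apply ℝ (fun _ : Fin l => E) ℝ (b ∘ Fin.tail v))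
          ∘ iteratedFDeriv ℝ l w) := rfl
      rw [h5, h4]
      simp only [ContinuousLinearMap.comp_apply, ContinuousMultilinearMap.apply_apply]
      rfl
    rw [Hs_congr hB k h1]
    refine (Hs_D k _ _).trans ((ih (k + 1) _).trans (le_of_eq ?_))
    congr 1
    omega

theorem cd_word {b : J → E} {B : Set E} (hB : IsOpen B) {w : E → ℝ}
    (hw : ContDiffOn ℝ ((⊤ : ℕ∞) : WithTop ℕ∞) w B) (l : ℕ) (v : Fin l → E) :
    ContDiffOn ℝ ((⊤ : ℕ∞) : WithTop ℕ∞) (fun y => iteratedFDeriv ℝ l w y v) B := by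
  intro x hx
  have h1 : ContDiffAt ℝ ((⊤ : ℕ∞) : WithTop ℕ∞) (iteratedFDeriv ℝ l w) x :=
    (hw.contDiffAt (hB.mem_nhds hx)).iteratedFDeriv_right (m := ((⊤ : ℕ∞) : WithTop ℕ∞)) (i := l)
      (by exact_mod_cast le_top)
  exact ((ContinuousMultilinearMap.apply ℝ (fun _ : Fin l => E) ℝ v).contDiff.contDiffAt.comp x
    h1).contDiffWithinAt

/-- The norm of a multilinear form is controlled by its values on a basis. -/
theorem mult_norm (b : Module.Basis J ℝ E) (l : ℕ) : ∃ κ : ℝ, 0 < κ ∧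
    ∀ T : ContinuousMultilinearMap ℝ (fun _ : Fin l => E) ℝ, ∀ B : ℝ, 0 ≤ B →
    (∀ v : Fin l → J, |T (b ∘ v)| ≤ B) → ‖T‖ ≤ κ * B := by
  set q : ℝ := ‖(b.equivFunL : E →L[ℝ] (J → ℝ))‖ with hq
  refine ⟨Fintype.card (Fin l → J) * q ^ l + 1, by positivity, ?_⟩
  intro T B hB h
  refine ContinuousMultilinearMap.opNorm_le_bound (by positivity) fun m => ?_
  have e1 : (fun j => m j) = fun j => ∑ i, b.repr (m j) i • b i := by
    funext j; exact (b.sum_repr (m j)).symm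
  have e2 : T m = ∑ v : Fin l → J, (∏ j, b.repr (m j) (v j)) * T (b ∘ v) := by
    have : T m = T (fun j => ∑ i, b.repr (m j) i • b i) := congrArg T e1
    rw [this, ContinuousMultilinearMap.map_sum]
    refine Finset.sum_congr rfl fun v _ => ?_
    rw [ContinuousMultilinearMap.map_smul_univ]
    rfl
  have e3 : ∀ x i, |b.repr x i| ≤ q * ‖x‖ := by
    intro x i
    have h1 := (b.equivFunL : E →L[ℝ] (J → ℝ)).le_opNorm x
    have h2 := norm_le_pi_norm ((b.equivFunL : E →L[ℝ] (J → ℝ)) x) i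
    exact h2.trans h1
  have e4 : ∀ v : Fin l → J, |∏ j, b.repr (m j) (v j)| ≤ q ^ l * ∏ j, ‖m j‖ := by
    intro v
    rw [Finset.abs_prod]
    calc ∏ j, |b.repr (m j) (v j)| ≤ ∏ j, (q * ‖m j‖) :=
          Finset.prod_le_prod (fun _ _ => abs_nonneg _) fun j _ => e3 _ _
      _ = _ := by rw [Finset.prod_mul_distrib]; simp
  have hP : 0 ≤ ∏ j, ‖m j‖ := Finset.prod_nonneg fun _ _ => norm_nonneg _
  rw [Real.norm_eq_abs, e2]
  calc |∑ v : Fin l → J, (∏ j, b.repr (m j) (v j)) * T (b ∘ v)|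
      ≤ ∑ v : Fin l → J, |(∏ j, b.repr (m j) (v j)) * T (b ∘ v)| := Finset.abs_sum_le_sum_abs _ _
    _ ≤ ∑ _v : Fin l → J, (q ^ l * ∏ j, ‖m j‖) * B := by
        refine Finset.sum_le_sum fun v _ => ?_
        rw [abs_mul]
        exact mul_le_mul (e4 v) (h v) (abs_nonneg _) (by positivity)
    _ = Fintype.card (Fin l → J) * q ^ l * B * ∏ j, ‖m j‖ := by
        rw [Finset.sum_const, Finset.card_univ, nsmul_eq_mul]; ring
    _ ≤ _ := by
        have : 0 ≤ B * ∏ j, ‖m j‖ := mul_nonneg hB hP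
        nlinarith

end Vale.Agent.P088.HY.EI
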