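import Vale.Agent.P088.R2.H901.Inv

/-!
# P088: row INP, the interior estimate on pairs at the scale `1/λ`
-/

open MeasureTheory Set Function
open scoped ContDiff ENNReal NNReal Matrix

set_option linter.unusedSectionVars false
set_option linter.unusedVariables false

noncomputable section

namespace Vale.Agent.P088.HY

open Vale.Agent.P088.LR

namespace EI

/-- Bounds after a change of scale. -/
theorem Bd_scale {J E : Type} [NormedAddCommGroup E] [NormedSpace ℝ E] {b : J → E} {B B' : Set E}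
    (hB : IsOpen B) (hB' : IsOpen B') (hb : ∀ i, ‖b i‖ ≤ 1) {M lam t : ℝ} (hM : 0 ≤ M)
    (hl : 0 < lam) (ht : t = lam⁻¹) {a : E} (hBB : ∀ z ∈ B', a + t • z ∈ B)
    {g : E → ℝ} (hg : ContDiffOn ℝ ((⊤ : ℕ∞) : WithTop ℕ∞) g B) {s : ℝ} (hs : 0 ≤ s) (k : ℕ) : ∀ (m : ℕ) (v : Fin m → E),
    (∀ j, ‖v j‖ ≤ 1) → (∀ l ≤ m + k, ∀ x ∈ B, ‖iteratedFDeriv ℝ l g x‖ ≤ M * lam ^ l) →
    Bd b k B' (s * M) (fun z => s * (t ^ m * iteratedFDeriv ℝ m g (a + t • z) v)) := by
  have ht0 : 0 < t := by rw [ht]; positivity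
  have h0 : ∀ (m : ℕ) (v : Fin m → E), (∀ j, ‖v j‖ ≤ 1) → ∀ x,
      ‖iteratedFDeriv ℝ m g x‖ ≤ M * lam ^ m → |s * (t ^ m * iteratedFDeriv ℝ m g x v)| ≤
        s * M := by
    intro m v hv x h
    have h1 := (iteratedFDeriv ℝ m g x).le_opNorm v
    have h2 : ∏ j, ‖v j‖ ≤ 1 := Finset.prod_le_one (fun _ _ => norm_nonneg _) fun j _ => hv j
    have h3 : |iteratedFDeriv ℝ m g x v| ≤ M * lam ^ m := by
      calc |iteratedFDeriv ℝ m g x v| ≤ ‖iteratedFDeriv ℝ m g x‖ * ∏ j, ‖v j‖ := h1
        _ ≤ (M * lam ^ m) * 1 := mul_le_mul h h2 (Finset.prod_nonneg fun _ _ => norm_nonneg _)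
            (by positivity)
        _ = _ := mul_one _
    rw [abs_mul, abs_mul, abs_of_nonneg hs, abs_of_pos (pow_pos ht0 m)]
    refine mul_le_mul_of_nonneg_left ?_ hs
    calc t ^ m * |iteratedFDeriv ℝ m g x v| ≤ t ^ m * (M * lam ^ m) :=
          mul_le_mul_of_nonneg_left h3 (pow_pos ht0 m).le
      _ = M * (t * lam) ^ m := by rw [mul_pow]; ring
      _ = M := by rw [ht, inv_mul_cancel₀ hl.ne', one_pow, mul_one]
  induction k with
  | zero =>
    intro m v hv h z hz
    exact h0 m v hv _ (h m (by omega) _ (hBB z hz))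
  | succ k ih =>
    intro m v hv h
    refine ⟨fun z hz => h0 m v hv _ (h m (by omega) _ (hBB z hz)), fun i => ?_⟩
    have h1 := ih (m + 1) (Fin.cons (b i) v) (by
      intro j
      refine Fin.cases ?_ ?_ j
      · simpa using hb i
      · intro j; simpa using hv j) (by
      intro l hl x hx
      exact h l (by omega) x hx)
    refine Bd.congr hB' ?_ h1
    intro z hz
    have hx := hBB z hz
    have hd : DifferentiableAt ℝ (iteratedFDeriv ℝ m g) (a + t • z) :=
      ((hg.contDiffAt (hB.mem_nhds hx)).iteratedFDeriv_right (m := ((⊤ : ℕ∞) : WithTop ℕ∞)) (i := m)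
        (by exact_mod_cast le_top)).differentiableAt (by simp)
    rw [iteratedFDeriv_succ_apply_left]
    simp only [Fin.cons_zero, Fin.tail_cons]
    unfold D
    have ha : HasFDerivAt (fun z : E => a + t • z) (t • ContinuousLinearMap.id ℝ E) z :=
      ((hasFDerivAt_id z).const_smul t).const_add a
    have h4 := (((ContinuousMultilinearMap.apply ℝ (fun _ : Fin m => E) ℝ v).hasFDerivAt.comp _
      hd.hasFDerivAt).comp z ha).const_mul (s * t ^ m)
    have h5 : (fun z => s * (t ^ m * iteratedFDeriv ℝ m g (a + t • z) v)) =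
        fun z => s * t ^ m * ((⇑(ContinuousMultilinearMap.apply ℝ (fun _ : Fin m => E) ℝ v)
          ∘ iteratedFDeriv ℝ m g) ∘ fun z : E => a + t • z) z := by
      funext z; simp only [comp_apply, ContinuousMultilinearMap.apply_apply]; ring
    rw [h5, h4.fderiv]
    simp only [smul_apply, ContinuousLinearMap.comp_apply,
      ContinuousMultilinearMap.apply_apply, ContinuousLinearMap.id_apply, map_smul, smul_eq_mul]
    ring

/-- The basis of pairs. -/
abbrev bp (n : ℕ) : Module.Basis (Fin n ⊕ Fin n) ℝ (VV n) :=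
  (Pi.basisFun ℝ (Fin n)).prod (Pi.basisFun ℝ (Fin n))

variable {n : ℕ}

theorem bp_inl (i : Fin n) : bp n (Sum.inl i) = (Pi.single i 1, 0) := by
  rw [Module.Basis.prod_apply]; simp

theorem bp_inr (i : Fin n) : bp n (Sum.inr i) = (0, Pi.single i 1) := by
  rw [Module.Basis.prod_apply]; simp

theorem bp_norm (i : Fin n ⊕ Fin n) : ‖bp n i‖ ≤ 1 := by
  rcases i with i | i
  · rw [bp_inl]; simp [Prod.norm_def, Pi.norm_single]
  · rw [bp_inr]; simp [Prod.norm_def, Pi.norm_single]

theorem D_dx (i : Fin n) (f : VV n → ℝ) : D (bp n) (Sum.inl i) f = dx i f := by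
  funext x; simp only [D, bp_inl, dx]

theorem D_dy (i : Fin n) (f : VV n → ℝ) : D (bp n) (Sum.inr i) f = dy i f := by
  funext x; simp only [D, bp_inr, dy]

/-- Pull back of a bounded function of the first variable. -/
theorem Bd_fst {A t : ℝ} (ht : |t| ≤ 1) (hA : 0 ≤ A) (p : V n) : ∀ (k : ℕ) {g : V n → ℝ},
    ContDiff ℝ ((⊤ : ℕ∞) : WithTop ℕ∞) g → Bd (Pi.basisFun ℝ (Fin n)) k univ A g → ∀ s : ℝ, |s| ≤ 1 →
    Bd (bp n) k univ A (fun z => s * g (p + t • z.1)) := by
  intro k
  have h0 : ∀ {g : V n → ℝ}, (∀ x ∈ univ, |g x| ≤ A) → ∀ s : ℝ, |s| ≤ 1 → ∀ z : VV n,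
      |s * g (p + t • z.1)| ≤ A := by
    intro g hg s hs z
    rw [abs_mul]
    calc |s| * |g (p + t • z.1)| ≤ 1 * A := mul_le_mul hs (hg _ (mem_univ _)) (abs_nonneg _)
          zero_le_one
      _ = A := one_mul A
  induction k with
  | zero => intro g _ hg s hs z _; exact h0 hg s hs z
  | succ k ih =>
    intro g hgs hg s hs
    have hd : ∀ z : VV n, HasFDerivAt (fun z : VV n => s * g (p + t • z.1))
        (s • (fderiv ℝ g (p + t • z.1)).comp (t • ContinuousLinearMap.fst ℝ (V n) (V n))) z := by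
      intro z
      have ha : HasFDerivAt (fun z : VV n => p + t • z.1)
          (t • ContinuousLinearMap.fst ℝ (V n) (V n)) z :=
        (hasFDerivAt_fst.const_smul t).const_add p
      exact (((hgs.differentiable (by simp) _).hasFDerivAt).comp z ha).const_mul s
    refine ⟨fun z _ => h0 hg.1 s hs z, fun i => ?_⟩
    rcases i with i | i
    · have e : D (bp n) (Sum.inl i) (fun z : VV n => s * g (p + t • z.1)) =
          fun z => (s * t) * D (Pi.basisFun ℝ (Fin n)) i g (p + t • z.1) := by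
        funext z
        simp only [D]
        rw [(hd z).fderiv, bp_inl]
        simp [mul_assoc]
      rw [e]
      refine ih (cdg_D hgs i) (hg.2 i) (s * t) ?_
      rw [abs_mul]
      exact mul_le_one₀ hs (abs_nonneg _) ht
    · have e : D (bp n) (Sum.inr i) (fun z : VV n => s * g (p + t • z.1)) =
          fun z => 0 * D (Pi.basisFun ℝ (Fin n)) i g (p + t • z.1) := by
        funext z
        simp only [D]
        rw [(hd z).fderiv, bp_inr]
        simp
      rw [e]
      exact ih (cdg_D hgs i) (hg.2 i) 0 (by simp)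

/-- Pull back of a bounded function of the second variable. -/
theorem Bd_snd {A t : ℝ} (ht : |t| ≤ 1) (hA : 0 ≤ A) (p : V n) : ∀ (k : ℕ) {g : V n → ℝ},
    ContDiff ℝ ((⊤ : ℕ∞) : WithTop ℕ∞) g → Bd (Pi.basisFun ℝ (Fin n)) k univ A g → ∀ s : ℝ, |s| ≤ 1 →
    Bd (bp n) k univ A (fun z => s * g (p + t • z.2)) := by
  intro k
  have h0 : ∀ {g : V n → ℝ}, (∀ x ∈ univ, |g x| ≤ A) → ∀ s : ℝ, |s| ≤ 1 → ∀ z : VV n,
      |s * g (p + t • z.2)| ≤ A := by
    intro g hg s hs z
    rw [abs_mul]
    calc |s| * |g (p + t • z.2)| ≤ 1 * A := mul_le_mul hs (hg _ (mem_univ _)) (abs_nonneg _)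
          zero_le_one
      _ = A := one_mul A
  induction k with
  | zero => intro g _ hg s hs z _; exact h0 hg s hs z
  | succ k ih =>
    intro g hgs hg s hs
    have hd : ∀ z : VV n, HasFDerivAt (fun z : VV n => s * g (p + t • z.2))
        (s • (fderiv ℝ g (p + t • z.2)).comp (t • ContinuousLinearMap.snd ℝ (V n) (V n))) z := by
      intro z
      have ha : HasFDerivAt (fun z : VV n => p + t • z.2)
          (t • ContinuousLinearMap.snd ℝ (V n) (V n)) z :=
        (hasFDerivAt_snd.const_smul t).const_add p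
      exact (((hgs.differentiable (by simp) _).hasFDerivAt).comp z ha).const_mul s
    refine ⟨fun z _ => h0 hg.1 s hs z, fun i => ?_⟩
    rcases i with i | i
    · have e : D (bp n) (Sum.inl i) (fun z : VV n => s * g (p + t • z.2)) =
          fun z => 0 * D (Pi.basisFun ℝ (Fin n)) i g (p + t • z.2) := by
        funext z
        simp only [D]
        rw [(hd z).fderiv, bp_inl]
        simp
      rw [e]
      exact ih (cdg_D hgs i) (hg.2 i) 0 (by simp)
    · have e : D (bp n) (Sum.inr i) (fun z : VV n => s * g (p + t • z.2)) =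
          fun z => (s * t) * D (Pi.basisFun ℝ (Fin n)) i g (p + t • z.2) := by
        funext z
        simp only [D]
        rw [(hd z).fderiv, bp_inr]
        simp [mul_assoc]
      rw [e]
      refine ih (cdg_D hgs i) (hg.2 i) (s * t) ?_
      rw [abs_mul]
      exact mul_le_one₀ hs (abs_nonneg _) ht

/-- The coefficients of `L_x + L_y` after the change of scale. -/
def cc2 (s₁ s₂ : MF n) (p : V n) (t : ℝ) : Fin n ⊕ Fin n → Fin n ⊕ Fin n → VV n → ℝ
  | Sum.inl i, Sum.inl j, z => s₁ (p + t • z.1) i j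
  | Sum.inr i, Sum.inr j, z => s₂ (p + t • z.2) i j
  | _, _, _ => 0

theorem cc2_CO {s₁ s₂ : MF n} (h₁ : SmM s₁) (h₂ : SmM s₂) {K : ℕ}
    (c₁ : ∀ i j, Cl K (1 / (2 * Fintype.card (Fin n ⊕ Fin n) + 2))
      (fun x => s₁ x i j - (1 : Matrix (Fin n) (Fin n) ℝ) i j))
    (c₂ : ∀ i j, Cl K (1 / (2 * Fintype.card (Fin n ⊕ Fin n) + 2))
      (fun x => s₂ x i j - (1 : Matrix (Fin n) (Fin n) ℝ) i j))
    (p : V n) {t : ℝ} (ht : |t| ≤ 1) : CO (bp n) K (cc2 s₁ s₂ p t) := by
  have eps : (0 : ℝ) < 1 / (2 * Fintype.card (Fin n ⊕ Fin n) + 2) := by positivity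
  have b₁ : ∀ i j, Bd (Pi.basisFun ℝ (Fin n)) K univ (1 / (2 * Fintype.card (Fin n ⊕ Fin n) + 2))
      (fun x => s₁ x i j - (1 : Matrix (Fin n) (Fin n) ℝ) i j) := by
    intro i j
    have := Bd_of (b := Pi.basisFun ℝ (Fin n)) isOpen_univ le_rfl norm_bF eps.le
      ((h₁ i j).sub contDiff_const).contDiffOn K (fun l hl x _ => c₁ i j l hl x)
    simpa only [one_pow, mul_one] using this
  have b₂ : ∀ i j, Bd (Pi.basisFun ℝ (Fin n)) K univ (1 / (2 * Fintype.card (Fin n ⊕ Fin n) + 2))
      (fun x => s₂ x i j - (1 : Matrix (Fin n) (Fin n) ℝ) i j) := by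
    intro i j
    have := Bd_of (b := Pi.basisFun ℝ (Fin n)) isOpen_univ le_rfl norm_bF eps.le
      ((h₂ i j).sub contDiff_const).contDiffOn K (fun l hl x _ => c₂ i j l hl x)
    simpa only [one_pow, mul_one] using this
  have z0 : Bd (bp n) K (Metric.ball 0 2) (1 / (2 * Fintype.card (Fin n ⊕ Fin n) + 2))
      (fun _ => (0 : ℝ)) := by
    have : ∀ k, Bd (bp n) k (Metric.ball (0 : VV n) 2)
        (1 / (2 * Fintype.card (Fin n ⊕ Fin n) + 2)) (fun _ => (0 : ℝ)) := by
      intro k
      induction k with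
      | zero => intro x _; simpa using eps.le
      | succ k ih =>
        refine ⟨fun x _ => by simpa using eps.le, fun i => ?_⟩
        have : D (bp n) i (fun _ : VV n => (0 : ℝ)) = fun _ => 0 := by
          funext z; exact D_const 0 i
        rw [this]; exact ih
    exact this K
  constructor
  · rintro (i | i) (j | j)
    · exact ((h₁ i j).comp (by fun_prop : ContDiff ℝ ((⊤ : ℕ∞) : WithTop ℕ∞) fun z : VV n => p + t • z.1)).contDiffOn
    · exact contDiffOn_const
    · exact contDiffOn_const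
    · exact ((h₂ i j).comp (by fun_prop : ContDiff ℝ ((⊤ : ℕ∞) : WithTop ℕ∞) fun z : VV n => p + t • z.2)).contDiffOn
  · rintro (i | i) (j | j)
    · have := (Bd_fst ht eps.le p K ((h₁ i j).sub contDiff_const) (b₁ i j) 1 (by simp)).mono_set
        (subset_univ (Metric.ball 0 2))
      simpa only [one_mul, one_kd, cc2, kd, Sum.inl.injEq] using this
    · simpa [cc2, kd] using z0
    · simpa [cc2, kd] using z0
    · have := (Bd_snd ht eps.le p K ((h₂ i j).sub contDiff_const) (b₂ i j) 1 (by simp)).mono_set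
        (subset_univ (Metric.ball 0 2))
      simpa only [one_mul, one_kd, cc2, kd, Sum.inr.injEq] using this

/-- Derivatives after a change of scale. -/
theorem D_scale {J E : Type} [NormedAddCommGroup E] [NormedSpace ℝ E] {b : J → E} {f : E → ℝ}
    {a z : E} {t : ℝ} (hf : DifferentiableAt ℝ f (a + t • z)) (i : J) :
    D b i (fun z => f (a + t • z)) z = t * D b i f (a + t • z) := by
  have ha : HasFDerivAt (fun z : E => a + t • z) (t • ContinuousLinearMap.id ℝ E) z :=
    ((hasFDerivAt_id z).const_smul t).const_add a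
  have h4 := hf.hasFDerivAt.comp z ha
  unfold D
  have h5 : (fun z => f (a + t • z)) = f ∘ fun z : E => a + t • z := rfl
  rw [h5, h4.fderiv]
  simp

end EI

open EI

theorem haar_VV (n : ℕ) : (volume : Measure (VV n)).IsAddHaarMeasure :=
  Measure.prod.instIsAddHaarMeasure _ _

theorem rowINP : RowINP := by
  intro n
  have hHaar := haar_VV n
  obtain ⟨C, hC, h⟩ := EI.core (volume : Measure (VV n)) (bp n) 2
  refine ⟨Fintype.card (Fin n ⊕ Fin n) + 2 + 1, C, 1 / (2 * Fintype.card (Fin n ⊕ Fin n) + 2),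
    hC, by positivity, ?_⟩
  intro s₁ s₂ h₁ h₂ c₁ c₂ p lam hlam w F hw hF hL hwi M hM i j
  have hl0 : 0 < lam := by linarith
  set t : ℝ := lam⁻¹ with ht
  have ht0 : 0 < t := by rw [ht]; positivity
  have ht1 : |t| ≤ 1 := by
    rw [abs_of_pos ht0, ht]; exact inv_le_one_of_one_le₀ hlam
  have htl : t * lam = 1 := inv_mul_cancel₀ hl0.ne'
  set B : Set (VV n) := Metric.ball (p, p) (2 / lam) with hB
  have hBo : IsOpen B := Metric.isOpen_ball
  set O : Set (VV n) := Metric.ball 0 2 with hO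
  have hOo : IsOpen O := Metric.isOpen_ball
  have hmem : ∀ z : VV n, (p, p) + t • z ∈ B ↔ z ∈ O := by
    intro z
    rw [hB, hO, Metric.mem_ball, Metric.mem_ball, dist_eq_norm, dist_eq_norm, add_sub_cancel_left,
      sub_zero, norm_smul, Real.norm_of_nonneg ht0.le, ht, inv_mul_eq_div,
      div_lt_div_iff_of_pos_right hl0]
  have hM0 : 0 ≤ M := by
    have := (norm_nonneg _).trans (hM 0 (Nat.zero_le _) (p, p) (Metric.mem_ball_self (by positivity)))
    simpa using this
  set w' : VV n → ℝ := fun z => w ((p, p) + t • z) with hw'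
  have hφ : ContDiff ℝ ((⊤ : ℕ∞) : WithTop ℕ∞) (fun z : VV n => (p, p) + t • z) := by fun_prop
  have hw's : ContDiffOn ℝ ((⊤ : ℕ∞) : WithTop ℕ∞) w' O := hw.comp hφ.contDiffOn fun z hz => (hmem z).2 hz
  -- derivatives
  have d1 : ∀ q : Fin n ⊕ Fin n, ∀ z ∈ O, D (bp n) q w' z = t * D (bp n) q w ((p, p) + t • z) :=
    fun q z hz => D_scale (da hBo hw ((hmem z).2 hz)) q
  have d2 : ∀ q r : Fin n ⊕ Fin n, ∀ z ∈ O, D (bp n) q (D (bp n) r w') z =
      t ^ 2 * D (bp n) q (D (bp n) r w) ((p, p) + t • z) := by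
    intro q r z hz
    have hz' := (hmem z).2 hz
    have hdd : DifferentiableAt ℝ (fun z => D (bp n) r w ((p, p) + t • z)) z :=
      da hOo ((cd_D (b := bp n) hBo hw r).comp hφ.contDiffOn (fun z hz => (hmem z).2 hz)) hz
    rw [D_congr hOo (d1 r) hz q, D_mul (differentiableAt_const _) hdd, D_const, zero_mul, add_zero,
      D_scale (b := bp n) (da hBo (cd_D (b := bp n) hBo hw r) hz') q]
    ring
  -- the equation
  have eL : ∀ z ∈ O, t ^ 2 * F ((p, p) + t • z) = Lc (bp n) (cc2 s₁ s₂ p t) w' z := by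
    intro z hz
    have hz' := (hmem z).2 hz
    rw [← hL _ hz']
    unfold Lc
    simp only [Fintype.sum_sum_type, d2 _ _ z hz, cc2, zero_mul, Finset.sum_const_zero, add_zero,
      zero_add, D_dx, D_dy]
    unfold Lx Ly
    simp only [Prod.fst_add, Prod.snd_add, Prod.smul_fst, Prod.smul_snd, mul_add, Finset.mul_sum]
    congr 1
    · exact Finset.sum_congr rfl fun i _ => Finset.sum_congr rfl fun j _ => by ring
    · exact Finset.sum_congr rfl fun i _ => Finset.sum_congr rfl fun j _ => by ring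
  have hBF : Bd (bp n) (Fintype.card (Fin n ⊕ Fin n) + 2) O (t ^ 2 * M)
      (Lc (bp n) (cc2 s₁ s₂ p t) w') := by
    have := Bd_scale (b := bp n) hBo hOo bp_norm hM0 hl0 ht (a := (p, p))
      (fun z hz => (hmem z).2 hz) hF (s := t ^ 2) (by positivity)
      (Fintype.card (Fin n ⊕ Fin n) + 2) 0 Fin.elim0 (fun j => j.elim0)
      (fun l hl x hx => hM l (by omega) x hx)
    refine this.congr hOo fun z hz => ?_
    rw [← eL z hz]
    simp
  -- integrals
  have hind : ∀ z, O.indicator (fun z => w' z ^ 2) z =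
      (B.indicator fun y => w y ^ 2) ((p, p) + t • z) := by
    intro z
    by_cases hz : z ∈ O
    · rw [indicator_of_mem hz, indicator_of_mem ((hmem z).2 hz)]
    · rw [indicator_of_notMem hz, indicator_of_notMem (fun h => hz ((hmem z).1 h))]
  have hgi : Integrable (B.indicator fun y => w y ^ 2) :=
    (integrable_indicator_iff hBo.measurableSet).2 hwi
  have hw'i : IntegrableOn (fun z => w' z ^ 2) O := by
    rw [← integrable_indicator_iff hOo.measurableSet]
    have h1 := (hgi.comp_add_left (p, p)).comp_smul ht0.ne'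
    refine h1.congr (ae_of_all _ fun z => ?_)
    exact (hind z).symm
  have hfr : Module.finrank ℝ (VV n) = 2 * n := by
    rw [Module.finrank_prod, Module.finrank_fin_fun]; ring
  have hint : ∫ z in O, w' z ^ 2 = (lam ^ n) ^ 2 * ∫ z in B, w z ^ 2 := by
    rw [← integral_indicator hOo.measurableSet, ← integral_indicator hBo.measurableSet]
    have e1 : ∫ z, O.indicator (fun z => w' z ^ 2) z =
        ∫ z, (fun y => (B.indicator fun y => w y ^ 2) ((p, p) + y)) (t • z) :=
      integral_congr_ae (ae_of_all _ hind)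
    rw [e1, Measure.integral_comp_smul volume
      (fun y => (B.indicator fun y => w y ^ 2) ((p, p) + y)) t, integral_add_left_eq_self, hfr,
      smul_eq_mul]
    congr 1
    rw [abs_of_pos (by positivity), ht, inv_pow, inv_inv, mul_comm 2 n, pow_mul]
  have hsq : √(∫ z in O, w' z ^ 2) = lam ^ n * √(∫ z in B, w z ^ 2) := by
    rw [hint, Real.sqrt_mul (by positivity), Real.sqrt_sq (by positivity)]
  -- the estimate
  have hsub : Metric.ball (0 : VV n) 1 ⊆ O := Metric.ball_subset_ball (by norm_num)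
  have key := h (cc2 s₁ s₂ p t) (cc2_CO h₁ h₂ c₁ c₂ p ht1) w' hw's hw'i (t ^ 2 * M)
    (by positivity) hBF (D (bp n) (Sum.inl i) (D (bp n) (Sum.inr j) w'))
    (cd_D Metric.isOpen_ball (cd_D Metric.isOpen_ball (hw's.mono hsub) _) _)
    ((Hs_D _ _ _).trans (Hs_D _ _ _))
  rw [d2 _ _ 0 (Metric.mem_ball_self (by norm_num)), smul_zero, add_zero, D_dy, D_dx, hsq,
    abs_mul, abs_of_pos (by positivity)] at key
  have e2 : |dx i (dy j w) (p, p)| = lam ^ 2 * (t ^ 2 * |dx i (dy j w) (p, p)|) := by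
    rw [← mul_assoc, ← mul_pow, mul_comm lam t, htl]; ring
  rw [e2]
  calc lam ^ 2 * (t ^ 2 * |dx i (dy j w) (p, p)|)
      ≤ lam ^ 2 * (C * (lam ^ n * √(∫ z in B, w z ^ 2) + t ^ 2 * M)) :=
        mul_le_mul_of_nonneg_left key (by positivity)
    _ = C * (lam ^ (n + 2) * √(∫ z in B, w z ^ 2) + (t * lam) ^ 2 * M) := by ring
    _ = _ := by rw [htl]; ring

end Vale.Agent.P088.HY
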