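import Vale.Agent.P088.R2.H349.J.Spec

/-!
# P088: parallel matrix fields
-/

open MeasureTheory Set Function
open scoped ContDiff Matrix

set_option linter.unusedSectionVars false
set_option linter.unusedVariables false

noncomputable section

namespace Vale.Agent.P088.HY

open Vale.Agent.P088.LR

namespace Pl

variable {n N : ℕ} {A B A₁ A₂ : Cn' n N} {X Y : Mx n N} {x : V n} {i : Fin n}

/-- The matrix of the derivatives. -/
def dM (i : Fin n) (X : Mx n N) (x : V n) : Matrix (Fin N) (Fin N) ℝ :=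
  Matrix.of fun p q => pd i (fun y => X y p q) x

/-- Entrywise differentiable. -/
def Df (X : Mx n N) (x : V n) : Prop := ∀ p q, DifferentiableAt ℝ (fun y => X y p q) x

theorem Dh_eq : Dh A₁ A₂ i X x = dM i X x + A₁ i x * X x - X x * A₂ i x := rfl

theorem Df.mul (hX : Df X x) (hY : Df Y x) : Df (fun y => X y * Y y) x := by
  intro p q
  simp only [Matrix.mul_apply]
  exact DifferentiableAt.fun_sum fun r _ => (hX p r).mul (hY r q)

theorem Df.sub (hX : Df X x) (hY : Df Y x) : Df (fun y => X y - Y y) x :=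
  fun p q => (hX p q).sub (hY p q)

theorem Df.tr (hX : Df X x) : Df (fun y => (X y)ᵀ) x := fun p q => hX q p

theorem Df.const (J : Matrix (Fin N) (Fin N) ℝ) : Df (fun _ : V n => J) x :=
  fun _ _ => differentiableAt_const _

theorem dM_mul (hX : Df X x) (hY : Df Y x) :
    dM i (fun y => X y * Y y) x = dM i X x * Y x + X x * dM i Y x := by
  ext p q
  simp only [dM, Matrix.of_apply, Matrix.add_apply, Matrix.mul_apply, pd]
  have e1 : ∀ r, HasFDerivAt (fun y => X y p r * Y y r q)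
      (X x p r • fderiv ℝ (fun y => Y y r q) x + Y x r q • fderiv ℝ (fun y => X y p r) x) x :=
    fun r => (hX p r).hasFDerivAt.mul (hY r q).hasFDerivAt
  rw [(HasFDerivAt.fun_sum fun r (_ : r ∈ Finset.univ) => e1 r).fderiv]
  simp only [sum_apply, ← Finset.sum_add_distrib]
  refine Finset.sum_congr rfl fun r _ => ?_
  simp only [add_apply, smul_apply, smul_eq_mul]
  ring

theorem dM_sub (hX : Df X x) (hY : Df Y x) :
    dM i (fun y => X y - Y y) x = dM i X x - dM i Y x := by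
  ext p q
  simp only [dM, Matrix.of_apply, Matrix.sub_apply, pd]
  rw [fderiv_fun_sub (hX p q) (hY p q)]
  simp

theorem dM_tr : dM i (fun y => (X y)ᵀ) x = (dM i X x)ᵀ := rfl

theorem dM_const (J : Matrix (Fin N) (Fin N) ℝ) : dM i (fun _ => J) x = 0 := by
  ext p q
  simp [dM, pd]

theorem dM_congr (h : X =ᶠ[nhds x] Y) : dM i X x = dM i Y x := by
  ext p q
  have : (fun y => X y p q) =ᶠ[nhds x] fun y => Y y p q := h.mono fun y hy => by
    simp only [hy]
  simp only [dM, Matrix.of_apply, pd, this.fderiv_eq]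

theorem Dh_congr (h : X =ᶠ[nhds x] Y) : Dh A₁ A₂ i X x = Dh A₁ A₂ i Y x := by
  rw [Dh_eq, Dh_eq, dM_congr h, h.self_of_nhds]

/-- The square of the Hilbert-Schmidt norm. -/
def nq (X : Matrix (Fin N) (Fin N) ℝ) : ℝ := ∑ p, ∑ q, X p q ^ 2

theorem nq_nonneg (X : Matrix (Fin N) (Fin N) ℝ) : 0 ≤ nq X :=
  Finset.sum_nonneg fun _ _ => Finset.sum_nonneg fun _ _ => sq_nonneg _

theorem nq_zero : nq (0 : Matrix (Fin N) (Fin N) ℝ) = 0 := by simp [nq]

theorem eq_zero_of_nq {X : Matrix (Fin N) (Fin N) ℝ} (h : nq X = 0) : X = 0 := by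
  have h1 := (Finset.sum_eq_zero_iff_of_nonneg fun p _ => Finset.sum_nonneg fun q _ =>
    sq_nonneg (X p q)).1 h
  ext p q
  have h2 := (Finset.sum_eq_zero_iff_of_nonneg fun q _ => sq_nonneg (X p q)).1
    (h1 p (Finset.mem_univ p)) q (Finset.mem_univ q)
  exact pow_eq_zero_iff (two_ne_zero) |>.1 h2

theorem pair_tr (X Y : Matrix (Fin N) (Fin N) ℝ) :
    ∑ p, ∑ q, X p q * Y p q = (Xᵀ * Y).trace := by
  simp only [Matrix.trace, Matrix.diag, Matrix.mul_apply, Matrix.transpose_apply]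
  rw [Finset.sum_comm]

theorem skew1 (X : Matrix (Fin N) (Fin N) ℝ) {A : Matrix (Fin N) (Fin N) ℝ} (hA : Aᵀ = -A) :
    (Xᵀ * (A * X)).trace = 0 := by
  have h : (Xᵀ * (A * X)).trace = -(Xᵀ * (A * X)).trace := by
    conv_lhs => rw [← Matrix.trace_transpose]
    rw [Matrix.transpose_mul, Matrix.transpose_mul, Matrix.transpose_transpose, hA,
      Matrix.mul_neg, Matrix.neg_mul, Matrix.trace_neg, Matrix.mul_assoc]
  linarith

theorem skew2 (X : Matrix (Fin N) (Fin N) ℝ) {A : Matrix (Fin N) (Fin N) ℝ} (hA : Aᵀ = -A) :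
    (Xᵀ * (X * A)).trace = 0 := by
  have h : (Xᵀ * (X * A)).trace = -(Xᵀ * (X * A)).trace := by
    conv_lhs => rw [← Matrix.trace_transpose]
    rw [Matrix.transpose_mul, Matrix.transpose_mul, Matrix.transpose_transpose, hA,
      Matrix.neg_mul, Matrix.neg_mul, Matrix.trace_neg, Matrix.mul_assoc, Matrix.trace_mul_comm,
      Matrix.mul_assoc]
  linarith

/-- The norm of a parallel section is constant on connected sets. -/
theorem par {U : Set (V n)} (hU : IsOpen U) (hU' : IsPreconnected U)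
    (hX : ∀ p q, ContDiffOn ℝ ∞ (fun x => X x p q) U) (h1 : ∀ i, ∀ x ∈ U, (A₁ i x)ᵀ = -(A₁ i x))
    (h2 : ∀ i, ∀ x ∈ U, (A₂ i x)ᵀ = -(A₂ i x)) (h : ∀ x ∈ U, ∀ i, Dh A₁ A₂ i X x = 0) {x y : V n}
    (hx : x ∈ U) (hy : y ∈ U) : nq (X x) = nq (X y) := by
  have hd : ∀ x ∈ U, Df X x := fun x hx p q =>
    ((hX p q).contDiffAt (hU.mem_nhds hx)).differentiableAt (by simp)
  have hs : ∀ x ∈ U, HasFDerivAt (fun x => nq (X x))
      (∑ p, ∑ q, (2 * X x p q) • fderiv ℝ (fun y => X y p q) x) x := by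
    intro x hx
    unfold nq
    refine HasFDerivAt.fun_sum fun p _ => HasFDerivAt.fun_sum fun q _ => ?_
    have := (hd x hx p q).hasFDerivAt.pow 2
    simpa using this
  refine hU.is_const_of_fderiv_eq_zero (𝕜 := ℝ) hU'
    (fun x hx => (hs x hx).differentiableAt.differentiableWithinAt) ?_ hx hy
  intro x hx
  rw [(hs x hx).fderiv]
  have h0 : ∀ i : Fin n, (∑ p, ∑ q, (2 * X x p q) • fderiv ℝ (fun y => X y p q) x)
      (Pi.single i 1) = 0 := by
    intro i
    have e1 : dM i X x = -(A₁ i x * X x) + X x * A₂ i x := by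
      have := h x hx i
      rw [Dh_eq] at this
      have h3 : dM i X x = (dM i X x + A₁ i x * X x - X x * A₂ i x) -
        (A₁ i x * X x) + X x * A₂ i x := by abel
      rw [h3, this, zero_sub]
    have e2 : (∑ p, ∑ q, (2 * X x p q) • fderiv ℝ (fun y => X y p q) x) (Pi.single i 1) =
        2 * ∑ p, ∑ q, X x p q * dM i X x p q := by
      simp only [sum_apply, smul_apply, smul_eq_mul, dM,
        pd, Matrix.of_apply, Finset.mul_sum, mul_assoc]
    rw [e2, pair_tr, e1, Matrix.mul_add, Matrix.mul_neg, Matrix.trace_add, Matrix.trace_neg,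
      skew1 _ (h1 i x hx), skew2 _ (h2 i x hx)]
    simp
  ext v
  have hv : v = ∑ i, v i • (Pi.single i 1 : V n) := by
    ext j; simp [Finset.sum_apply, Pi.single_apply]
  conv_lhs => rw [hv]
  rw [map_sum]
  refine Finset.sum_eq_zero fun i _ => ?_
  rw [map_smul, h0, smul_zero]

theorem Dh_mulr (hX : Df X x) (J : Matrix (Fin N) (Fin N) ℝ) (hJ : A₂ i x * J = J * A₂ i x) :
    Dh A₁ A₂ i (fun y => X y * J) x = Dh A₁ A₂ i X x * J := by
  rw [Dh_eq, Dh_eq, dM_mul hX (Df.const J), dM_const, Matrix.mul_zero, add_zero, Matrix.sub_mul,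
    Matrix.add_mul, Matrix.mul_assoc, Matrix.mul_assoc, Matrix.mul_assoc, hJ]

theorem Dh_mull (hX : Df X x) (J : Matrix (Fin N) (Fin N) ℝ) (hJ : A₁ i x * J = J * A₁ i x) :
    Dh A₁ A₂ i (fun y => J * X y) x = J * Dh A₁ A₂ i X x := by
  rw [Dh_eq, Dh_eq, dM_mul (Df.const J) hX, dM_const, Matrix.zero_mul, zero_add, Matrix.mul_sub,
    Matrix.mul_add, ← Matrix.mul_assoc, hJ, Matrix.mul_assoc, Matrix.mul_assoc]

theorem Dh_sub (hX : Df X x) (hY : Df Y x) :
    Dh A₁ A₂ i (fun y => X y - Y y) x = Dh A₁ A₂ i X x - Dh A₁ A₂ i Y x := by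
  rw [Dh_eq, Dh_eq, Dh_eq, dM_sub hX hY, Matrix.mul_sub, Matrix.sub_mul]
  abel

/-- `G Gᵀ` is parallel. -/
theorem Dh_mt (hX : Df X x) (h1 : (A₁ i x)ᵀ = -(A₁ i x)) (h2 : (A₂ i x)ᵀ = -(A₂ i x))
    (h : Dh A₁ A₂ i X x = 0) : Dh A₁ A₁ i (fun y => X y * (X y)ᵀ) x = 0 := by
  have e1 : dM i X x = -(A₁ i x * X x) + X x * A₂ i x := by
    rw [Dh_eq] at h
    have h3 : dM i X x = (dM i X x + A₁ i x * X x - X x * A₂ i x) -
      (A₁ i x * X x) + X x * A₂ i x := by abel
    rw [h3, h, zero_sub]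
  rw [Dh_eq, dM_mul hX hX.tr, dM_tr, e1]
  simp only [Matrix.transpose_add, Matrix.transpose_neg, Matrix.transpose_mul, h1, h2,
    Matrix.add_mul, Matrix.mul_add, Matrix.neg_mul, Matrix.mul_neg, neg_neg, Matrix.mul_assoc]
  abel

end Pl

end Vale.Agent.P088.HY
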