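import Vale.Agent.P088.R2.H901.Par
import Vale.Agent.P088.R2.H901.Ann

/-!
# P088: row T2A, the connections are gauge equivalent
-/

open MeasureTheory Set Function
open scoped ContDiff Matrix

set_option linter.unusedSectionVars false
set_option linter.unusedVariables false

noncomputable section

namespace Vale.Agent.P088.HY

open Vale.Agent.P088.LR

namespace Pl

variable {n N : ℕ}

theorem quad {m : ℕ} (c : Matrix (Fin m) (Fin m) ℝ) (w : Fin m → ℝ) {ε : ℝ}
    (hc : ∀ a b, |c a b - (1 : Matrix (Fin m) (Fin m) ℝ) a b| ≤ ε) (hN : 2 * ε * m ≤ 1) :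
    (1 / 2) * ∑ a, w a ^ 2 ≤ ∑ a, ∑ b, c a b * (w a * w b) := by
  set S := ∑ a, w a ^ 2 with hS
  have hS0 : 0 ≤ S := Finset.sum_nonneg fun _ _ => sq_nonneg _
  have e : ∑ a, ∑ b, c a b * (w a * w b) = S +
      ∑ a, ∑ b, (c a b - (1 : Matrix (Fin m) (Fin m) ℝ) a b) * (w a * w b) := by
    have : S = ∑ a, ∑ b, (1 : Matrix (Fin m) (Fin m) ℝ) a b * (w a * w b) := by
      simp [Matrix.one_apply, hS, _root_.sq]
    rw [this]
    simp only [← Finset.sum_add_distrib]
    refine Finset.sum_congr rfl fun a _ => Finset.sum_congr rfl fun b _ => by ring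
  have h1 : |∑ a, ∑ b, (c a b - (1 : Matrix (Fin m) (Fin m) ℝ) a b) * (w a * w b)| ≤
      ε * (m * S) := by
    calc |∑ a, ∑ b, (c a b - (1 : Matrix (Fin m) (Fin m) ℝ) a b) * (w a * w b)|
        ≤ ∑ a, ∑ b, |(c a b - (1 : Matrix (Fin m) (Fin m) ℝ) a b) * (w a * w b)| :=
          (Finset.abs_sum_le_sum_abs _ _).trans
            (Finset.sum_le_sum fun a _ => Finset.abs_sum_le_sum_abs _ _)
      _ ≤ ∑ a, ∑ b, ε * (|w a| * |w b|) := by
          refine Finset.sum_le_sum fun a _ => Finset.sum_le_sum fun b _ => ?_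
          rw [abs_mul, abs_mul]
          exact mul_le_mul_of_nonneg_right (hc a b) (by positivity)
      _ = ε * (∑ a, |w a|) ^ 2 := by
          rw [_root_.sq, Finset.sum_mul_sum, Finset.mul_sum]
          exact Finset.sum_congr rfl fun a _ => by rw [Finset.mul_sum]
      _ ≤ ε * (m * S) := by
          rcases Nat.eq_zero_or_pos m with hm | hm
          · subst hm; simp [hS]
          · have hε : 0 ≤ ε := (abs_nonneg _).trans (hc ⟨0, hm⟩ ⟨0, hm⟩)
            gcongr
            simpa [hS] using sq_sum_le_card_mul_sum_sq (s := Finset.univ) (f := fun a => |w a|)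
  have h2 : ε * (m * S) ≤ (1 / 2) * S := by nlinarith
  have := neg_abs_le (∑ a, ∑ b, (c a b - (1 : Matrix (Fin m) (Fin m) ℝ) a b) * (w a * w b))
  rw [e]; linarith

theorem ipc_eq (s : MF n) (α β : Cn' n N) (x : V n) :
    ipc s α β x = ∑ p, ∑ q, ∑ i, ∑ j, s x i j * (α i x p q * β j x p q) := by
  unfold ipc
  simp only [Finset.mul_sum]
  have e1 : ∀ i : Fin n, ∑ j, ∑ p, ∑ q, s x i j * (α i x p q * β j x p q) =
      ∑ p, ∑ q, ∑ j, s x i j * (α i x p q * β j x p q) := by
    intro i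
    rw [Finset.sum_comm]
    refine Finset.sum_congr rfl fun p _ => ?_
    rw [Finset.sum_comm]
  simp only [e1]
  rw [Finset.sum_comm]
  refine Finset.sum_congr rfl fun p _ => ?_
  rw [Finset.sum_comm]

theorem ipc_comm {s : MF n} (hs : ∀ x, (s x).IsSymm) (α β : Cn' n N) (x : V n) :
    ipc s α β x = ipc s β α x := by
  unfold ipc
  rw [Finset.sum_comm]
  refine Finset.sum_congr rfl fun i _ => Finset.sum_congr rfl fun j _ => ?_
  have : s x j i = s x i j := (hs x).apply i j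
  rw [this]
  simp only [mul_comm]

/-- `∑_i |α_i|²`. -/
def nc (α : Cn' n N) (x : V n) : ℝ := ∑ p, ∑ q, ∑ i, α i x p q ^ 2

theorem nc_nonneg (α : Cn' n N) (x : V n) : 0 ≤ nc α x :=
  Finset.sum_nonneg fun _ _ => Finset.sum_nonneg fun _ _ => Finset.sum_nonneg fun _ _ =>
    sq_nonneg _

theorem ipc_low {s : MF n} {ε : ℝ}
    (hs : ∀ x i j, |s x i j - (1 : Matrix (Fin n) (Fin n) ℝ) i j| ≤ ε) (hN : 2 * ε * n ≤ 1)
    (α : Cn' n N) (x : V n) : (1 / 2) * nc α x ≤ ipc s α α x := by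
  rw [ipc_eq, nc]
  simp only [Finset.mul_sum]
  refine Finset.sum_le_sum fun p _ => Finset.sum_le_sum fun q _ => ?_
  rw [← Finset.mul_sum]
  exact quad (s x) (fun i => α i x p q) (hs x) hN

end Pl

open Pl

theorem rowT2A : RowDIRG → RowT2P → RowT2A := by
  intro hD hP n N hn
  obtain ⟨K₁, ε₁, hε₁, hD⟩ := hD n N hn
  obtain ⟨K₂, ε₂, hε₂, hP⟩ := hP n N hn
  refine ⟨max K₁ K₂, min (min ε₁ ε₂) (1 / (2 * n + 2)), by positivity, ?_⟩
  intro M hM s A₁ A₂ Q₁ Q₂ hs hA₁ hA₂ hQ₁ hQ₂ hA hQ hI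
  have hK₁ : K₁ ≤ max K₁ K₂ := le_max_left _ _
  have hK₂ : K₂ ≤ max K₁ K₂ := le_max_right _ _
  have le1 : min (min ε₁ ε₂) (1 / (2 * (n : ℝ) + 2)) ≤ ε₁ := (min_le_left _ _).trans (min_le_left _ _)
  have le2 : min (min ε₁ ε₂) (1 / (2 * (n : ℝ) + 2)) ≤ ε₂ := (min_le_left _ _).trans (min_le_right _ _)
  have cl : ∀ {K K' : ℕ} {ε ε' : ℝ} {f : V n → ℝ}, K' ≤ K → ε ≤ ε' → Cl K ε f → Cl K' ε' f :=
    fun hK hε h l hl x => (h l (hl.trans hK) x).trans hε
  -- the smallness
  have hsm : ∀ x i j, |s x i j - (1 : Matrix (Fin n) (Fin n) ℝ) i j| ≤ 1 / (2 * n + 2) := by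
    intro x i j
    have := hs.cl i j 0 (Nat.zero_le _) x
    rw [norm_iteratedFDeriv_zero, Real.norm_eq_abs] at this
    exact this.trans (min_le_right _ _)
  have hsN : 2 * (1 / (2 * (n : ℝ) + 2)) * n ≤ 1 := by
    rw [mul_comm 2, mul_assoc, one_div, inv_mul_le_iff₀ (by positivity)]
    linarith
  -- the Dirichlet problem
  obtain ⟨Ψ, Ψs, Ψi, Ψd, Ψe, ΨI⟩ := hD s A₁ A₂ hs.sm hs.sy (fun i j => cl hK₁ le1 (hs.cl i j))
    ⟨hA₁.sm, hA₁.sk, fun l p q => cl hK₁ le1 (hA₁.bd l p q)⟩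
    ⟨hA₂.sm, hA₂.sk, fun l p q => cl hK₁ le1 (hA₂.bd l p q)⟩
    (fun i y => A₂ i y - A₁ i y) (fun i p q => by
      simpa using (hA₂.sm i p q).sub (hA₁.sm i p q)) (fun x hx i => by
      simp only [hA x hx i, sub_self])
  set a : Cn' n N := fun i y => A₂ i y - A₁ i y with ha
  set lm : Cn' n N := fun i y => a i y + Dh A₁ A₂ i Ψ y with hlm
  have hO : IsOpen (Bs n 2) := Bs_open 2
  have s34 : Bs n (3 / 4) ⊆ Bs n 2 := by
    intro x hx
    have : sq x < (3 / 4) ^ 2 := hx
    show sq x < 2 ^ 2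
    linarith
  have has : ∀ i p q, ContDiff ℝ ∞ (fun x => a i x p q) := fun i p q => by
    simpa [ha] using (hA₂.sm i p q).sub (hA₁.sm i p q)
  have hlms : ∀ i p q, ContDiffOn ℝ ∞ (fun x => lm i x p q) (Bs n 2) := by
    intro i p q
    have e1 : (fun x => lm i x p q) = fun x => a i x p q + (pd i (fun y => Ψ y p q) x +
        ∑ r, A₁ i x p r * Ψ x r q - ∑ r, Ψ x p r * A₂ i x r q) := by
      funext x
      simp [hlm, Dh, Matrix.mul_apply]
    rw [e1]
    have h1 : ContDiffOn ℝ ∞ (fun x => pd i (fun y => Ψ y p q) x) (Bs n 2) :=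
      ((Ψs p q).fderiv_of_isOpen hO (by simp)).clm_apply contDiffOn_const
    exact (has i p q).contDiffOn.add ((h1.add (ContDiffOn.sum fun r _ =>
      (hA₁.sm i p r).contDiffOn.mul (Ψs r q))).sub (ContDiffOn.sum fun r _ =>
      (Ψs p r).mul (hA₂.sm i r q).contDiffOn))
  -- the cut-off
  set χ : V n → ℝ := fun x => Real.smoothTransition (2 - sq x) with hχ
  have χs : ContDiff ℝ ∞ χ := Real.smoothTransition.contDiff.comp (contDiff_const.sub sq_cd)
  have χ1 : ∀ x, sq x ≤ 1 → χ x = 1 := fun x hx =>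
    Real.smoothTransition.one_of_one_le (by linarith)
  have χ0 : ∀ x, 2 ≤ sq x → χ x = 0 := fun x hx =>
    Real.smoothTransition.zero_of_nonpos (by linarith)
  set lm' : Cn' n N := fun i x => χ x • lm i x with hlm'
  have hlm's : ∀ i p q, ContDiff ℝ ∞ (fun x => lm' i x p q) := by
    intro i p q
    rw [contDiff_iff_contDiffAt]
    intro x
    by_cases hx : sq x < 2 ^ 2
    · have h1 : ContDiffAt ℝ ∞ (fun x => lm i x p q) x :=
        (hlms i p q).contDiffAt (hO.mem_nhds hx)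
      exact χs.contDiffAt.mul h1
    · have h2 : (fun x => lm' i x p q) =ᶠ[nhds x] fun _ => 0 := by
        have h3 : {y : V n | 2 < sq y} ∈ nhds x :=
          (isOpen_lt continuous_const sq_cont).mem_nhds (by
            show 2 < sq x; linarith [not_lt.1 hx])
        filter_upwards [h3] with y hy
        simp [hlm', χ0 y (le_of_lt hy)]
      exact contDiffAt_const.congr_of_eventuallyEq h2
  have hdv : ∀ x ∈ Bn n, Dvh s A₁ A₂ lm' x = 0 := by
    intro x hx
    have hx1 : sq x < 1 := hx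
    have hx2 : x ∈ Bs n 2 := by show sq x < 2 ^ 2; linarith
    rw [← Ψe x hx2]
    unfold Dvh
    refine Finset.sum_congr rfl fun i _ => Dh_congr ?_
    have h3 : {y : V n | sq y < 1} ∈ nhds x :=
      (isOpen_lt sq_cont continuous_const).mem_nhds hx1
    filter_upwards [h3] with y hy
    refine Finset.sum_congr rfl fun j _ => ?_
    show s y i j • (χ y • lm j y) = s y i j • lm j y
    rw [χ1 y (le_of_lt hy), one_smul]
  -- orthogonality
  have hort := hP M hM s A₁ A₂ Q₁ Q₂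
    ⟨hs.sm, hs.sy, fun i j => cl hK₂ le2 (hs.cl i j), hs.dv⟩
    ⟨hA₁.sm, hA₁.sk, fun l p q => cl hK₂ le2 (hA₁.bd l p q)⟩
    ⟨hA₂.sm, hA₂.sk, fun l p q => cl hK₂ le2 (hA₂.bd l p q)⟩
    ⟨hQ₁.sm, hQ₁.sy, fun p q => cl hK₂ le_rfl (hQ₁.bd p q)⟩
    ⟨hQ₂.sm, hQ₂.sy, fun p q => cl hK₂ le_rfl (hQ₂.bd p q)⟩ hA hQ hI lm' hlm's hdv
  have z1 : ∫ x in Bs n 2, ipc s lm lm x = 0 := by
    rw [ΨI]
    have e1 : ∫ x in Bs n 2, ipc s lm a x = ∫ x in Bs n (3 / 4), ipc s lm a x := by
      refine setIntegral_eq_of_subset_of_forall_sdiff_eq_zero hO.measurableSet s34 ?_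
      intro x hx
      have : ∀ i, a i x = 0 := fun i => by
        simp only [ha]; rw [hA x hx.2 i, sub_self]
      simp [ipc, this]
    rw [e1, ← hort]
    refine setIntegral_congr_fun (Bs_open _).measurableSet fun x hx => ?_
    show ipc s lm a x = ipc s a lm' x
    rw [ipc_comm hs.sy]
    have hx1 : sq x < (3 / 4) ^ 2 := hx
    have : ∀ i, lm' i x = lm i x := fun i => by
      show χ x • lm i x = lm i x
      rw [χ1 x (by linarith), one_smul]
    simp only [ipc, this]
  -- `lm = 0`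
  have hint2 : IntegrableOn (fun x => nc lm x) (Bs n 2) := by
    unfold nc
    refine integrable_finsetSum _ fun p _ => integrable_finsetSum _ fun q _ =>
      integrable_finsetSum _ fun i _ => ?_
    exact Ψd i p q
  have hcont : ContinuousOn (fun x => ipc s lm lm x) (Bs n 2) := by
    unfold ipc
    refine continuousOn_finsetSum _ fun i _ => continuousOn_finsetSum _ fun j _ =>
      (hs.sm i j).continuous.continuousOn.mul (continuousOn_finsetSum _ fun p _ =>
      continuousOn_finsetSum _ fun q _ => (hlms i p q).continuousOn.mul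
      (hlms j p q).continuousOn)
  have hlow : ∀ x, (1 / 2) * nc lm x ≤ ipc s lm lm x := fun x => ipc_low hsm hsN lm x
  have hint : IntegrableOn (fun x => ipc s lm lm x) (Bs n 2) := by
    refine Integrable.mono' (hint2.const_mul (2 * n))
      (hcont.aestronglyMeasurable hO.measurableSet) (ae_of_all _ fun x => ?_)
    rw [Real.norm_eq_abs, ipc_eq, nc, Finset.mul_sum]
    refine (Finset.abs_sum_le_sum_abs _ _).trans (Finset.sum_le_sum fun p _ => ?_)
    rw [Finset.mul_sum]
    refine (Finset.abs_sum_le_sum_abs _ _).trans (Finset.sum_le_sum fun q _ => ?_)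
    have hb : ∀ i j, |s x i j| ≤ 2 := by
      intro i j
      have h1 := hsm x i j
      have h2 : |(1 : Matrix (Fin n) (Fin n) ℝ) i j| ≤ 1 := by
        rw [Matrix.one_apply]; split_ifs <;> simp
      have h3 : |s x i j| ≤ |s x i j - (1 : Matrix (Fin n) (Fin n) ℝ) i j| +
          |(1 : Matrix (Fin n) (Fin n) ℝ) i j| := by
        have := abs_add_le (s x i j - (1 : Matrix (Fin n) (Fin n) ℝ) i j)
          ((1 : Matrix (Fin n) (Fin n) ℝ) i j)
        simpa using this
      have h4 : 1 / (2 * (n : ℝ) + 2) ≤ 1 := by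
        rw [div_le_one (by positivity)]
        have : (0 : ℝ) ≤ n := Nat.cast_nonneg n
        linarith
      linarith
    set S := ∑ i, lm i x p q ^ 2 with hS
    calc |∑ i, ∑ j, s x i j * (lm i x p q * lm j x p q)|
        ≤ ∑ i, ∑ j, |s x i j * (lm i x p q * lm j x p q)| :=
          (Finset.abs_sum_le_sum_abs _ _).trans
            (Finset.sum_le_sum fun i _ => Finset.abs_sum_le_sum_abs _ _)
      _ ≤ ∑ i, ∑ j, 2 * (|lm i x p q| * |lm j x p q|) := by
          refine Finset.sum_le_sum fun i _ => Finset.sum_le_sum fun j _ => ?_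
          rw [abs_mul, abs_mul]
          exact mul_le_mul_of_nonneg_right (hb i j) (by positivity)
      _ = 2 * (∑ i, |lm i x p q|) ^ 2 := by
          rw [_root_.sq, Finset.sum_mul_sum, Finset.mul_sum]
          exact Finset.sum_congr rfl fun i _ => by rw [Finset.mul_sum]
      _ ≤ 2 * (n * S) := by
          gcongr
          simpa [hS] using sq_sum_le_card_mul_sum_sq (s := Finset.univ)
            (f := fun i => |lm i x p q|)
      _ = _ := by ring
  have hnn : ∀ x, 0 ≤ ipc s lm lm x := fun x =>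
    (mul_nonneg (by norm_num) (nc_nonneg lm x)).trans (hlow x)
  have z2 : EqOn (fun x => ipc s lm lm x) (fun _ => 0) (Bs n 2) := by
    refine Measure.eqOn_open_of_ae_eq (μ := volume) ?_ hO hcont continuousOn_const
    exact (integral_eq_zero_iff_of_nonneg_ae (ae_of_all _ hnn) hint).1 z1
  have z3 : ∀ x ∈ Bs n 2, ∀ i, Dh A₁ A₂ i Ψ x = -a i x := by
    intro x hx i
    have h1 : nc lm x = 0 := by
      have h2 := hlow x
      have h3 := z2 hx
      simp only at h3
      rw [h3] at h2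
      linarith [nc_nonneg lm x]
    have h4 : lm i x = 0 := by
      ext p q
      have h5 := (Finset.sum_eq_zero_iff_of_nonneg fun p _ => Finset.sum_nonneg fun q _ =>
        Finset.sum_nonneg fun i _ => sq_nonneg (lm i x p q)).1 h1 p (Finset.mem_univ p)
      have h6 := (Finset.sum_eq_zero_iff_of_nonneg fun q _ =>
        Finset.sum_nonneg fun i _ => sq_nonneg (lm i x p q)).1 h5 q (Finset.mem_univ q)
      have h7 := (Finset.sum_eq_zero_iff_of_nonneg fun i _ => sq_nonneg (lm i x p q)).1 h6 i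
        (Finset.mem_univ i)
      simpa using h7
    have h8 : a i x + Dh A₁ A₂ i Ψ x = 0 := h4
    rw [eq_neg_iff_add_eq_zero, add_comm]
    exact h8
  -- the annulus
  have hAn : ∀ x ∈ An n, x ∈ Bs n 2 ∧ x ∉ Bs n (3 / 4) := by
    intro x hx
    exact ⟨hx.2, not_lt.2 hx.1.le⟩
  have Ψ0 : ∀ x ∈ An n, Ψ x = 0 := by
    intro x₀ hx₀
    apply eq_zero_of_nq
    have hpar : ∀ x ∈ An n, nq (Ψ x) = nq (Ψ x₀) := by
      intro x hx
      refine par (A₁ := A₁) (A₂ := A₂) An_open (An_pre (by omega))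
        (fun p q => (Ψs p q).mono fun y hy => (hAn y hy).1)
        (fun i y _ => hA₁.sk i y) (fun i y _ => hA₂.sk i y) ?_ hx hx₀
      intro y hy i
      rw [z3 y (hAn y hy).1 i, ha]
      simp only [hA y (hAn y hy).2 i, sub_self, neg_zero]
    refine shell (n := n) (f := fun x => ∑ p, ∑ q, Ψ x p q ^ 2 / (4 - sq x) ^ 2) (by omega)
      (nq_nonneg _) ?_ ?_ ?_
    · exact integrable_finsetSum _ fun p _ => integrable_finsetSum _ fun q _ => Ψi p q
    · intro x _
      exact Finset.sum_nonneg fun p _ => Finset.sum_nonneg fun q _ => by positivity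
    · intro x hx
      rw [← hpar x hx, nq, Finset.sum_div]
      refine le_of_eq (Finset.sum_congr rfl fun p _ => ?_)
      rw [Finset.sum_div]
  have Ψ1 : ∀ x ∈ Bs n 2, x ∉ Bs n (3 / 4) → Ψ x = 0 := by
    intro x hx hx'
    have h1 : (3 / 4) ^ 2 ≤ sq x := not_lt.1 hx'
    have h0 : 0 < sq x := lt_of_lt_of_le (by norm_num) h1
    have h2 : sq x < 2 ^ 2 := hx
    ext p q
    -- approximate from outside
    have hlim : Filter.Tendsto (fun t : ℝ => Ψ (t • x) p q) (nhdsWithin 1 (Ioi 1))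
        (nhds (Ψ x p q)) := by
      have c1 : ContinuousAt (fun y => Ψ y p q) ((1 : ℝ) • x) := by
        rw [one_smul]; exact ((Ψs p q).contDiffAt (hO.mem_nhds hx)).continuousAt
      have c2 : ContinuousAt (fun t : ℝ => t • x) 1 := by fun_prop
      have c3 : Filter.Tendsto ((fun y => Ψ y p q) ∘ fun t : ℝ => t • x) (nhds 1)
          (nhds (Ψ ((1 : ℝ) • x) p q)) := ContinuousAt.comp (f := fun t : ℝ => t • x) c1 c2
      rw [one_smul] at c3
      exact c3.mono_left nhdsWithin_le_nhds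
    have hev : ∀ᶠ t : ℝ in nhdsWithin 1 (Ioi 1), Ψ (t • x) p q = 0 := by
      have c4 : ContinuousAt (fun t : ℝ => sq (t • x)) 1 := by
        have := sq_cont (n := n)
        fun_prop
      have c5 : ∀ᶠ t : ℝ in nhds 1, sq (t • x) < 2 ^ 2 := by
        apply c4.eventually_lt continuousAt_const
        simpa using h2
      filter_upwards [nhdsWithin_le_nhds c5, self_mem_nhdsWithin] with t ht ht1
      have ht1' : 1 < t := ht1
      have : t • x ∈ An n := by
        refine ⟨?_, ht⟩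
        rw [sq_smul]
        have : 1 < t ^ 2 := by nlinarith
        nlinarith
      rw [Ψ0 _ this]; rfl
    exact tendsto_nhds_unique hlim (tendsto_const_nhds.congr' (hev.mono fun t ht => ht.symm))
  -- the gauge
  set G : Mx n N := fun x => open Classical in if x ∈ Bs n 2 then 1 - Ψ x else 1 with hG
  have G1 : ∀ x ∈ Bs n 2, G x = 1 - Ψ x := fun x hx => by simp only [hG, if_pos hx]
  have Gz : ∀ x ∉ Bs n (3 / 4), G x = 1 := by
    intro x hx
    by_cases h : x ∈ Bs n 2
    · rw [G1 x h, Ψ1 x h hx, sub_zero]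
    · simp only [hG, if_neg h]
  have Ge1 : ∀ x ∈ Bs n 2, G =ᶠ[nhds x] fun y => 1 - Ψ y := fun x hx =>
    Filter.eventuallyEq_of_mem (hO.mem_nhds hx) fun y hy => G1 y hy
  have Ge2 : ∀ x, x ∉ Bs n 2 → G =ᶠ[nhds x] fun _ => 1 := by
    intro x hx
    have h1 : (2 : ℝ) ^ 2 ≤ sq x := not_lt.1 hx
    have h3 : {y : V n | (3 / 4) ^ 2 < sq y} ∈ nhds x :=
      (isOpen_lt continuous_const sq_cont).mem_nhds (by
        show (3 / 4) ^ 2 < sq x; linarith)
    filter_upwards [h3] with y hy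
    exact Gz y (not_lt.2 (le_of_lt hy))
  have Gs : ∀ p q, ContDiff ℝ ∞ (fun x => G x p q) := by
    intro p q
    rw [contDiff_iff_contDiffAt]
    intro x
    by_cases hx : x ∈ Bs n 2
    · have h1 : ContDiffAt ℝ ∞ (fun y => (1 : Matrix (Fin N) (Fin N) ℝ) p q - Ψ y p q) x :=
        contDiffAt_const.sub ((Ψs p q).contDiffAt (hO.mem_nhds hx))
      refine h1.congr_of_eventuallyEq ((Ge1 x hx).mono fun y hy => ?_)
      simp only [hy, Matrix.sub_apply]
    · refine (contDiffAt_const (c := (1 : Matrix (Fin N) (Fin N) ℝ) p q)).congr_of_eventuallyEq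
        ((Ge2 x hx).mono fun y hy => ?_)
      simp only [hy]
  have Gd : ∀ x, Df G x := fun x p q => (Gs p q).differentiable (by simp) x
  have D1 : ∀ i x, Dh A₁ A₂ i (fun _ => 1) x = A₁ i x - A₂ i x := by
    intro i x
    rw [Dh_eq, dM_const, Matrix.mul_one, Matrix.one_mul, zero_add]
  have Gp : ∀ i x, Dh A₁ A₂ i G x = 0 := by
    intro i x
    by_cases hx : x ∈ Bs n 2
    · rw [Dh_congr (Ge1 x hx), Dh_sub (Df.const 1) (fun p q =>
        ((Ψs p q).contDiffAt (hO.mem_nhds hx)).differentiableAt (by simp)), D1, z3 x hx i]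
      simp only [ha]
      abel
    · have hx' : x ∉ Bs n (3 / 4) := fun h => hx (s34 h)
      rw [Dh_congr (Ge2 x hx), D1, hA x hx' i, sub_self]
  have p0 : ∃ x₀ : V n, x₀ ∉ Bs n (3 / 4) := by
    refine ⟨fun _ => 1, ?_⟩
    have : (n : ℝ) ≥ 3 := by exact_mod_cast hn
    have e : sq (fun _ => 1 : V n) = n := by simp [sq]
    intro h
    have h' : sq (fun _ => 1 : V n) < (3 / 4) ^ 2 := h
    rw [e] at h'
    linarith
  obtain ⟨x₀, hx₀⟩ := p0
  refine ⟨G, Gs, ?_, Gp, Gz, ?_⟩
  · intro x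
    set Z : Mx n N := fun y => G y * (G y)ᵀ - 1 with hZ
    have hZ0 : Z x₀ = 0 := by
      simp only [hZ, Gz x₀ hx₀, Matrix.transpose_one, Matrix.mul_one, sub_self]
    have hZp : ∀ y ∈ (univ : Set (V n)), ∀ i, Dh A₁ A₁ i Z y = 0 := by
      intro y _ i
      rw [hZ, Dh_sub ((Gd y).mul (Gd y).tr) (Df.const 1),
        Dh_mt (Gd y) (hA₁.sk i y) (hA₂.sk i y) (Gp i y), Dh_eq, dM_const]
      simp
    have hZs : ∀ p q, ContDiffOn ℝ ∞ (fun x => Z x p q) univ := by
      intro p q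
      simp only [hZ, Matrix.sub_apply, Matrix.mul_apply, Matrix.transpose_apply]
      exact ((ContDiff.sum fun r _ => (Gs p r).mul (Gs q r)).sub contDiff_const).contDiffOn
    have h1 := par (A₁ := A₁) (A₂ := A₁) isOpen_univ isPreconnected_univ hZs
      (fun i y _ => hA₁.sk i y) (fun i y _ => hA₁.sk i y) hZp (mem_univ x) (mem_univ x₀)
    rw [hZ0, nq_zero] at h1
    have h2 := eq_zero_of_nq h1
    exact sub_eq_zero.1 h2
  · intro J hJ₁ hJ₂ x
    set Z : Mx n N := fun y => G y * J - J * G y with hZ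
    have hZ0 : Z x₀ = 0 := by
      simp only [hZ, Gz x₀ hx₀, Matrix.one_mul, Matrix.mul_one, sub_self]
    have hZp : ∀ y ∈ (univ : Set (V n)), ∀ i, Dh A₁ A₂ i Z y = 0 := by
      intro y _ i
      rw [hZ, Dh_sub ((Gd y).mul (Df.const J)) ((Df.const J).mul (Gd y)),
        Dh_mulr (Gd y) J (hJ₂ i y), Dh_mull (Gd y) J (hJ₁ i y), Gp i y, Matrix.zero_mul,
        Matrix.mul_zero, sub_self]
    have hZs : ∀ p q, ContDiffOn ℝ ∞ (fun x => Z x p q) univ := by
      intro p q
      simp only [hZ, Matrix.sub_apply, Matrix.mul_apply]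
      exact ((ContDiff.sum fun r _ => (Gs p r).mul contDiff_const).sub
        (ContDiff.sum fun r _ => contDiff_const.mul (Gs r q))).contDiffOn
    have h1 := par (A₁ := A₁) (A₂ := A₂) isOpen_univ isPreconnected_univ hZs
      (fun i y _ => hA₁.sk i y) (fun i y _ => hA₂.sk i y) hZp (mem_univ x) (mem_univ x₀)
    rw [hZ0, nq_zero] at h1
    have h2 := eq_zero_of_nq h1
    exact sub_eq_zero.1 h2

end Vale.Agent.P088.HY
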