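import Vale.Agent.P088.R2.H901.EllE

/-!
# P088: interior estimates for systems, Caccioppoli's inequality
-/

open MeasureTheory Set Function
open scoped ContDiff ENNReal NNReal

set_option linter.unusedSectionVars false
set_option linter.unusedVariables false

noncomputable section

namespace Vale.Agent.P088.HY.EI

variable {J E P : Type} [NormedAddCommGroup E] [NormedSpace ℝ E] [FiniteDimensional ℝ E]
  [MeasurableSpace E] [BorelSpace E] [Fintype J] [DecidableEq J] [Fintype P]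

/-- The pointwise inequality, without the equation. -/
theorem cac_pt2 (z : ℝ) (za : J → ℝ) (c : J → J → ℝ) (dc : J → J → ℝ) (w : ℝ)
    (wa : J → ℝ) (A ε : ℝ) (hA : 0 ≤ A) (hz : |z| ≤ A) (hza : ∀ a, |za a| ≤ A)
    (hc : ∀ a b, |c a b - kd a b| ≤ ε) (hc1 : ∀ a b, |c a b| ≤ 2) (hdc : ∀ a b, |dc a b| ≤ 1)
    (hN : 2 * ε * Fintype.card J ≤ 1) :
    (1 / 4) * (z ^ 2 * ∑ a, wa a ^ 2) ≤
      (∑ a, ∑ b, (2 * z * za a * c a b * w * wa b + z ^ 2 * dc a b * w * wa b +
        z ^ 2 * c a b * wa a * wa b)) +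
      (A ^ 2 + Fintype.card J * (5 * A * Fintype.card J) ^ 2) * w ^ 2 := by
  have := cac_pt z za c dc w 0 wa A ε hA hz hza hc hc1 hdc hN
  simpa using this

/-- The pointwise inequality for the lower order terms. -/
theorem low_pt (M : ℝ) (hM : 0 ≤ M) (w F L : P → ℝ) (wa : P → J → ℝ)
    (h : ∀ p, |L p - F p| ≤ M * ∑ q, (∑ l, |wa q l| + |w q|)) :
    -(∑ p, w p * L p) ≤ (1 / 8) * ∑ p, ∑ a, wa p a ^ 2 +
      (1 + 2 * (Fintype.card P * Fintype.card J + 1) * M ^ 2 * Fintype.card P +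
        M * Fintype.card P) * (∑ p, w p ^ 2 + ∑ p, F p ^ 2) := by
  set W : ℝ := ∑ p, |w p| with hW
  set G : ℝ := ∑ q, ∑ l, |wa q l| with hG
  set S : ℝ := ∑ p, ∑ a, wa p a ^ 2 with hS
  set m : ℝ := (Fintype.card P : ℝ) with hm
  set N : ℝ := (Fintype.card J : ℝ) with hN
  have hm0 : 0 ≤ m := Nat.cast_nonneg _
  have hN0 : 0 ≤ N := Nat.cast_nonneg _
  have hW0 : 0 ≤ W := Finset.sum_nonneg fun _ _ => abs_nonneg _
  have hG0 : 0 ≤ G := Finset.sum_nonneg fun _ _ => Finset.sum_nonneg fun _ _ => abs_nonneg _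
  have hS0 : 0 ≤ S := Finset.sum_nonneg fun _ _ => Finset.sum_nonneg fun _ _ => sq_nonneg _
  have h1 : W ^ 2 ≤ m * ∑ p, w p ^ 2 := by
    simpa [hW] using sq_sum_le_card_mul_sum_sq (s := Finset.univ) (f := fun p => |w p|)
  have h2 : G ^ 2 ≤ m * N * S := by
    calc G ^ 2 ≤ m * ∑ q, (∑ l, |wa q l|) ^ 2 := by
          simpa [hG] using sq_sum_le_card_mul_sum_sq (s := Finset.univ)
            (f := fun q => ∑ l, |wa q l|)
      _ ≤ m * ∑ q, (N * ∑ l, wa q l ^ 2) := by
          gcongr with q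
          simpa using sq_sum_le_card_mul_sum_sq (s := Finset.univ) (f := fun l => |wa q l|)
      _ = _ := by rw [← Finset.mul_sum]; ring
  have h3 : -(∑ p, w p * L p) ≤ ∑ p, |w p| * |F p| + M * (W * (G + W)) := by
    have e1 : ∀ p, -(w p * L p) ≤ |w p| * |F p| + |w p| * (M * (G + W)) := by
      intro p
      have h4 : |L p| ≤ |F p| + M * (G + W) := by
        have h5 := h p
        rw [Finset.sum_add_distrib] at h5
        have h6 : |L p| ≤ |F p| + |L p - F p| := by
          have := abs_add_le (F p) (L p - F p)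
          simpa using this
        linarith
      calc -(w p * L p) ≤ |w p * L p| := neg_le_abs _
        _ = |w p| * |L p| := abs_mul _ _
        _ ≤ |w p| * (|F p| + M * (G + W)) := mul_le_mul_of_nonneg_left h4 (abs_nonneg _)
        _ = _ := by ring
    rw [← Finset.sum_neg_distrib]
    refine (Finset.sum_le_sum fun p _ => e1 p).trans (le_of_eq ?_)
    rw [Finset.sum_add_distrib, ← Finset.sum_mul]
    ring
  have h4 : ∑ p, |w p| * |F p| ≤ ∑ p, w p ^ 2 + ∑ p, F p ^ 2 := by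
    rw [← Finset.sum_add_distrib]
    refine Finset.sum_le_sum fun p _ => ?_
    rw [← sq_abs (w p), ← sq_abs (F p)]
    nlinarith [sq_nonneg (|w p| - |F p|), sq_nonneg (|w p|), sq_nonneg (|F p|)]
  have hK : 0 < m * N + 1 := by positivity
  have h5 : M * (W * G) ≤ 2 * (m * N + 1) * M ^ 2 * W ^ 2 + (1 / 8) * S := by
    have h6 : G ^ 2 ≤ (m * N + 1) * S := h2.trans (by nlinarith)
    have h7 : 0 ≤ (4 * (m * N + 1) * (M * W) - G) ^ 2 := sq_nonneg _
    have h8 : (m * N + 1) * (8 * (M * (W * G))) ≤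
        (m * N + 1) * (16 * (m * N + 1) * M ^ 2 * W ^ 2 + S) := by
      nlinarith
    have h9 := le_of_mul_le_mul_left h8 hK
    linarith
  have hs : 0 ≤ ∑ p, F p ^ 2 := Finset.sum_nonneg fun _ _ => sq_nonneg _
  have hw : 0 ≤ ∑ p, w p ^ 2 := Finset.sum_nonneg fun _ _ => sq_nonneg _
  set w2 := ∑ p, w p ^ 2
  set F2 := ∑ p, F p ^ 2
  have h6 : 2 * (m * N + 1) * M ^ 2 * W ^ 2 ≤ 2 * (m * N + 1) * M ^ 2 * m * w2 := by
    have : 0 ≤ 2 * (m * N + 1) * M ^ 2 := by positivity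
    calc _ ≤ 2 * (m * N + 1) * M ^ 2 * (m * w2) := mul_le_mul_of_nonneg_left h1 this
      _ = _ := by ring
  have h7 : M * W ^ 2 ≤ M * m * w2 := by
    calc _ ≤ M * (m * w2) := mul_le_mul_of_nonneg_left h1 hM
      _ = _ := by ring
  have h8 : 0 ≤ (2 * (m * N + 1) * M ^ 2 * m + M * m) * F2 := by positivity
  calc -(∑ p, w p * L p) ≤ ∑ p, |w p| * |F p| + M * (W * (G + W)) := h3
    _ = ∑ p, |w p| * |F p| + M * (W * G) + M * W ^ 2 := by ring
    _ ≤ (w2 + F2) + (2 * (m * N + 1) * M ^ 2 * m * w2 + (1 / 8) * S) + M * m * w2 := by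
        linarith
    _ ≤ _ := by nlinarith

variable {μ : Measure E} [μ.IsAddHaarMeasure] {b : J → E} {O B B' : Set E} {ε A M : ℝ}
  {w F : P → E → ℝ}

/-- Caccioppoli's inequality for systems. -/
theorem E2v (hO : IsOpen O) {c : J → J → E → ℝ}
    (hc : ∀ i j, ContDiffOn ℝ ((⊤ : ℕ∞) : WithTop ℕ∞) (c i j) O)
    (hε : ∀ i j, ∀ x ∈ O, |c i j x - kd i j| ≤ ε) (hc1 : ∀ i j, ∀ x ∈ O, |c i j x| ≤ 2)
    (hdc : ∀ i j, ∀ x ∈ O, |D b i (c i j) x| ≤ 1)
    (hN : 2 * ε * Fintype.card J ≤ 1) {ζ : E → ℝ} (hζ : ContDiff ℝ ((⊤ : ℕ∞) : WithTop ℕ∞) ζ)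
    (hζc : HasCompactSupport ζ) (hB' : IsOpen B') (hζO : tsupport ζ ⊆ B') (hB'O : B' ⊆ O)
    (hA : 0 ≤ A) (hz : ∀ x, |ζ x| ≤ A)
    (hz1 : ∀ i x, |D b i ζ x| ≤ A) (hB : MeasurableSet B) (hζ1 : ∀ x ∈ B, ζ x = 1)
    (hw : ∀ p, ContDiffOn ℝ ((⊤ : ℕ∞) : WithTop ℕ∞) (w p) O)
    (hF : ∀ p, ContDiffOn ℝ ((⊤ : ℕ∞) : WithTop ℕ∞) (F p) O) (hM : 0 ≤ M)
    (hL : ∀ p, ∀ x ∈ O, |Lc b c (w p) x - F p x| ≤
      M * ∑ q, (∑ l, |D b l (w q) x| + |w q x|)) :
    ∑ p, ∑ i, nn μ B (D b i (w p)) ≤ Fintype.card P * Fintype.card J * ENNReal.ofReal (8 *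
      ((A ^ 2 + Fintype.card J * (5 * A * Fintype.card J) ^ 2) + A ^ 2 *
      (1 + 2 * (Fintype.card P * Fintype.card J + 1) * M ^ 2 * Fintype.card P +
        M * Fintype.card P))) *
      ∑ p, (nn μ B' (w p) + nn μ B' (F p)) := by
  have hζO' : tsupport ζ ⊆ O := hζO.trans hB'O
  -- the vector field
  set G : P → J → E → ℝ := fun p i x => (ζ x * ζ x) * ∑ j, c i j x * (w p x * D b j (w p) x)
    with hG
  have hζ2 : ContDiff ℝ ((⊤ : ℕ∞) : WithTop ℕ∞) (fun x => ζ x * ζ x) := hζ.mul hζ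
  have hζ2c : HasCompactSupport (fun x => ζ x * ζ x) := hζc.mul_left
  have hts : tsupport (fun x => ζ x * ζ x) ⊆ tsupport ζ := by
    apply closure_mono
    intro x hx h
    apply hx
    simp [h]
  have hin : ∀ p i, ContDiffOn ℝ ((⊤ : ℕ∞) : WithTop ℕ∞)
      (fun x => ∑ j, c i j x * (w p x * D b j (w p) x)) O := fun p i =>
    ContDiffOn.sum fun j _ => (hc i j).mul ((hw p).mul (cd_D hO (hw p) j))
  have hGs : ∀ p i, ContDiff ℝ ((⊤ : ℕ∞) : WithTop ℕ∞) (G p i) := fun p i =>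
    cd_cut hO (hin p i) hζ2 (hts.trans hζO')
  have hGc : ∀ p i, HasCompactSupport (G p i) := fun p i => hζ2c.mul_right
  have hQi : Integrable (fun x => ∑ p, ∑ i, D b i (G p i) x) μ :=
    integrable_finsetSum _ fun p _ => integrable_finsetSum _ fun i _ =>
      intg (cdg_D (hGs p i) i) (D_supp (hGc p i) i)
  have hQ0 : ∫ x, ∑ p, ∑ i, D b i (G p i) x ∂μ = 0 := by
    rw [integral_finsetSum _ fun p _ => integrable_finsetSum _ fun i _ =>
      intg (cdg_D (hGs p i) i) (D_supp (hGc p i) i)]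
    refine Finset.sum_eq_zero fun p _ => ?_
    rw [integral_finsetSum _ fun i _ => intg (cdg_D (hGs p i) i) (D_supp (hGc p i) i)]
    exact Finset.sum_eq_zero fun i _ => int_D (hGs p i) (hGc p i) i
  set K₀ : ℝ := A ^ 2 + Fintype.card J * (5 * A * Fintype.card J) ^ 2 with hK₀
  have hK₀0 : 0 ≤ K₀ := by positivity
  set K₁ : ℝ := 1 + 2 * (Fintype.card P * Fintype.card J + 1) * M ^ 2 * Fintype.card P +
        M * Fintype.card P with hK₁
  have hK₁0 : 0 ≤ K₁ := by positivity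
  set C₁ : ℝ := K₀ + A ^ 2 * K₁ with hC₁
  have hC₁0 : 0 ≤ C₁ := by positivity
  -- pointwise
  have hK := hζc.isCompact
  have hKO : tsupport ζ ⊆ B' := hζO
  have hwc : ∀ p, ContinuousOn (w p) B' := fun p => (hw p).continuousOn.mono hB'O
  have hFc : ∀ p, ContinuousOn (F p) B' := fun p => (hF p).continuousOn.mono hB'O
  have key : ∀ x, (1 / 8) * (ζ x ^ 2 * ∑ p, ∑ i, D b i (w p) x ^ 2) ≤
      ∑ p, ∑ i, D b i (G p i) x +
      (tsupport ζ).indicator (fun x => C₁ * (∑ p, (w p x ^ 2 + F p x ^ 2))) x := by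
    intro x
    by_cases hx : x ∈ tsupport ζ
    · rw [indicator_of_mem hx]
      have hxO := hζO' hx
      have e : ∀ p, ∑ i, D b i (G p i) x =
          (∑ i, ∑ j, (2 * ζ x * D b i ζ x * c i j x * w p x * D b j (w p) x +
          ζ x ^ 2 * D b i (c i j) x * w p x * D b j (w p) x +
          ζ x ^ 2 * c i j x * D b i (w p) x * D b j (w p) x)) +
          ζ x ^ 2 * w p x * Lc b c (w p) x := by
        intro p
        have hwd := da hO (hw p) hxO
        have e1 : ∀ i, D b i (G p i) x =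
          ∑ j, (2 * ζ x * D b i ζ x * c i j x * w p x * D b j (w p) x +
          ζ x ^ 2 * D b i (c i j) x * w p x * D b j (w p) x +
          ζ x ^ 2 * c i j x * D b i (w p) x * D b j (w p) x + ζ x ^ 2 * w p x * (c i j x *
            D b i (D b j (w p)) x)) := by
          intro i
          have hζd : DifferentiableAt ℝ ζ x := hζ.differentiable (by simp) x
          rw [hG]
          simp only
          rw [D_mul (hζ2.differentiable (by simp) x) (da hO (hin p i) hxO),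
            D_mul hζd hζd, D_sum _ fun j _ =>
              da hO ((hc i j).mul ((hw p).mul (cd_D hO (hw p) j))) hxO]
          have e2 : ∀ j, D b i (fun x => c i j x * (w p x * D b j (w p) x)) x =
              c i j x * (w p x * D b i (D b j (w p)) x + D b i (w p) x * D b j (w p) x) +
              D b i (c i j) x * (w p x * D b j (w p) x) := by
            intro j
            rw [D_mul (da hO (hc i j) hxO) (da hO ((hw p).mul (cd_D hO (hw p) j)) hxO),
              D_mul hwd (da hO (cd_D hO (hw p) j) hxO)]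
          simp only [e2, Finset.mul_sum, ← Finset.sum_add_distrib]
          refine Finset.sum_congr rfl fun j _ => by ring
        simp only [e1]
        unfold Lc
        rw [Finset.mul_sum, ← Finset.sum_add_distrib]
        refine Finset.sum_congr rfl fun i _ => ?_
        rw [Finset.mul_sum, ← Finset.sum_add_distrib]
      have h1 : ∀ p, (1 / 4) * (ζ x ^ 2 * ∑ i, D b i (w p) x ^ 2) ≤ ∑ i, D b i (G p i) x +
          ζ x ^ 2 * (-(w p x * Lc b c (w p) x)) + K₀ * w p x ^ 2 := by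
        intro p
        rw [e p]
        have := cac_pt2 (ζ x) (fun i => D b i ζ x) (fun i j => c i j x)
          (fun i j => D b i (c i j) x)
          (w p x) (fun i => D b i (w p) x) A ε hA (hz x) (fun i => hz1 i x)
          (fun i j => hε i j x hxO) (fun i j => hc1 i j x hxO) (fun i j => hdc i j x hxO) hN
        linarith
      have h2 := low_pt M hM (fun p => w p x) (fun p => F p x) (fun p => Lc b c (w p) x)
        (fun p i => D b i (w p) x) (fun p => hL p x hxO)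
      have h3 := Finset.sum_le_sum (s := Finset.univ) fun p (_ : p ∈ Finset.univ) => h1 p
      rw [Finset.sum_add_distrib, Finset.sum_add_distrib, ← Finset.mul_sum, ← Finset.mul_sum,
        ← Finset.mul_sum, ← Finset.mul_sum, Finset.sum_neg_distrib] at h3
      have q4 : ζ x ^ 2 ≤ A ^ 2 := by
        rw [← sq_abs]; exact pow_le_pow_left₀ (abs_nonneg _) (hz x) 2
      have h4 := mul_le_mul_of_nonneg_left h2 (sq_nonneg (ζ x))
      set w2 := ∑ p, w p x ^ 2
      set F2 := ∑ p, F p x ^ 2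
      have hw2 : 0 ≤ w2 := Finset.sum_nonneg fun _ _ => sq_nonneg _
      have hF2 : 0 ≤ F2 := Finset.sum_nonneg fun _ _ => sq_nonneg _
      set S := ∑ p, ∑ i, D b i (w p) x ^ 2
      have h5 : ζ x ^ 2 * (K₁ * (w2 + F2)) ≤ A ^ 2 * (K₁ * (w2 + F2)) :=
        mul_le_mul_of_nonneg_right q4 (by positivity)
      rw [Finset.sum_add_distrib, hC₁]
      have h6 : 0 ≤ K₀ * F2 := by positivity
      simp only [mul_add] at h4 h5 ⊢
      nlinarith
    · rw [indicator_of_notMem hx, image_eq_zero_of_notMem_tsupport hx]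
      have : ∀ p i, D b i (G p i) x = 0 := fun p i => by
        apply image_eq_zero_of_notMem_tsupport
        intro h
        apply hx
        apply hts
        have h1 := ts_D i h
        exact (tsupport_mul_subset_left (f := fun x => ζ x * ζ x)
          (g := fun x => ∑ j, c i j x * (w p x * D b j (w p) x))) h1
      simp [this]
  have hi1 : ∀ p i, Integrable (fun x => (ζ x * D b i (w p) x) ^ 2) μ := fun p i =>
    intg ((cd_cut hO (cd_D hO (hw p) i) hζ hζO').pow 2) (hc_sq hζc.mul_right)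
  have e0 : ∀ x, ζ x ^ 2 * ∑ p, ∑ i, D b i (w p) x ^ 2 =
      ∑ p, ∑ i, (ζ x * D b i (w p) x) ^ 2 := fun x => by
    rw [Finset.mul_sum]
    refine Finset.sum_congr rfl fun p _ => ?_
    rw [Finset.mul_sum]
    exact Finset.sum_congr rfl fun i _ => by ring
  have hi6 : Integrable (fun x => ζ x ^ 2 * ∑ p, ∑ i, D b i (w p) x ^ 2) μ := by
    simp only [e0]
    exact integrable_finsetSum _ fun p _ => integrable_finsetSum _ fun i _ => hi1 p i
  have hi2 : Integrable (fun x => (1 / 8) * (ζ x ^ 2 * ∑ p, ∑ i, D b i (w p) x ^ 2)) μ :=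
    hi6.const_mul _
  have hi3 : ∀ p, IntegrableOn (fun x => w p x ^ 2) (tsupport ζ) μ := fun p =>
    (((hwc p).mono hKO).pow 2).integrableOn_compact hK
  have hi4 : ∀ p, IntegrableOn (fun x => F p x ^ 2) (tsupport ζ) μ := fun p =>
    (((hFc p).mono hKO).pow 2).integrableOn_compact hK
  have hi7 : IntegrableOn (fun x => ∑ p, (w p x ^ 2 + F p x ^ 2)) (tsupport ζ) μ :=
    integrable_finsetSum _ fun p _ => (hi3 p).add (hi4 p)
  have hi5 : Integrable ((tsupport ζ).indicator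
      (fun x => C₁ * (∑ p, (w p x ^ 2 + F p x ^ 2)))) μ :=
    (integrable_indicator_iff hK.measurableSet).2 (hi7.const_mul C₁)
  have q := integral_mono hi2 (hQi.add hi5) key
  simp only [Pi.add_apply] at q
  rw [integral_add hQi hi5, hQ0, zero_add, integral_const_mul, integral_indicator hK.measurableSet,
    integral_const_mul] at q
  have q2 : ∫ x, ζ x ^ 2 * ∑ p, ∑ i, D b i (w p) x ^ 2 ∂μ ≤ 8 * C₁ *
      ∫ x in tsupport ζ, ∑ p, (w p x ^ 2 + F p x ^ 2) ∂μ := by linarith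
  -- conclusion
  have r1 : ∀ p i, nn μ B (D b i (w p)) ≤
      ENNReal.ofReal (∫ x, ζ x ^ 2 * ∑ p, ∑ i, D b i (w p) x ^ 2 ∂μ) := by
    intro p i
    refine nn_le_of hB hi6 (fun x => ?_) (fun x hx => ?_)
    · exact mul_nonneg (sq_nonneg _) (Finset.sum_nonneg fun _ _ =>
        Finset.sum_nonneg fun _ _ => sq_nonneg _)
    · rw [hζ1 x hx, one_pow, one_mul]
      refine le_trans ?_ (Finset.single_le_sum (f := fun p => ∑ i, D b i (w p) x ^ 2)
        (fun _ _ => Finset.sum_nonneg fun _ _ => sq_nonneg _) (Finset.mem_univ p))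
      exact Finset.single_le_sum (f := fun i => D b i (w p) x ^ 2) (fun _ _ => sq_nonneg _)
        (Finset.mem_univ i)
  have r3 : ENNReal.ofReal (∫ x in tsupport ζ, ∑ p, (w p x ^ 2 + F p x ^ 2) ∂μ) ≤
      ∑ p, (nn μ B' (w p) + nn μ B' (F p)) := by
    have hi34 : ∀ p, Integrable (fun x => w p x ^ 2 + F p x ^ 2) (μ.restrict (tsupport ζ)) :=
      fun p => (hi3 p).add (hi4 p)
    rw [integral_finsetSum _ fun p _ => hi34 p,
      ENNReal.ofReal_sum_of_nonneg fun p _ => integral_nonneg fun x =>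
        add_nonneg (sq_nonneg _) (sq_nonneg _)]
    refine Finset.sum_le_sum fun p _ => ?_
    rw [integral_add (hi3 p) (hi4 p)]
    refine ENNReal.ofReal_add_le.trans ?_
    exact add_le_add (ofReal_setInt hK hKO (hwc p)) (ofReal_setInt hK hKO (hFc p))
  have r2 : ENNReal.ofReal (∫ x, ζ x ^ 2 * ∑ p, ∑ i, D b i (w p) x ^ 2 ∂μ) ≤
      ENNReal.ofReal (8 * C₁) * ∑ p, (nn μ B' (w p) + nn μ B' (F p)) := by
    refine (ENNReal.ofReal_le_ofReal q2).trans ?_
    rw [ENNReal.ofReal_mul (by positivity)]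
    gcongr
  calc ∑ p, ∑ i, nn μ B (D b i (w p)) ≤ ∑ _p : P, ∑ _i : J, ENNReal.ofReal (8 * C₁) *
        ∑ p, (nn μ B' (w p) + nn μ B' (F p)) :=
        Finset.sum_le_sum fun p _ => Finset.sum_le_sum fun i _ => (r1 p i).trans r2
    _ = _ := by
        rw [Finset.sum_const, Finset.sum_const, Finset.card_univ, Finset.card_univ,
          nsmul_eq_mul, nsmul_eq_mul]
        ring

end Vale.Agent.P088.HY.EI
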