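import Vale.Agent.P088.R2.H901.VecA
import Vale.Agent.P088.R2.H901.EllG

/-!
# P088: interior estimates for systems
-/

open MeasureTheory Set Function
open scoped ContDiff ENNReal NNReal

set_option linter.unusedSectionVars false
set_option linter.unusedVariables false

noncomputable section

namespace Vale.Agent.P088.HY.EI

variable {J E P : Type} [NormedAddCommGroup E] [NormedSpace ℝ E] [FiniteDimensional ℝ E]
  [MeasurableSpace E] [BorelSpace E] [Fintype J] [DecidableEq J] [Fintype P]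

/-- The lower order terms of a system. -/
def Lo (b : J → E) (e : P → P → J → E → ℝ) (z : P → P → E → ℝ) (w : P → E → ℝ) (p : P) (x : E) :
    ℝ := ∑ q, (∑ l, e p q l x * D b l (w q) x + z p q x * w q x)

/-- Coefficients of a system: `c` near the identity, `e`, `z` bounded by `M`. -/
structure SY (b : J → E) (k : ℕ) (M : ℝ) (c : J → J → E → ℝ) (e : P → P → J → E → ℝ)
    (z : P → P → E → ℝ) : Prop where
  c : CO b (k + 1) c
  es : ∀ p q l, ContDiffOn ℝ ((⊤ : ℕ∞) : WithTop ℕ∞) (e p q l) (Metric.ball 0 2)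
  zs : ∀ p q, ContDiffOn ℝ ((⊤ : ℕ∞) : WithTop ℕ∞) (z p q) (Metric.ball 0 2)
  eb : ∀ p q l, Bd b k (Metric.ball 0 2) M (e p q l)
  zb : ∀ p q, Bd b k (Metric.ball 0 2) M (z p q)

variable {b : J → E} {k : ℕ} {M : ℝ} {c : J → J → E → ℝ} {e : P → P → J → E → ℝ}
    {z : P → P → E → ℝ} {w : P → E → ℝ} {μ : Measure E}

omit [Fintype P] in
theorem SY.down (h : SY b (k + 1) M c e z) : SY b k M c e z :=
  ⟨h.c.down, h.es, h.zs, fun p q l => (h.eb p q l).down, fun p q => (h.zb p q).down⟩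

omit [Fintype P] in
theorem SY.zero : ∀ {k : ℕ}, SY b k M c e z → SY b 0 M c e z
  | 0, h => h
  | _ + 1, h => SY.zero h.down

theorem Lo_cd (h : SY b k M c e z)
    (hw : ∀ p, ContDiffOn ℝ ((⊤ : ℕ∞) : WithTop ℕ∞) (w p) (Metric.ball 0 2)) (p : P) :
    ContDiffOn ℝ ((⊤ : ℕ∞) : WithTop ℕ∞) (Lo b e z w p) (Metric.ball 0 2) :=
  ContDiffOn.sum fun q _ => (ContDiffOn.sum fun l _ =>
    (h.es p q l).mul (cd_D Metric.isOpen_ball (hw q) l)).add ((h.zs p q).mul (hw q))

/-- The sum of the energies of the components. -/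
def Hv (μ : Measure E) (b : J → E) (k : ℕ) (B : Set E) (w : P → E → ℝ) : ℝ≥0∞ :=
  ∑ p, Hs μ b k B (w p)

theorem Hv_mono {B B' : Set E} (h : B ⊆ B') (k : ℕ) (w : P → E → ℝ) :
    Hv μ b k B w ≤ Hv μ b k B' w := Finset.sum_le_sum fun p _ => Hs_mono h k (w p)

theorem Hv_le {B : Set E} {l : ℕ} (h : k ≤ l) (w : P → E → ℝ) :
    Hv μ b k B w ≤ Hv μ b l B w := Finset.sum_le_sum fun p _ => Hs_le h (w p)

theorem Hs_le_Hv {B : Set E} (k : ℕ) (w : P → E → ℝ) (p : P) :
    Hs μ b k B (w p) ≤ Hv μ b k B w :=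
  Finset.single_le_sum (f := fun p => Hs μ b k B (w p)) (fun _ _ => zero_le) (Finset.mem_univ p)

/-- The constant of `Lo_le`. -/
def cLo (J P : Type) [Fintype J] [Fintype P] (k : ℕ) (M : ℝ) : ℝ≥0∞ :=
  2 ^ Fintype.card P * (Fintype.card P * (2 * (2 ^ Fintype.card J * (Fintype.card J *
    (cst J k * ENNReal.ofReal (M ^ 2)))) + 2 * (cst J k * ENNReal.ofReal (M ^ 2))))

theorem cLo_ne (k : ℕ) (M : ℝ) : cLo J P k M ≠ ⊤ := by
  unfold cLo
  have := cst_ne (J := J) k
  finiteness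

/-- The lower order terms are controlled. -/
theorem Lo_le (h : SY b k M c e z)
    (hw : ∀ p, ContDiffOn ℝ ((⊤ : ℕ∞) : WithTop ℕ∞) (w p) (Metric.ball 0 2)) {R : ℝ}
    (hR : R ≤ 2) (p : P) :
    Hs μ b k (Metric.ball 0 R) (Lo b e z w p) ≤ cLo J P k M * Hv μ b (k + 1) (Metric.ball 0 R) w := by
  have hO : IsOpen (Metric.ball (0 : E) 2) := Metric.isOpen_ball
  have hB : IsOpen (Metric.ball (0 : E) R) := Metric.isOpen_ball
  have hs : Metric.ball (0 : E) R ⊆ Metric.ball 0 2 := Metric.ball_subset_ball hR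
  set B := Metric.ball (0 : E) R
  set X := Hv μ b (k + 1) B w with hX
  set K := cst J k * ENNReal.ofReal (M ^ 2) with hK
  have s1 : ∀ q l, ContDiffOn ℝ ((⊤ : ℕ∞) : WithTop ℕ∞) (fun x => e p q l x * D b l (w q) x) B :=
    fun q l => ((h.es p q l).mul (cd_D hO (hw q) l)).mono hs
  have s2 : ∀ q, ContDiffOn ℝ ((⊤ : ℕ∞) : WithTop ℕ∞) (fun x => z p q x * w q x) B :=
    fun q => ((h.zs p q).mul (hw q)).mono hs
  have t1 : ∀ q l, Hs μ b k B (fun x => e p q l x * D b l (w q) x) ≤ K * X := by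
    intro q l
    refine (Hs_mul hB k ((cd_D hO (hw q) l).mono hs) ((h.es p q l).mono hs)
      ((h.eb p q l).mono_set hs)).trans ?_
    gcongr
    exact (Hs_D k l _).trans (Hs_le_Hv (k + 1) w q)
  have t2 : ∀ q, Hs μ b k B (fun x => z p q x * w q x) ≤ K * X := by
    intro q
    refine (Hs_mul hB k ((hw q).mono hs) ((h.zs p q).mono hs) ((h.zb p q).mono_set hs)).trans ?_
    gcongr
    exact (Hs_succ k _).trans (Hs_le_Hv (k + 1) w q)
  have t3 : ∀ q, Hs μ b k B (fun x => ∑ l, e p q l x * D b l (w q) x + z p q x * w q x) ≤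
      (2 * (2 ^ Fintype.card J * (Fintype.card J * K)) + 2 * K) * X := by
    intro q
    refine (Hs_add hB k (ContDiffOn.sum fun l _ => s1 q l) (s2 q)).trans ?_
    calc 2 * (Hs μ b k B (fun x => ∑ l, e p q l x * D b l (w q) x) +
          Hs μ b k B (fun x => z p q x * w q x))
        ≤ 2 * (2 ^ Fintype.card J * ∑ _l : J, K * X + K * X) := by
          gcongr
          · refine (Hs_sum hB k Finset.univ _ fun l _ => s1 q l).trans ?_
            rw [Finset.card_univ]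
            gcongr with l _
            exact t1 q l
          · exact t2 q
      _ = _ := by
          rw [Finset.sum_const, Finset.card_univ, nsmul_eq_mul]; ring
  calc Hs μ b k B (Lo b e z w p) ≤ 2 ^ Fintype.card P *
        ∑ q, Hs μ b k B (fun x => ∑ l, e p q l x * D b l (w q) x + z p q x * w q x) := by
        refine (Hs_sum hB k Finset.univ _ fun q _ => (ContDiffOn.sum fun l _ =>
          s1 q l).add (s2 q)).trans ?_
        rw [Finset.card_univ]
    _ ≤ 2 ^ Fintype.card P * ∑ _q : P,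
        (2 * (2 ^ Fintype.card J * (Fintype.card J * K)) + 2 * K) * X := by
        gcongr with q _
        exact t3 q
    _ = _ := by
        rw [Finset.sum_const, Finset.card_univ, nsmul_eq_mul, cLo]; ring

/-- The operator of the system. -/
def Sys (b : J → E) (c : J → J → E → ℝ) (e : P → P → J → E → ℝ) (z : P → P → E → ℝ)
    (w : P → E → ℝ) (p : P) (x : E) : ℝ := Lc b c (w p) x + Lo b e z w p x

theorem Sys_cd (h : SY b k M c e z)
    (hw : ∀ p, ContDiffOn ℝ ((⊤ : ℕ∞) : WithTop ℕ∞) (w p) (Metric.ball 0 2)) (p : P) :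
    ContDiffOn ℝ ((⊤ : ℕ∞) : WithTop ℕ∞) (Sys b c e z w p) (Metric.ball 0 2) :=
  (cd_Lc Metric.isOpen_ball h.c.s (hw p)).add (Lo_cd h hw p)

/-- First derivatives. -/
theorem firstv (μ : Measure E) [μ.IsAddHaarMeasure] (b : J → E) {r R : ℝ} (hr : 0 < r)
    (hrR : r < R) (hR : R ≤ 2) (M : ℝ) (hM : 0 ≤ M) : ∃ C : ℝ≥0∞, C ≠ ⊤ ∧ ∀ c : J → J → E → ℝ,
    ∀ (e : P → P → J → E → ℝ) (z : P → P → E → ℝ), SY b 0 M c e z →
    ∀ w : P → E → ℝ, (∀ p, ContDiffOn ℝ ((⊤ : ℕ∞) : WithTop ℕ∞) (w p) (Metric.ball 0 2)) →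
    Hv μ b 1 (Metric.ball 0 r) w ≤ C * (Hv μ b 0 (Metric.ball 0 R) w +
      Hv μ b 0 (Metric.ball 0 R) (Sys b c e z w)) := by
  obtain ⟨ζ, hζ, hζc, hζR, hζ1⟩ := exists_cut (E := E) hr hrR
  obtain ⟨A, hA, hbd⟩ := Bd_cpt b 1 hζ hζc
  refine ⟨1 + Fintype.card P * Fintype.card J * ENNReal.ofReal (8 *
      ((A ^ 2 + Fintype.card J * (5 * A * Fintype.card J) ^ 2) + A ^ 2 *
      (1 + 2 * (Fintype.card P * Fintype.card J + 1) * M ^ 2 * Fintype.card P +
        M * Fintype.card P))), by finiteness, ?_⟩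
  intro c e z h w hw
  have h1 := E2v (P := P) (μ := μ) (b := b) (w := w) (F := Sys b c e z w) (M := M)
    Metric.isOpen_ball h.c.s h.c.e h.c.c2
    (fun i j => h.c.dc i j i) eps_N hζ hζc Metric.isOpen_ball hζR (Metric.ball_subset_ball hR) hA
    (fun x => hbd.1 x (mem_univ _)) (fun i x => (hbd.2 i) x (mem_univ _))
    Metric.isOpen_ball.measurableSet hζ1 hw (Sys_cd h hw) hM (by
      intro p x hx
      have e1 : Lc b c (w p) x - Sys b c e z w p x = -Lo b e z w p x := by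
        unfold Sys; ring
      rw [e1, abs_neg, Lo, Finset.mul_sum]
      refine (Finset.abs_sum_le_sum_abs _ _).trans (Finset.sum_le_sum fun q _ => ?_)
      refine (abs_add_le _ _).trans ?_
      rw [mul_add, Finset.mul_sum]
      refine add_le_add ((Finset.abs_sum_le_sum_abs _ _).trans
        (Finset.sum_le_sum fun l _ => ?_)) ?_
      · rw [abs_mul]
        exact mul_le_mul_of_nonneg_right (h.eb p q l x hx) (abs_nonneg _)
      · rw [abs_mul]
        exact mul_le_mul_of_nonneg_right (h.zb p q x hx) (abs_nonneg _))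
  have e2 : Hv μ b 1 (Metric.ball 0 r) w = Hv μ b 0 (Metric.ball 0 r) w +
      ∑ p, ∑ i, nn μ (Metric.ball 0 r) (D b i (w p)) := by
    simp only [Hv, Hs, Finset.sum_add_distrib]
  have e3 : ∑ p, (nn μ (Metric.ball 0 R) (w p) + nn μ (Metric.ball 0 R) (Sys b c e z w p)) =
      Hv μ b 0 (Metric.ball 0 R) w + Hv μ b 0 (Metric.ball 0 R) (Sys b c e z w) := by
    simp only [Hv, Hs, Finset.sum_add_distrib]
  rw [e3] at h1
  rw [e2, add_mul, one_mul]
  refine add_le_add ?_ h1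
  exact (Hv_mono (Metric.ball_subset_ball hrR.le) 0 w).trans le_self_add

/-- Interior estimate of all orders. -/
theorem allv (μ : Measure E) [μ.IsAddHaarMeasure] (b : J → E) (M : ℝ) (hM : 0 ≤ M) (k : ℕ) :
    ∀ {r R : ℝ}, 0 < r → r < R → R ≤ 2 → ∃ C : ℝ≥0∞, C ≠ ⊤ ∧ ∀ c : J → J → E → ℝ,
    ∀ (e : P → P → J → E → ℝ) (z : P → P → E → ℝ), SY b k M c e z →
    ∀ w : P → E → ℝ, (∀ p, ContDiffOn ℝ ((⊤ : ℕ∞) : WithTop ℕ∞) (w p) (Metric.ball 0 2)) →
    Hv μ b (k + 2) (Metric.ball 0 r) w ≤ C * (Hv μ b 0 (Metric.ball 0 R) w +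
      Hv μ b k (Metric.ball 0 R) (Sys b c e z w)) := by
  -- one step
  have step : ∀ (k : ℕ) {r R : ℝ}, 0 < r → r < R → R ≤ 2 →
      (∃ C : ℝ≥0∞, C ≠ ⊤ ∧ ∀ c : J → J → E → ℝ,
        ∀ (e : P → P → J → E → ℝ) (z : P → P → E → ℝ), SY b k M c e z →
        ∀ w : P → E → ℝ, (∀ p, ContDiffOn ℝ ((⊤ : ℕ∞) : WithTop ℕ∞) (w p) (Metric.ball 0 2)) →
        Hv μ b (k + 1) (Metric.ball 0 ((r + R) / 2)) w ≤ C * (Hv μ b 0 (Metric.ball 0 R) w +
          Hv μ b k (Metric.ball 0 R) (Sys b c e z w))) →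
      ∃ C : ℝ≥0∞, C ≠ ⊤ ∧ ∀ c : J → J → E → ℝ,
        ∀ (e : P → P → J → E → ℝ) (z : P → P → E → ℝ), SY b k M c e z →
        ∀ w : P → E → ℝ, (∀ p, ContDiffOn ℝ ((⊤ : ℕ∞) : WithTop ℕ∞) (w p) (Metric.ball 0 2)) →
        Hv μ b (k + 2) (Metric.ball 0 r) w ≤ C * (Hv μ b 0 (Metric.ball 0 R) w +
          Hv μ b k (Metric.ball 0 R) (Sys b c e z w)) := by
    intro k r R hr hrR hR ⟨C₁, hC₁, h₁⟩
    obtain ⟨C₂, hC₂, h₂⟩ := all μ b k (r := r) (R := (r + R) / 2) hr (by linarith) (by linarith)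
    refine ⟨Fintype.card P * (C₂ * (1 + (2 * (1 + cLo J P k M * C₁)))), ?_, ?_⟩
    · have := cLo_ne (J := J) (P := P) k M
      finiteness
    intro c e z h w hw
    have hO : IsOpen (Metric.ball (0 : E) 2) := Metric.isOpen_ball
    have hρ2 : (r + R) / 2 ≤ 2 := by linarith
    have hsub : Metric.ball (0 : E) ((r + R) / 2) ⊆ Metric.ball 0 2 := Metric.ball_subset_ball hρ2
    have hsub2 : Metric.ball (0 : E) ((r + R) / 2) ⊆ Metric.ball 0 R :=
      Metric.ball_subset_ball (by linarith)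
    set X := Hv μ b 0 (Metric.ball 0 R) w + Hv μ b k (Metric.ball 0 R) (Sys b c e z w) with hX
    have key : ∀ p, Hs μ b (k + 2) (Metric.ball 0 r) (w p) ≤
        C₂ * (1 + (2 * (1 + cLo J P k M * C₁))) * X := by
      intro p
      refine (h₂ c h.c (w p) (hw p)).trans ?_
      rw [mul_assoc]
      gcongr
      have f1 : nn μ (Metric.ball 0 ((r + R) / 2)) (w p) ≤ 1 * X := by
        rw [one_mul]
        exact ((nn_mono hsub2 (w p)).trans (Hs_le_Hv 0 w p)).trans le_self_add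
      have f2 : Hs μ b k (Metric.ball 0 ((r + R) / 2)) (Lc b c (w p)) ≤
          2 * (1 + cLo J P k M * C₁) * X := by
        have e1 : ∀ x ∈ Metric.ball (0 : E) ((r + R) / 2), Lc b c (w p) x =
            Sys b c e z w p x + (-1) * Lo b e z w p x := by
          intro x _; unfold Sys; ring
        have s1 : ContDiffOn ℝ ((⊤ : ℕ∞) : WithTop ℕ∞) (Lo b e z w p)
            (Metric.ball 0 ((r + R) / 2)) := (Lo_cd h hw p).mono hsub
        rw [Hs_congr Metric.isOpen_ball k e1]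
        refine (Hs_add Metric.isOpen_ball k ((Sys_cd h hw p).mono hsub)
          (contDiffOn_const.mul s1)).trans ?_
        have g1 : Hs μ b k (Metric.ball 0 ((r + R) / 2)) (Sys b c e z w p) ≤ 1 * X := by
          rw [one_mul]
          exact ((Hs_mono hsub2 k _).trans (Hs_le_Hv k (Sys b c e z w) p)).trans le_add_self
        have g3 : ∀ (j : ℕ) (f : E → ℝ), Hs μ b j (Metric.ball 0 ((r + R) / 2))
            (fun x => (-1) * f x) = Hs μ b j (Metric.ball 0 ((r + R) / 2)) f := by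
          intro j
          induction j with
          | zero => intro f; simp [Hs, nn]
          | succ j ih =>
            intro f
            have d1 : ∀ i, D b i (fun x => (-1) * f x) = fun x => (-1) * D b i f x := by
              intro i; funext x; simp [D, fderiv_fun_neg]
            have d2 : nn μ (Metric.ball 0 ((r + R) / 2)) (fun x => (-1) * f x) =
              nn μ (Metric.ball 0 ((r + R) / 2)) f := by simp [nn]
            simp only [Hs, d1, d2, ih]
        have g2 : Hs μ b k (Metric.ball 0 ((r + R) / 2)) (fun x => (-1) * Lo b e z w p x) ≤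
            cLo J P k M * C₁ * X := by
          rw [g3, mul_assoc]
          refine (Lo_le h hw hρ2 p).trans ?_
          gcongr
          exact h₁ c e z h w hw
        calc _ ≤ 2 * (1 * X + cLo J P k M * C₁ * X) := by gcongr
          _ = _ := by ring
      calc _ ≤ 1 * X + 2 * (1 + cLo J P k M * C₁) * X := add_le_add f1 f2
        _ = _ := by ring
    calc Hv μ b (k + 2) (Metric.ball 0 r) w ≤ ∑ _p : P,
          C₂ * (1 + (2 * (1 + cLo J P k M * C₁))) * X := Finset.sum_le_sum fun p _ => key p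
      _ = _ := by
          rw [Finset.sum_const, Finset.card_univ, nsmul_eq_mul]; ring
  induction k with
  | zero =>
    intro r R hr hrR hR
    refine step 0 hr hrR hR ?_
    obtain ⟨C, hC, h⟩ := firstv (P := P) μ b (r := (r + R) / 2) (R := R) (by linarith)
      (by linarith) hR M hM
    exact ⟨C, hC, h⟩
  | succ k ih =>
    intro r R hr hrR hR
    refine step (k + 1) hr hrR hR ?_
    obtain ⟨C, hC, h⟩ := ih (r := (r + R) / 2) (R := R) (by linarith) (by linarith) hR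
    refine ⟨C, hC, fun c e z hs w hw => (h c e z hs.down w hw).trans ?_⟩
    gcongr
    exact Hv_le (Nat.le_succ k) _

/-- The pointwise interior estimate for systems. -/
theorem corev (μ : Measure E) [μ.IsAddHaarMeasure] (b : Module.Basis J ℝ E) (L : ℕ) (M₀ : ℝ)
    (hM₀ : 0 ≤ M₀) :
    ∃ C : ℝ, 0 < C ∧ ∀ (c : J → J → E → ℝ) (e : P → P → J → E → ℝ) (z : P → P → E → ℝ),
    SY b (Fintype.card J + L) M₀ c e z →
    ∀ w : P → E → ℝ, (∀ p, ContDiffOn ℝ ((⊤ : ℕ∞) : WithTop ℕ∞) (w p) (Metric.ball 0 2)) →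
    (∀ p, IntegrableOn (fun x => w p x ^ 2) (Metric.ball 0 2) μ) → ∀ M : ℝ, 0 ≤ M →
    (∀ p, Bd b (Fintype.card J + L) (Metric.ball 0 2) M (Sys b c e z w p)) →
    ∀ f : E → ℝ, ContDiffOn ℝ ((⊤ : ℕ∞) : WithTop ℕ∞) f (Metric.ball 0 1) →
    Hs μ b (Fintype.card J) (Metric.ball 0 1) f ≤
      Hv μ b (Fintype.card J + L) (Metric.ball 0 1) w →
    |f 0| ≤ C * (√(∑ p, ∫ x in Metric.ball 0 2, w p x ^ 2 ∂μ) + M) := by
  obtain ⟨C₁, hC₁, h₁⟩ := allv (P := P) μ b M₀ hM₀ (Fintype.card J + L) (r := 1) (R := 2) one_pos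
    (by norm_num) le_rfl
  obtain ⟨C₂, hC₂, h₂⟩ := sob μ b (R := 1) one_pos
  set m : ℝ≥0∞ := μ (Metric.ball 0 2) with hm
  have hmt : m ≠ ⊤ := measure_ball_lt_top.ne
  set c2 : ℝ≥0∞ := Fintype.card P * cs2 J (Fintype.card J + L) with hc2
  have hc2t : c2 ≠ ⊤ := by
    have := cs2_ne (J := J) (Fintype.card J + L)
    finiteness
  set Dc : ℝ≥0∞ := C₂ * (C₁ * (1 + c2 * m)) with hDc
  have hDt : Dc ≠ ⊤ := by finiteness
  refine ⟨√(Dc.toReal) + 1, by positivity, ?_⟩
  intro c e z hs w hw hwi M hM hF f hf hfw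
  set S : ℝ := √(∑ p, ∫ x in Metric.ball 0 2, w p x ^ 2 ∂μ) with hS
  have hS0 : 0 ≤ S := Real.sqrt_nonneg _
  have hSS : ∑ p, ∫ x in Metric.ball 0 2, w p x ^ 2 ∂μ = S ^ 2 := by
    rw [hS, Real.sq_sqrt (Finset.sum_nonneg fun p _ => integral_nonneg fun _ => sq_nonneg _)]
  have e1 : Hv μ b 0 (Metric.ball 0 2) w = ENNReal.ofReal (S ^ 2) := by
    rw [← hSS, ENNReal.ofReal_sum_of_nonneg fun p _ => integral_nonneg fun _ => sq_nonneg _]
    exact Finset.sum_congr rfl fun p _ => nn_eq (hwi p)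
  have e2 : Hv μ b (Fintype.card J + L) (Metric.ball 0 2) (Sys b c e z w) ≤
      c2 * (ENNReal.ofReal (M ^ 2) * m) := by
    calc _ ≤ ∑ _p : P, cs2 J (Fintype.card J + L) * (ENNReal.ofReal (M ^ 2) * m) :=
          Finset.sum_le_sum fun p _ => Hs_bd measurableSet_ball _ (hF p)
      _ = _ := by
          rw [Finset.sum_const, Finset.card_univ, nsmul_eq_mul, hc2]; ring
  have e3 : ENNReal.ofReal (f 0 ^ 2) ≤ ENNReal.ofReal (Dc.toReal * (S ^ 2 + M ^ 2)) := by
    calc ENNReal.ofReal (f 0 ^ 2) ≤ C₂ * Hs μ b (Fintype.card J) (Metric.ball 0 1) f := h₂ f hf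
      _ ≤ C₂ * Hv μ b (Fintype.card J + L + 2) (Metric.ball 0 1) w := by
          gcongr
          exact hfw.trans (Hv_le (by omega) w)
      _ ≤ C₂ * (C₁ * (Hv μ b 0 (Metric.ball 0 2) w +
          Hv μ b (Fintype.card J + L) (Metric.ball 0 2) (Sys b c e z w))) := by
          gcongr
          exact h₁ c e z hs w hw
      _ ≤ C₂ * (C₁ * (ENNReal.ofReal (S ^ 2) + c2 * (ENNReal.ofReal (M ^ 2) * m))) := by
          rw [e1]
          gcongr
      _ ≤ C₂ * (C₁ * ((ENNReal.ofReal (S ^ 2) + ENNReal.ofReal (M ^ 2)) +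
          c2 * ((ENNReal.ofReal (S ^ 2) + ENNReal.ofReal (M ^ 2)) * m))) := by
          gcongr
          · exact le_self_add
          · exact le_add_self
      _ = Dc * (ENNReal.ofReal (S ^ 2) + ENNReal.ofReal (M ^ 2)) := by
          rw [hDc]; ring
      _ = ENNReal.ofReal (Dc.toReal * (S ^ 2 + M ^ 2)) := by
          rw [ENNReal.ofReal_mul ENNReal.toReal_nonneg, ENNReal.ofReal_toReal hDt,
            ENNReal.ofReal_add (sq_nonneg _) (sq_nonneg _)]
  have e4 : f 0 ^ 2 ≤ Dc.toReal * (S ^ 2 + M ^ 2) :=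
    (ENNReal.ofReal_le_ofReal_iff (by positivity)).1 e3
  have e5 : f 0 ^ 2 ≤ ((√(Dc.toReal) + 1) * (S + M)) ^ 2 := by
    have h1 : Dc.toReal ≤ (√(Dc.toReal) + 1) ^ 2 := by
      have := Real.sq_sqrt (ENNReal.toReal_nonneg (a := Dc))
      nlinarith [Real.sqrt_nonneg Dc.toReal]
    have h2 : S ^ 2 + M ^ 2 ≤ (S + M) ^ 2 := by nlinarith
    rw [mul_pow]
    exact e4.trans (mul_le_mul h1 h2 (by positivity) (by positivity))
  exact abs_le_of_sq_le_sq e5 (by positivity)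

end Vale.Agent.P088.HY.EI
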