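import Vale.Agent.P088.R2.H901.VecB
import Vale.Agent.P088.R2.H901.Inp
import Vale.Agent.P088.R2.H349.J.Spec

/-!
# P088: row INPG, the interior estimate for systems on pairs at the scale `1/λ`
-/

open MeasureTheory Set Function
open scoped ContDiff ENNReal NNReal Matrix

set_option linter.unusedSectionVars false
set_option linter.unusedVariables false

noncomputable section

namespace Vale.Agent.P088.HY

open Vale.Agent.P088.LR

namespace EI

/-- Iterated derivatives after a change of scale. -/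
theorem word_scale {E : Type} [NormedAddCommGroup E] [NormedSpace ℝ E] [FiniteDimensional ℝ E]
    [MeasurableSpace E] [BorelSpace E] {B B' : Set E}
    (hB : IsOpen B) (hB' : IsOpen B') {t : ℝ} {a : E} (hBB : ∀ z ∈ B', a + t • z ∈ B)
    {w : E → ℝ} (hw : ContDiffOn ℝ ((⊤ : ℕ∞) : WithTop ℕ∞) w B) (l : ℕ) : ∀ (v : Fin l → E),
    ∀ z ∈ B', iteratedFDeriv ℝ l (fun z => w (a + t • z)) z v =
      t ^ l * iteratedFDeriv ℝ l w (a + t • z) v := by
  have hφ : ContDiff ℝ ((⊤ : ℕ∞) : WithTop ℕ∞) (fun z : E => a + t • z) := by fun_prop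
  have hw' : ContDiffOn ℝ ((⊤ : ℕ∞) : WithTop ℕ∞) (fun z => w (a + t • z)) B' :=
    hw.comp hφ.contDiffOn fun z hz => hBB z hz
  have wd : ∀ {f : E → ℝ} {O : Set E}, IsOpen O → ContDiffOn ℝ ((⊤ : ℕ∞) : WithTop ℕ∞) f O →
      ∀ (l : ℕ) (v : Fin (l + 1) → E), ∀ x ∈ O, iteratedFDeriv ℝ (l + 1) f x v =
        fderiv ℝ (fun y => iteratedFDeriv ℝ l f y (Fin.tail v)) x (v 0) := by
    intro f O hO hf l v x hx
    have hd : DifferentiableAt ℝ (iteratedFDeriv ℝ l f) x :=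
      ((hf.contDiffAt (hO.mem_nhds hx)).iteratedFDeriv_right (m := ((⊤ : ℕ∞) : WithTop ℕ∞)) (i := l)
        (by exact_mod_cast le_top)).differentiableAt (by simp)
    rw [iteratedFDeriv_succ_apply_left]
    have h4 := ((ContinuousMultilinearMap.apply ℝ (fun _ : Fin l => E) ℝ
      (Fin.tail v)).hasFDerivAt.comp x hd.hasFDerivAt).fderiv
    have h5 : (fun y => iteratedFDeriv ℝ l f y (Fin.tail v)) =
      (⇑(ContinuousMultilinearMap.apply ℝ (fun _ : Fin l => E) ℝ (Fin.tail v))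
        ∘ iteratedFDeriv ℝ l f) := rfl
    rw [h5, h4]
    simp only [ContinuousLinearMap.comp_apply, ContinuousMultilinearMap.apply_apply]
  induction l with
  | zero => intro v z hz; simp
  | succ l ih =>
    intro v z hz
    have hx := hBB z hz
    rw [wd hB' hw' l v z hz, wd hB hw l v _ hx]
    have e1 : (fun y => iteratedFDeriv ℝ l (fun z => w (a + t • z)) y (Fin.tail v)) =ᶠ[nhds z]
        fun y => t ^ l * iteratedFDeriv ℝ l w (a + t • y) (Fin.tail v) :=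
      Filter.eventuallyEq_of_mem (hB'.mem_nhds hz) fun y hy => ih (Fin.tail v) y hy
    rw [e1.fderiv_eq]
    have hd : DifferentiableAt ℝ (fun x => iteratedFDeriv ℝ l w x (Fin.tail v)) (a + t • z) :=
      (((cd_word (b := fun _ : Unit => (0 : E)) hB hw l (Fin.tail v))).contDiffAt
        (hB.mem_nhds hx)).differentiableAt (by simp)
    have ha : HasFDerivAt (fun z : E => a + t • z) (t • ContinuousLinearMap.id ℝ E) z :=
      ((hasFDerivAt_id z).const_smul t).const_add a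
    have h4 := (hd.hasFDerivAt.comp z ha).const_mul (t ^ l)
    have h5 : (fun y => t ^ l * iteratedFDeriv ℝ l w (a + t • y) (Fin.tail v)) =
        fun y => t ^ l * ((fun x => iteratedFDeriv ℝ l w x (Fin.tail v)) ∘
          fun z : E => a + t • z) y := rfl
    rw [h5, h4.fderiv]
    simp only [smul_apply, ContinuousLinearMap.comp_apply,
      ContinuousLinearMap.id_apply, map_smul, smul_eq_mul]
    ring

variable {n m : ℕ}

theorem Bd_add {J E : Type} [NormedAddCommGroup E] [NormedSpace ℝ E] {b : J → E} {B : Set E}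
    (hB : IsOpen B) {A A' : ℝ} : ∀ {k : ℕ} {f g : E → ℝ},
    ContDiffOn ℝ ((⊤ : ℕ∞) : WithTop ℕ∞) f B → ContDiffOn ℝ ((⊤ : ℕ∞) : WithTop ℕ∞) g B →
    Bd b k B A f → Bd b k B A' g → Bd b k B (A + A') (fun x => f x + g x)
  | 0, _, _, _, _, h, h' => fun x hx => (abs_add_le _ _).trans (add_le_add (h x hx) (h' x hx))
  | _ + 1, _, _, hf, hg, h, h' => ⟨fun x hx => (abs_add_le _ _).trans
      (add_le_add (h.1 x hx) (h'.1 x hx)), fun i =>
      Bd.congr hB (fun x hx => (D_add (da hB hf hx) (da hB hg hx) i).symm)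
        (Bd_add hB (cd_D hB hf i) (cd_D hB hg i) (h.2 i) (h'.2 i))⟩

/-- The second order coefficients of `L_x + L_y` after the change of scale, general centre. -/
def cc3 (s₁ s₂ : MF n) (z₀ : VV n) (t : ℝ) : Fin n ⊕ Fin n → Fin n ⊕ Fin n → VV n → ℝ
  | Sum.inl i, Sum.inl j, z => s₁ (z₀.1 + t • z.1) i j
  | Sum.inr i, Sum.inr j, z => s₂ (z₀.2 + t • z.2) i j
  | _, _, _ => 0

theorem cc3_CO {s₁ s₂ : MF n} (h₁ : SmM s₁) (h₂ : SmM s₂) {K : ℕ}
    (c₁ : ∀ i j, Cl K (1 / (2 * Fintype.card (Fin n ⊕ Fin n) + 2))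
      (fun x => s₁ x i j - (1 : Matrix (Fin n) (Fin n) ℝ) i j))
    (c₂ : ∀ i j, Cl K (1 / (2 * Fintype.card (Fin n ⊕ Fin n) + 2))
      (fun x => s₂ x i j - (1 : Matrix (Fin n) (Fin n) ℝ) i j))
    (z₀ : VV n) {t : ℝ} (ht : |t| ≤ 1) : CO (bp n) K (cc3 s₁ s₂ z₀ t) := by
  have a₁ := cc2_CO h₁ h₂ c₁ c₂ z₀.1 ht
  have a₂ := cc2_CO h₁ h₂ c₁ c₂ z₀.2 ht
  constructor
  · rintro (i | i) (j | j)
    · exact a₁.s (Sum.inl i) (Sum.inl j)
    · exact a₁.s (Sum.inl i) (Sum.inr j)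
    · exact a₁.s (Sum.inr i) (Sum.inl j)
    · exact a₂.s (Sum.inr i) (Sum.inr j)
  · rintro (i | i) (j | j)
    · exact a₁.h (Sum.inl i) (Sum.inl j)
    · exact a₁.h (Sum.inl i) (Sum.inr j)
    · exact a₁.h (Sum.inr i) (Sum.inl j)
    · exact a₂.h (Sum.inr i) (Sum.inr j)

/-- The first order coefficients after the change of scale. -/
def e3 (e₁ e₂ : Co n m) (z₀ : VV n) (t : ℝ) (p q : Fin m) : Fin n ⊕ Fin n → VV n → ℝ
  | Sum.inl l, z => t * e₁.b l (z₀.1 + t • z.1) p q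
  | Sum.inr l, z => t * e₂.b l (z₀.2 + t • z.2) p q

/-- The zeroth order coefficients after the change of scale. -/
def f3 (e₁ e₂ : Co n m) (z₀ : VV n) (t : ℝ) (p q : Fin m) (z : VV n) : ℝ :=
  t ^ 2 * e₁.c (z₀.1 + t • z.1) p q + t ^ 2 * e₂.c (z₀.2 + t • z.2) p q

theorem Bd_Cl {k : ℕ} {M : ℝ} (hM : 0 ≤ M) {g : V n → ℝ}
    (hg : ContDiff ℝ ((⊤ : ℕ∞) : WithTop ℕ∞) g) (h : Cl k M g) :
    Bd (Pi.basisFun ℝ (Fin n)) k univ M g := by
  have := Bd_of (b := Pi.basisFun ℝ (Fin n)) isOpen_univ le_rfl norm_bF hM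
    hg.contDiffOn k (fun l hl x _ => h l hl x)
  simpa only [one_pow, mul_one] using this

theorem Bd.toCl {k l : ℕ} {M : ℝ} {g : V n → ℝ} (h : Cl k M g) (hl : l ≤ k) : Cl l M g :=
  fun j hj x => h j (hj.trans hl) x

theorem SY3 {s₁ s₂ : MF n} {e₁ e₂ : Co n m} (h₁ : SmM s₁) (h₂ : SmM s₂) {k : ℕ} {M : ℝ}
    (hM : 0 < M)
    (c₁ : ∀ i j, Cl (k + 1) (1 / (2 * Fintype.card (Fin n ⊕ Fin n) + 2))
      (fun x => s₁ x i j - (1 : Matrix (Fin n) (Fin n) ℝ) i j))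
    (c₂ : ∀ i j, Cl (k + 1) (1 / (2 * Fintype.card (Fin n ⊕ Fin n) + 2))
      (fun x => s₂ x i j - (1 : Matrix (Fin n) (Fin n) ℝ) i j))
    (g₁ : CoOk (k + 1) M M e₁) (g₂ : CoOk (k + 1) M M e₂)
    (z₀ : VV n) {t : ℝ} (ht0 : 0 < t) (ht : |t| ≤ 1) :
    SY (bp n) k (2 * M) (cc3 s₁ s₂ z₀ t) (e3 e₁ e₂ z₀ t) (f3 e₁ e₂ z₀ t) := by
  have t2 : |t ^ 2| ≤ 1 := by rw [abs_pow]; exact pow_le_one₀ (abs_nonneg _) ht
  have hk : k ≤ k + 1 := Nat.le_succ k
  have u1 : ∀ (g : V n → ℝ), ContDiff ℝ ((⊤ : ℕ∞) : WithTop ℕ∞) g →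
      ContDiffOn ℝ ((⊤ : ℕ∞) : WithTop ℕ∞) (fun z : VV n => g (z₀.1 + t • z.1))
        (Metric.ball 0 2) := fun g hg =>
    (hg.comp (by fun_prop : ContDiff ℝ ((⊤ : ℕ∞) : WithTop ℕ∞) fun z : VV n =>
      z₀.1 + t • z.1)).contDiffOn
  have u2 : ∀ (g : V n → ℝ), ContDiff ℝ ((⊤ : ℕ∞) : WithTop ℕ∞) g →
      ContDiffOn ℝ ((⊤ : ℕ∞) : WithTop ℕ∞) (fun z : VV n => g (z₀.2 + t • z.2))
        (Metric.ball 0 2) := fun g hg =>
    (hg.comp (by fun_prop : ContDiff ℝ ((⊤ : ℕ∞) : WithTop ℕ∞) fun z : VV n =>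
      z₀.2 + t • z.2)).contDiffOn
  refine ⟨cc3_CO h₁ h₂ c₁ c₂ z₀ ht, ?_, ?_, ?_, ?_⟩
  · rintro p q (l | l)
    · exact contDiffOn_const.mul (u1 _ (g₁.sb l p q))
    · exact contDiffOn_const.mul (u2 _ (g₂.sb l p q))
  · intro p q
    exact (contDiffOn_const.mul (u1 _ (g₁.sc p q))).add (contDiffOn_const.mul (u2 _ (g₂.sc p q)))
  · rintro p q (l | l)
    · exact ((Bd_fst ht hM.le z₀.1 k (g₁.sb l p q) (Bd_Cl hM.le (g₁.sb l p q)
        (Bd.toCl (g₁.bb l p q) hk)) t ht).mono (by linarith)).mono_set (subset_univ _)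
    · exact ((Bd_snd ht hM.le z₀.2 k (g₂.sb l p q) (Bd_Cl hM.le (g₂.sb l p q)
        (Bd.toCl (g₂.bb l p q) hk)) t ht).mono (by linarith)).mono_set (subset_univ _)
  · intro p q
    rw [two_mul]
    refine Bd_add Metric.isOpen_ball (contDiffOn_const.mul (u1 _ (g₁.sc p q)))
      (contDiffOn_const.mul (u2 _ (g₂.sc p q))) ?_ ?_
    · exact (Bd_fst ht hM.le z₀.1 k (g₁.sc p q) (Bd_Cl hM.le (g₁.sc p q)
        (Bd.toCl (g₁.bc p q) hk)) (t ^ 2) t2).mono_set (subset_univ _)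
    · exact (Bd_snd ht hM.le z₀.2 k (g₂.sc p q) (Bd_Cl hM.le (g₂.sc p q)
        (Bd.toCl (g₂.bc p q) hk)) (t ^ 2) t2).mono_set (subset_univ _)

end EI

open EI

theorem rowINPG : RowINPG := by
  intro n m
  have hHaar := haar_VV n
  refine ⟨Fintype.card (Fin n ⊕ Fin n) + 2 + 1, 1 / (2 * Fintype.card (Fin n ⊕ Fin n) + 2),
    by positivity, ?_⟩
  intro M₀ hM₀
  obtain ⟨C, hC, h⟩ := EI.corev (P := Fin m) (volume : Measure (VV n)) (bp n) 2 (2 * M₀)
    (by positivity)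
  obtain ⟨κ0, hκ0, hm0⟩ := mult_norm (bp n) 0
  obtain ⟨κ1, hκ1, hm1⟩ := mult_norm (bp n) 1
  obtain ⟨κ2, hκ2, hm2⟩ := mult_norm (bp n) 2
  refine ⟨(κ0 + κ1 + κ2) * C, by positivity, ?_⟩
  intro s₁ s₂ e₁ e₂ h₁ h₂ c₁ c₂ g₁ g₂ z₀ lam hlam w F hw hF hL hwi M hM p l hl
  have hl0 : 0 < lam := by linarith
  set t : ℝ := lam⁻¹ with ht
  have ht0 : 0 < t := by rw [ht]; positivity
  have ht1 : |t| ≤ 1 := by
    rw [abs_of_pos ht0, ht]; exact inv_le_one_of_one_le₀ hlam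
  have htl : t * lam = 1 := inv_mul_cancel₀ hl0.ne'
  set B : Set (VV n) := Metric.ball z₀ (2 / lam) with hB
  have hBo : IsOpen B := Metric.isOpen_ball
  set O : Set (VV n) := Metric.ball 0 2 with hO
  have hOo : IsOpen O := Metric.isOpen_ball
  have hmem : ∀ z : VV n, z₀ + t • z ∈ B ↔ z ∈ O := by
    intro z
    rw [hB, hO, Metric.mem_ball, Metric.mem_ball, dist_eq_norm, dist_eq_norm, add_sub_cancel_left,
      sub_zero, norm_smul, Real.norm_of_nonneg ht0.le, ht, inv_mul_eq_div,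
      div_lt_div_iff_of_pos_right hl0]
  have hM0 : 0 ≤ M := by
    have := (norm_nonneg _).trans (hM p 0 (Nat.zero_le _) z₀ (Metric.mem_ball_self (by positivity)))
    simpa using this
  set w' : Fin m → VV n → ℝ := fun q z => w q (z₀ + t • z) with hw'
  have hφ : ContDiff ℝ ((⊤ : ℕ∞) : WithTop ℕ∞) (fun z : VV n => z₀ + t • z) := by fun_prop
  have hw's : ∀ q, ContDiffOn ℝ ((⊤ : ℕ∞) : WithTop ℕ∞) (w' q) O := fun q =>
    (hw q).comp hφ.contDiffOn fun z hz => (hmem z).2 hz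
  -- derivatives
  have d1 : ∀ (a : Fin m) (q : Fin n ⊕ Fin n), ∀ z ∈ O,
      D (bp n) q (w' a) z = t * D (bp n) q (w a) (z₀ + t • z) :=
    fun a q z hz => D_scale (da hBo (hw a) ((hmem z).2 hz)) q
  have d2 : ∀ (a : Fin m) (q r : Fin n ⊕ Fin n), ∀ z ∈ O, D (bp n) q (D (bp n) r (w' a)) z =
      t ^ 2 * D (bp n) q (D (bp n) r (w a)) (z₀ + t • z) := by
    intro a q r z hz
    have hz' := (hmem z).2 hz
    have hdd : DifferentiableAt ℝ (fun z => D (bp n) r (w a) (z₀ + t • z)) z :=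
      da hOo ((cd_D (b := bp n) hBo (hw a) r).comp hφ.contDiffOn (fun z hz => (hmem z).2 hz)) hz
    rw [D_congr hOo (d1 a r) hz q, D_mul (differentiableAt_const _) hdd, D_const, zero_mul,
      add_zero, D_scale (b := bp n) (da hBo (cd_D (b := bp n) hBo (hw a) r) hz') q]
    ring
  -- the equation
  have eL : ∀ a, ∀ z ∈ O, t ^ 2 * F a (z₀ + t • z) =
      Sys (bp n) (cc3 s₁ s₂ z₀ t) (e3 e₁ e₂ z₀ t) (f3 e₁ e₂ z₀ t) w' a z := by
    intro a z hz
    have hz' := (hmem z).2 hz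
    rw [← hL _ hz' a]
    unfold Sys Lc Lo
    simp only [Fintype.sum_sum_type, d1 _ _ z hz, d2 _ _ _ z hz, cc3, e3, f3, zero_mul,
      Finset.sum_const_zero, add_zero, zero_add, D_dx, D_dy]
    unfold LxG LyG Lx Ly
    simp only [Prod.fst_add, Prod.snd_add, Prod.smul_fst, Prod.smul_snd, mul_add, Finset.mul_sum,
      Finset.sum_add_distrib, hw']
    have q1 : ∀ i j, t ^ 2 * (s₁ (z₀.1 + t • z.1) i j * dx i (dx j (w a)) (z₀ + t • z)) =
      s₁ (z₀.1 + t • z.1) i j * (t ^ 2 * dx i (dx j (w a)) (z₀ + t • z)) := fun i j => by ring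
    have q2 : ∀ i j, t ^ 2 * (s₂ (z₀.2 + t • z.2) i j * dy i (dy j (w a)) (z₀ + t • z)) =
      s₂ (z₀.2 + t • z.2) i j * (t ^ 2 * dy i (dy j (w a)) (z₀ + t • z)) := fun i j => by ring
    have q3 : ∀ (q : Fin m) (l : Fin n), t ^ 2 * (e₁.b l (z₀.1 + t • z.1) a q *
      dx l (w q) (z₀ + t • z)) = t * e₁.b l (z₀.1 + t • z.1) a q * (t * dx l (w q) (z₀ + t • z)) :=
      fun q l => by ring
    have q4 : ∀ (q : Fin m) (l : Fin n), t ^ 2 * (e₂.b l (z₀.2 + t • z.2) a q *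
      dy l (w q) (z₀ + t • z)) = t * e₂.b l (z₀.2 + t • z.2) a q * (t * dy l (w q) (z₀ + t • z)) :=
      fun q l => by ring
    have q5 : ∀ q : Fin m, t ^ 2 * (e₁.c (z₀.1 + t • z.1) a q * w q (z₀ + t • z)) =
      t ^ 2 * e₁.c (z₀.1 + t • z.1) a q * w q (z₀ + t • z) := fun q => by ring
    have q6 : ∀ q : Fin m, t ^ 2 * (e₂.c (z₀.2 + t • z.2) a q * w q (z₀ + t • z)) =
      t ^ 2 * e₂.c (z₀.2 + t • z.2) a q * w q (z₀ + t • z) := fun q => by ring
    simp only [q1, q2, q3, q4, q5, q6, add_mul, Finset.sum_add_distrib]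
    ring
  have hBF : ∀ a, Bd (bp n) (Fintype.card (Fin n ⊕ Fin n) + 2) O (t ^ 2 * M)
      (Sys (bp n) (cc3 s₁ s₂ z₀ t) (e3 e₁ e₂ z₀ t) (f3 e₁ e₂ z₀ t) w' a) := by
    intro a
    have := Bd_scale (b := bp n) hBo hOo bp_norm hM0 hl0 ht (a := z₀)
      (fun z hz => (hmem z).2 hz) (hF a) (s := t ^ 2) (by positivity)
      (Fintype.card (Fin n ⊕ Fin n) + 2) 0 Fin.elim0 (fun j => j.elim0)
      (fun l hl x hx => hM a l (by omega) x hx)
    refine this.congr hOo fun z hz => ?_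
    rw [← eL a z hz]
    simp
  -- integrals
  have hind : ∀ q, ∀ z, O.indicator (fun z => w' q z ^ 2) z =
      (B.indicator fun y => w q y ^ 2) (z₀ + t • z) := by
    intro q z
    by_cases hz : z ∈ O
    · rw [indicator_of_mem hz, indicator_of_mem ((hmem z).2 hz)]
    · rw [indicator_of_notMem hz, indicator_of_notMem (fun h => hz ((hmem z).1 h))]
  have hgi : ∀ q, Integrable (B.indicator fun y => w q y ^ 2) := fun q =>
    (integrable_indicator_iff hBo.measurableSet).2 (hwi q)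
  have hw'i : ∀ q, IntegrableOn (fun z => w' q z ^ 2) O := by
    intro q
    rw [← integrable_indicator_iff hOo.measurableSet]
    have h1 := ((hgi q).comp_add_left z₀).comp_smul ht0.ne'
    refine h1.congr (ae_of_all _ fun z => ?_)
    exact (hind q z).symm
  have hfr : Module.finrank ℝ (VV n) = 2 * n := by
    rw [Module.finrank_prod, Module.finrank_fin_fun]; ring
  have hint : ∀ q, ∫ z in O, w' q z ^ 2 = (lam ^ n) ^ 2 * ∫ z in B, w q z ^ 2 := by
    intro q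
    rw [← integral_indicator hOo.measurableSet, ← integral_indicator hBo.measurableSet]
    have e1 : ∫ z, O.indicator (fun z => w' q z ^ 2) z =
        ∫ z, (fun y => (B.indicator fun y => w q y ^ 2) (z₀ + y)) (t • z) :=
      integral_congr_ae (ae_of_all _ (hind q))
    rw [e1, Measure.integral_comp_smul volume
      (fun y => (B.indicator fun y => w q y ^ 2) (z₀ + y)) t, integral_add_left_eq_self, hfr,
      smul_eq_mul]
    congr 1
    rw [abs_of_pos (by positivity), ht, inv_pow, inv_inv, mul_comm 2 n, pow_mul]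
  set S : ℝ := √(∑ q, ∫ z in B, w q z ^ 2) with hS
  have hS0 : 0 ≤ S := Real.sqrt_nonneg _
  have hsq : √(∑ q, ∫ z in O, w' q z ^ 2) = lam ^ n * S := by
    simp only [hint]
    rw [← Finset.mul_sum, Real.sqrt_mul (by positivity), Real.sqrt_sq (by positivity)]
  -- the estimate
  have hsub : Metric.ball (0 : VV n) 1 ⊆ O := Metric.ball_subset_ball (by norm_num)
  have hSY := SY3 (m := m) (k := Fintype.card (Fin n ⊕ Fin n) + 2) h₁ h₂ hM₀ c₁ c₂ g₁ g₂ z₀ ht0 ht1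
  have key : ∀ v : Fin l → (Fin n ⊕ Fin n),
      |iteratedFDeriv ℝ l (w p) z₀ (bp n ∘ v)| ≤ lam ^ l * (C * (lam ^ n * S + t ^ 2 * M)) := by
    intro v
    have k1 := h _ _ _ hSY w' hw's hw'i (t ^ 2 * M) (by positivity) hBF
      (fun y => iteratedFDeriv ℝ l (w' p) y (bp n ∘ v))
      (cd_word (b := bp n) Metric.isOpen_ball ((hw's p).mono hsub) l _)
      (((Hs_word (μ := volume) (b := bp n) Metric.isOpen_ball ((hw's p).mono hsub) l
        (Fintype.card (Fin n ⊕ Fin n)) v).trans (Hs_le (by omega) _)).trans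
        (Hs_le_Hv (Fintype.card (Fin n ⊕ Fin n) + 2) w' p))
    rw [hsq] at k1
    have k2 := word_scale hBo hOo (fun z hz => (hmem z).2 hz) (hw p) l (bp n ∘ v) 0
      (Metric.mem_ball_self (by norm_num))
    rw [smul_zero, add_zero] at k2
    have k3 : iteratedFDeriv ℝ l (w p) z₀ (bp n ∘ v) =
        lam ^ l * iteratedFDeriv ℝ l (w' p) 0 (bp n ∘ v) := by
      rw [hw']
      simp only
      rw [k2, ← mul_assoc, ← mul_pow, mul_comm lam t, htl, one_pow, one_mul]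
    rw [k3, abs_mul, abs_of_pos (by positivity)]
    exact mul_le_mul_of_nonneg_left k1 (by positivity)
  have hR : 0 ≤ lam ^ l * (C * (lam ^ n * S + t ^ 2 * M)) := by positivity
  have hκ : ‖iteratedFDeriv ℝ l (w p) z₀‖ ≤
      (κ0 + κ1 + κ2) * (lam ^ l * (C * (lam ^ n * S + t ^ 2 * M))) := by
    interval_cases l
    · refine (hm0 _ _ hR key).trans (mul_le_mul_of_nonneg_right (by linarith) hR)
    · refine (hm1 _ _ hR key).trans (mul_le_mul_of_nonneg_right (by linarith) hR)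
    · refine (hm2 _ _ hR key).trans (mul_le_mul_of_nonneg_right (by linarith) hR)
  refine hκ.trans (le_of_eq ?_)
  have : M * lam ^ l / lam ^ 2 = M * lam ^ l * t ^ 2 := by
    rw [ht, inv_pow, div_eq_mul_inv]
  rw [this, pow_add]
  ring

end Vale.Agent.P088.HY
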