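import Vale.Agent.P088.R2.H901.Dic
import Vale.Agent.P088.R2.H551.V.Spec
import Vale.Agent.P088.R2.H16.Fub

/-!
# P088: row WD, the solution of the overdetermined system on the diagonal
-/

open MeasureTheory Set
open scoped ContDiff Matrix

set_option linter.unusedSectionVars false
set_option linter.unusedVariables false

noncomputable section

namespace Vale.Agent.P088.PJ.H901

open Vale.Agent.P088.LR Vale.Agent.P088.LR.U Vale.Agent.P088.LR.H158
open Vale.Agent.P088.HY (VV Bs Bn Un DB Co CoOk Com LxG LyG Lx Ly dx dy)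

variable {n N : ℕ}

theorem nq_nn (A : Matrix (Fin N) (Fin N) ℂ) : 0 ≤ nq A :=
  Finset.sum_nonneg fun _ _ => Finset.sum_nonneg fun _ _ => sq_nonneg _

/-- `vec K` at a point. -/
theorem nq_le {K : KC n N} {z : VV n} {B : ℝ} (h : ∀ p, |vec K p z| ≤ B) :
    nq (K z) ≤ mm N * B ^ 2 := by
  rw [← vec_sq]
  calc ∑ p, vec K p z ^ 2 ≤ ∑ _p : Fin (mm N), B ^ 2 := by
        refine Finset.sum_le_sum fun p _ => ?_
        rw [← sq_abs]
        exact pow_le_pow_left₀ (abs_nonneg _) (h p) 2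
    _ = _ := by simp

theorem it1 {f : VV n → ℝ} {z : VV n} (v : VV n) (hv : ‖v‖ ≤ 1) :
    |fderiv ℝ f z v| ≤ ‖iteratedFDeriv ℝ 1 f z‖ := by
  have h := (iteratedFDeriv ℝ 1 f z).le_opNorm ![v]
  rw [iteratedFDeriv_one_apply] at h
  simp only [Matrix.cons_val_zero, Real.norm_eq_abs] at h
  refine h.trans ?_
  rw [Fin.prod_univ_one]
  exact mul_le_of_le_one_right (norm_nonneg _) hv

theorem it2 {O : Set (VV n)} (hO : IsOpen O) {f : VV n → ℝ} (hf : ContDiffOn ℝ ∞ f O) {z : VV n}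
    (hz : z ∈ O) (v w : VV n) (hv : ‖v‖ ≤ 1) (hw : ‖w‖ ≤ 1) :
    |fderiv ℝ (fun z => fderiv ℝ f z w) z v| ≤ ‖iteratedFDeriv ℝ 2 f z‖ := by
  have h := (iteratedFDeriv ℝ 2 f z).le_opNorm ![v, w]
  rw [iteratedFDeriv_two_apply] at h
  have hd : DifferentiableAt ℝ (fderiv ℝ f) z :=
    ((hf.contDiffAt (hO.mem_nhds hz)).fderiv_right (m := ∞) (by simp)).differentiableAt (by simp)
  have e : fderiv ℝ (fun z => fderiv ℝ f z w) z v = fderiv ℝ (fderiv ℝ f) z v w := by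
    rw [fderiv_clm_apply hd (differentiableAt_const _)]
    simp
  simp only [Matrix.cons_val_zero, Matrix.cons_val_one, Real.norm_eq_abs] at h
  rw [e]
  refine h.trans ?_
  rw [Fin.prod_univ_two]
  simp only [Matrix.cons_val_zero, Matrix.cons_val_one]
  exact mul_le_of_le_one_right (norm_nonneg _) (mul_le_one₀ hv (norm_nonneg _) hw)

theorem nx (i : Fin n) : ‖((Pi.single i 1, 0) : VV n)‖ ≤ 1 := by
  simp [Prod.norm_def, Pi.norm_single]

theorem ny (i : Fin n) : ‖((0, Pi.single i 1) : VV n)‖ ≤ 1 := by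
  simp [Prod.norm_def, Pi.norm_single]

theorem bl0_cpt : IsCompact (bl0 n) := by
  have h1 : IsClosed (bl0 n) := isClosed_le HY.H16.continuous_sq continuous_const
  refine Metric.isCompact_of_isClosed_isBounded h1 ?_
  refine (Metric.isBounded_closedBall (x := (0 : V n)) (r := 1)).subset ?_
  intro x hx
  rw [mem_closedBall_zero_iff, pi_norm_le_iff_of_nonneg zero_le_one]
  intro i
  have h2 : x i ^ 2 ≤ HY.sq x := Finset.single_le_sum (f := fun j => x j ^ 2)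
    (fun _ _ => sq_nonneg _) (Finset.mem_univ i)
  have h3 : HY.sq x ≤ 1 / 4 := hx
  rw [Real.norm_eq_abs, abs_le_one_iff_mul_self_le_one]
  nlinarith

theorem sq_le_norm (x : V n) : HY.sq x ≤ n * ‖x‖ ^ 2 := by
  unfold HY.sq
  calc ∑ j, x j ^ 2 ≤ ∑ _j : Fin n, ‖x‖ ^ 2 := by
        refine Finset.sum_le_sum fun j _ => ?_
        rw [← sq_abs]
        exact pow_le_pow_left₀ (abs_nonneg _) (norm_le_pi_norm x j) 2
    _ = _ := by simp

theorem sq_add_le (x y : V n) : HY.sq (x + y) ≤ 2 * HY.sq x + 2 * HY.sq y := by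
  unfold HY.sq
  rw [Finset.mul_sum, Finset.mul_sum, ← Finset.sum_add_distrib]
  refine Finset.sum_le_sum fun j _ => ?_
  simp only [Pi.add_apply]
  nlinarith [sq_nonneg (x j - y j)]

/-- The near diagonal set. -/
theorem ball_sub {p : V n} (hp : p ∈ bl0 n) {τ : ℝ} (hτ : 32 * n + 1 ≤ τ) :
    Metric.ball (p, p) (2 / √τ) ⊆ {z : VV n | z ∈ Un n ∧ τ * HY.sq (z.1 - z.2) ≤ 16 * n} := by
  have hn : (0 : ℝ) ≤ n := Nat.cast_nonneg n
  have hτ0 : 0 < τ := by linarith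
  have hs : 0 < √τ := Real.sqrt_pos.2 hτ0
  have hss : √τ ^ 2 = τ := Real.sq_sqrt hτ0.le
  intro z hz
  obtain ⟨h1, h2⟩ := HY.H16.mem_ball_pp.1 hz
  have hp' : HY.sq p ≤ 1 / 4 := hp
  have key : ∀ x : V n, dist x p < 2 / √τ → x ∈ Bn n := by
    intro x hx
    rw [dist_eq_norm] at hx
    have a1 : HY.sq (x - p) ≤ n * (2 / √τ) ^ 2 := (sq_le_norm _).trans
      (mul_le_mul_of_nonneg_left (pow_le_pow_left₀ (norm_nonneg _) hx.le 2) hn)
    have a2 : n * (2 / √τ) ^ 2 ≤ 1 / 8 := by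
      rw [div_pow, hss, mul_div_assoc', div_le_iff₀ hτ0]
      linarith
    have a3 := sq_add_le p (x - p)
    rw [add_sub_cancel] at a3
    show HY.sq x < 1
    linarith
  refine ⟨⟨key _ h1, key _ h2⟩, ?_⟩
  have b1 : ‖z.1 - z.2‖ ≤ 4 / √τ := by
    calc ‖z.1 - z.2‖ = dist z.1 z.2 := (dist_eq_norm _ _).symm
      _ ≤ dist z.1 p + dist z.2 p := dist_triangle_right _ _ _
      _ ≤ 2 / √τ + 2 / √τ := add_le_add h1.le h2.le
      _ = 4 / √τ := by ring
  have b2 : HY.sq (z.1 - z.2) ≤ n * (4 / √τ) ^ 2 := (sq_le_norm _).trans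
    (mul_le_mul_of_nonneg_left (pow_le_pow_left₀ (norm_nonneg _) b1 2) hn)
  calc τ * HY.sq (z.1 - z.2) ≤ τ * (n * (4 / √τ) ^ 2) := mul_le_mul_of_nonneg_left b2 hτ0.le
    _ = 16 * n := by
        rw [div_pow, hss]; field_simp; ring

/-- The hypothesis (INPG) with constant `1` for the lower order terms. -/
def Hip (n m K : ℕ) (ε C : ℝ) : Prop := ∀ (s₁ s₂ : MF n) (e₁ e₂ : Co n m), SmM s₁ → SmM s₂ →
  (∀ i j, Cl K ε (fun x => s₁ x i j - (1 : Matrix (Fin n) (Fin n) ℝ) i j)) →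
  (∀ i j, Cl K ε (fun x => s₂ x i j - (1 : Matrix (Fin n) (Fin n) ℝ) i j)) →
  CoOk K 1 1 e₁ → CoOk K 1 1 e₂ →
  ∀ (z₀ : VV n) (lam : ℝ), 1 ≤ lam → ∀ w F : Fin m → VV n → ℝ,
  (∀ p, ContDiffOn ℝ ∞ (w p) (Metric.ball z₀ (2 / lam))) →
  (∀ p, ContDiffOn ℝ ∞ (F p) (Metric.ball z₀ (2 / lam))) →
  (∀ z ∈ Metric.ball z₀ (2 / lam), ∀ p, LxG s₁ e₁ w p z + LyG s₂ e₂ w p z = F p z) →
  (∀ p, IntegrableOn (fun z => w p z ^ 2) (Metric.ball z₀ (2 / lam))) →
  ∀ B : ℝ, (∀ p, ∀ l ≤ K, ∀ z ∈ Metric.ball z₀ (2 / lam),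
    ‖iteratedFDeriv ℝ l (F p) z‖ ≤ B * lam ^ l) →
  ∀ p, ∀ l ≤ 2, ‖iteratedFDeriv ℝ l (w p) z₀‖ ≤
    C * (lam ^ (n + l) * √(∑ q, ∫ z in Metric.ball z₀ (2 / lam), w q z ^ 2)
      + B * lam ^ l / lam ^ 2)

theorem wd_it {K : ℕ} {ε C₁ : ℝ} (hI : Hip n (mm N) K ε C₁) {s₁ s₂ : MF n}
    {β₁ β₂ : Fin n → MC n N} (h₁ : CoK K (min ε 1) s₁ β₁) (h₂ : CoK K (min ε 1) s₂ β₂)
    {F₁ F₂ w : KC n N} (hF₁ : SmK univ F₁) (hF₂ : SmK univ F₂) (hw : SmK (Un n) w)
    (hw₁ : ∀ z ∈ Un n, Lk s₁ β₁ w z = F₁ z) (hw₂ : ∀ z ∈ Un n, Rk s₂ β₂ w z = F₂ z)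
    {lam M : ℝ} (hl1 : 1 ≤ lam) {p : V n} (hbU : Metric.ball (p, p) (2 / lam) ⊆ Un n)
    (hder : ∀ a b, ∀ l ≤ K, ∀ z ∈ Metric.ball (p, p) (2 / lam),
      ‖iteratedFDeriv ℝ l (fun z => F₁ z a b + F₂ z a b) z‖ ≤ M * lam ^ l)
    (hwi : IntegrableOn (fun z => nq (w z)) (Metric.ball (p, p) (2 / lam))) (q : Fin (mm N))
    (l : ℕ) (hl : l ≤ 2) : ‖iteratedFDeriv ℝ l (vec w q) (p, p)‖ ≤
      C₁ * (lam ^ (n + l) * √(∫ z in Metric.ball (p, p) (2 / lam), nq (w z)) +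
        M * lam ^ l / lam ^ 2) := by
  have cl : ∀ {ε ε' : ℝ} {f : V n → ℝ}, ε ≤ ε' → Cl K ε f → Cl K ε' f :=
    fun hε h l hl x => (h l hl x).trans hε
  have clc : ∀ {ε ε' : ℝ} {f : V n → ℂ}, ε ≤ ε' → Cl K ε f → Cl K ε' f :=
    fun hε h l hl x => (h l hl x).trans hε
  have hFs : SmK univ (fun z => F₁ z + F₂ z) := fun a b => (hF₁ a b).add (hF₂ a b)
  have hwb : SmK (Metric.ball (p, p) (2 / lam)) w := fun a b => (hw a b).mono hbU
  have e1 : ∀ q, IntegrableOn (fun z => vec w q z ^ 2) (Metric.ball (p, p) (2 / lam)) := by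
    intro q
    refine Integrable.mono' hwi
      (((vec_cd hwb q).continuousOn.pow 2).aestronglyMeasurable Metric.isOpen_ball.measurableSet)
      (ae_of_all _ fun z => ?_)
    rw [Real.norm_of_nonneg (sq_nonneg _), ← vec_sq]
    exact Finset.single_le_sum (f := fun q => vec w q z ^ 2) (fun _ _ => sq_nonneg _)
      (Finset.mem_univ q)
  have e2 : ∑ q, ∫ z in Metric.ball (p, p) (2 / lam), vec w q z ^ 2 =
      ∫ z in Metric.ball (p, p) (2 / lam), nq (w z) := by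
    rw [← integral_finsetSum _ fun q _ => e1 q]
    simp only [vec_sq]
  have := hI s₁ s₂ (coL β₁) (coR β₂) h₁.sm h₂.sm (fun i j => cl (min_le_left _ _) (h₁.cl i j))
    (fun i j => cl (min_le_left _ _) (h₂.cl i j))
    (coL_ok zero_le_one zero_le_one h₁.sb fun i a b => clc (min_le_right _ _) (h₁.cb i a b))
    (coR_ok zero_le_one zero_le_one h₂.sb fun i a b => clc (min_le_right _ _) (h₂.cb i a b))
    (p, p) lam hl1 (vec w) (vec fun z => F₁ z + F₂ z) (fun q => vec_cd hwb q)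
    (fun q => (vec_cd hFs q).mono (subset_univ _)) (by
      intro z hz q
      rw [vec_Lk Metric.isOpen_ball hwb hz, vec_Rk Metric.isOpen_ball hwb hz]
      simp only [vec, hw₁ z (hbU hz), hw₂ z (hbU hz), Matrix.add_apply, map_add]) e1 M (by
      intro q l hl z hz
      exact vec_it (fun a b => ((hFs a b).contDiffAt Filter.univ_mem))
        (fun a b => hder a b l hl z hz) q) q l hl
  rw [e2] at this
  exact this

theorem sq_est {A B C : ℝ} (hA : 0 ≤ A) {m e : ℕ} {lam : ℝ} :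
    (C * (lam ^ e * √A + B)) ^ 2 ≤ 2 * C ^ 2 * (lam ^ (2 * e) * A + B ^ 2) := by
  have h2 : √A ^ 2 = A := Real.sq_sqrt hA
  have h5 : (lam ^ e * √A) ^ 2 = lam ^ (2 * e) * A := by
    rw [mul_pow, h2, ← pow_mul, mul_comm e 2]
  have h4 : (lam ^ e * √A + B) ^ 2 ≤ 2 * (lam ^ (2 * e) * A + B ^ 2) := by
    rw [← h5]
    nlinarith [sq_nonneg (lam ^ e * √A - B)]
  rw [mul_pow]
  calc _ ≤ C ^ 2 * (2 * (lam ^ (2 * e) * A + B ^ 2)) :=
        mul_le_mul_of_nonneg_left h4 (by positivity)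
    _ = _ := by ring

theorem wd_int {I g : V n → ℝ} (hIi : IntegrableOn I (bl0 n)) {m c B R : ℝ} (hm : 0 ≤ m)
    (hc : 0 ≤ c) (hR : ∫ p in bl0 n, I p ≤ R) {L : ℝ} (hL : 0 ≤ L)
    (hg0 : ∀ p, 0 ≤ g p) (hg : ∀ p ∈ bl0 n, g p ≤ m * (2 * c ^ 2 * (L * I p + B))) :
    ∫ p in bl0 n, g p ≤
      m * (2 * c ^ 2) * (L * R + (volume : Measure (V n)).real (bl0 n) * B) := by
  have hconst : IntegrableOn (fun _ : V n => B) (bl0 n) :=
    integrableOn_const bl0_cpt.measure_lt_top.ne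
  have hii : IntegrableOn (fun p => m * (2 * c ^ 2 * (L * I p + B))) (bl0 n) :=
    (((hIi.const_mul _).add hconst).const_mul _).const_mul _
  calc ∫ p in bl0 n, g p ≤ ∫ p in bl0 n, m * (2 * c ^ 2 * (L * I p + B)) := by
        refine integral_mono_of_nonneg (ae_of_all _ hg0) hii ?_
        exact (ae_restrict_iff' bl0_cpt.measurableSet).2 (ae_of_all _ fun p hp => hg p hp)
    _ = m * (2 * c ^ 2) * (L * (∫ p in bl0 n, I p) +
          (volume : Measure (V n)).real (bl0 n) * B) := by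
        rw [integral_const_mul, integral_const_mul, integral_add (hIi.const_mul _) hconst,
          integral_const_mul, setIntegral_const, smul_eq_mul]
        ring
    _ ≤ _ := by gcongr

theorem wd_fin {m c v : ℝ} {n : ℕ} {C₂ Q M : ℝ} (hm : 0 ≤ m) (hv : 0 ≤ v) (hC₂ : 0 ≤ C₂)
    (hQ : 0 ≤ Q) (hM : 0 ≤ M) :
    m * (2 * c ^ 2) * (4 ^ n * C₂ * Q ^ 2 + v * M ^ 2) ≤
      2 * m * c ^ 2 * (4 ^ n * C₂ + v) * (Q + M) ^ 2 := by
  have hQM : Q ^ 2 + M ^ 2 ≤ (Q + M) ^ 2 := by nlinarith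
  have h1 : 4 ^ n * C₂ * Q ^ 2 + v * M ^ 2 ≤ (4 ^ n * C₂ + v) * (Q + M) ^ 2 := by
    have h2 : Q ^ 2 ≤ (Q + M) ^ 2 := by nlinarith
    have h3 : M ^ 2 ≤ (Q + M) ^ 2 := by nlinarith
    have h4 : 0 ≤ 4 ^ n * C₂ := by positivity
    rw [add_mul]
    exact add_le_add (mul_le_mul_of_nonneg_left h2 h4) (mul_le_mul_of_nonneg_left h3 hv)
  calc _ ≤ m * (2 * c ^ 2) * ((4 ^ n * C₂ + v) * (Q + M) ^ 2) :=
        mul_le_mul_of_nonneg_left h1 (by positivity)
    _ = _ := by ring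

theorem rowWD : HY.RowINPG → RowWS → RowWD := by
  intro hI hW n N hn
  obtain ⟨K, ε, hε, hI⟩ := hI n (mm N)
  obtain ⟨C₁, hC₁, hI⟩ := hI 1 one_pos
  have hI : Hip n (mm N) K ε C₁ := hI
  obtain ⟨k, C₂, c, δ₀, τ₀, hC₂, hc, hδ₀, hτ₀, hW⟩ := hW n N hn
  have hn0 : (0 : ℝ) ≤ n := Nat.cast_nonneg n
  set v : ℝ := (volume : Measure (V n)).real (bl0 n) with hv
  have hv0 : 0 ≤ v := measureReal_nonneg
  set m : ℝ := (mm N : ℝ) with hm
  have hm0 : 0 ≤ m := Nat.cast_nonneg _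
  set C₃ : ℝ := 2 * m * C₁ ^ 2 * (4 ^ n * C₂ + v) with hC₃
  have hC₃0 : 0 ≤ C₃ := by positivity
  refine ⟨max k K, (n * n + n) * C₃ + 1, c, min δ₀ (min ε 1), max τ₀ (32 * n + 1), by positivity,
    hc, by positivity, by positivity, ?_⟩
  intro s₁ s₂ β₁ β₂ h₁ h₂ η τ hη hDB hτ hτη F₁ F₂ hF₁ hF₂ hcomp hz Q M hQ hM hint hder
  have ck : ∀ {K' : ℕ} {ε' : ℝ} {s : MF n} {β : Fin n → MC n N}, K' ≤ max k K →
      min δ₀ (min ε 1) ≤ ε' → CoK (max k K) (min δ₀ (min ε 1)) s β → CoK K' ε' s β :=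
    fun hK hε h => ⟨h.sm, h.sy, h.one, fun i j l hl x => (h.cl i j l (hl.trans hK) x).trans hε,
      h.sb, fun i a b l hl x => (h.cb i a b l (hl.trans hK) x).trans hε⟩
  have hτ1 : τ₀ ≤ τ := (le_max_left _ _).trans hτ
  have hτ2 : 32 * n + 1 ≤ τ := (le_max_right _ _).trans hτ
  have hτpos : 0 < τ := by linarith
  have hτge : 1 ≤ τ := by linarith
  set lam : ℝ := √τ with hlam
  have hl1 : 1 ≤ lam := Real.one_le_sqrt.2 hτge
  have hl0 : 0 < lam := by linarith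
  have hll : lam ^ 2 = τ := Real.sq_sqrt hτpos.le
  obtain ⟨w, hw, hw₁, hw₂, hwi, hwI⟩ := hW s₁ s₂ β₁ β₂
    (ck (le_max_left _ _) (min_le_left _ _) h₁) (ck (le_max_left _ _) (min_le_left _ _) h₂)
    η τ hη (fun i j l hl x => hDB i j l (hl.trans (le_max_left _ _)) x) hτ1
    (hτη.trans (min_le_left _ _)) F₁ F₂ hF₁ hF₂ hcomp hz
  refine ⟨w, hw, hw₁, hw₂, ?_⟩
  have hUn : IsOpen (Un n) := HY.H16.isOpen_Un
  have hUm : MeasurableSet {z : VV n | z ∈ Un n ∧ τ * HY.sq (z.1 - z.2) ≤ 16 * n} := by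
    have h1 : IsClosed {z : VV n | τ * HY.sq (z.1 - z.2) ≤ 16 * n} :=
      isClosed_le (continuous_const.mul (HY.H16.continuous_sq.comp (by fun_prop)))
        continuous_const
    exact hUn.measurableSet.inter h1.measurableSet
  have hsub : ∀ p ∈ bl0 n, Metric.ball (p, p) (2 / lam) ⊆
      {z : VV n | z ∈ Un n ∧ τ * HY.sq (z.1 - z.2) ≤ 16 * n} := fun p hp => ball_sub hp hτ2
  have hUsub : {z : VV n | z ∈ Un n ∧ τ * HY.sq (z.1 - z.2) ≤ 16 * n} ⊆ Un n := fun z hz => hz.1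
  -- the energy near the diagonal
  have hE1 : ∫ z in {z : VV n | z ∈ Un n ∧ τ * HY.sq (z.1 - z.2) ≤ 16 * n}, nq (w z) ≤
      C₂ * Q ^ 2 / lam ^ (n + 4) := by
    refine hwI.trans ?_
    calc C₂ / τ * ∫ z in Us n (7 / 4), (nq (F₁ z) + nq (F₂ z)) *
          Real.exp (-(c * τ * HY.sq (z.1 - z.2)))
        ≤ C₂ / τ * (Q ^ 2 / lam ^ (n + 2)) := mul_le_mul_of_nonneg_left hint (by positivity)
      _ = C₂ * Q ^ 2 / lam ^ (n + 4) := by
          rw [← hll, show n + 4 = n + 2 + 2 from rfl, pow_add lam (n + 2) 2]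
          field_simp
  have hnqc : ContinuousOn (fun z => nq (w z)) (Un n) := by
    unfold nq
    refine continuousOn_finsetSum _ fun a _ => continuousOn_finsetSum _ fun b _ => ?_
    exact ((hw a b).continuousOn.norm).pow 2
  obtain ⟨fi, fI⟩ := HY.H16.fub (n := n) (2 / lam) (by positivity) (bl0 n)
    bl0_cpt.measurableSet bl0_cpt.measure_lt_top _ hUm (fun z => nq (w z)) (fun z => nq (w z))
    ((hnqc.mono hUsub).aestronglyMeasurable hUm) (fun z => nq_nn _) hsub hwi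
    (fun z _ => nq_nn _) (fun p _ z _ => le_rfl)
  have fI' : ∫ p in bl0 n, ∫ z in Metric.ball (p, p) (2 / lam), nq (w z) ≤
      (4 / lam) ^ n * (C₂ * Q ^ 2 / lam ^ (n + 4)) := by
    refine fI.trans ?_
    have : 2 * (2 / lam) = 4 / lam := by ring
    rw [this]
    exact mul_le_mul_of_nonneg_left hE1 (by positivity)
  -- the interior estimate
  have key : ∀ p ∈ bl0 n, ∀ q, ∀ l ≤ 2, ‖iteratedFDeriv ℝ l (vec w q) (p, p)‖ ≤
      C₁ * (lam ^ (n + l) * √(∫ z in Metric.ball (p, p) (2 / lam), nq (w z)) +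
        M * lam ^ l / lam ^ 2) := fun p hp q l hl =>
    wd_it hI (ck (le_max_right _ _) (min_le_right _ _) h₁)
      (ck (le_max_right _ _) (min_le_right _ _) h₂) hF₁ hF₂ hw hw₁ hw₂ hl1
      ((hsub p hp).trans hUsub)
      (fun a b l hl z hz => hder a b l (hl.trans (le_max_right _ _)) p hp z hz)
      (hwi.mono_set (hsub p hp)) q l hl
  have hI0 : ∀ p : V n, 0 ≤ ∫ z in Metric.ball (p, p) (2 / lam), nq (w z) :=
    fun p => integral_nonneg fun z => nq_nn _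
  have hpU : ∀ p ∈ bl0 n, (p, p) ∈ Un n := fun p hp =>
    (hsub p hp (Metric.mem_ball_self (by positivity))).1
  constructor
  · have kxy : ∀ p ∈ bl0 n, ∀ i j, nq (dxk i (dyk j w) (p, p)) ≤
        m * (2 * C₁ ^ 2 * (lam ^ (2 * (n + 2)) *
          (∫ z in Metric.ball (p, p) (2 / lam), nq (w z)) + M ^ 2)) := by
      intro p hp i j
      have h1 : ∀ q, |vec (dxk i (dyk j w)) q (p, p)| ≤
          C₁ * (lam ^ (n + 2) * √(∫ z in Metric.ball (p, p) (2 / lam), nq (w z)) + M) := by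
        intro q
        rw [← dxy_vec hUn hw (hpU p hp) i j q]
        refine (it2 hUn (vec_cd hw q) (hpU p hp) _ _ (nx i) (ny j)).trans
          ((key p hp q 2 le_rfl).trans (le_of_eq ?_))
        have : M * lam ^ 2 / lam ^ 2 = M := by field_simp
        rw [this]
      exact (nq_le h1).trans (mul_le_mul_of_nonneg_left (sq_est (m := 0) (hI0 p)) hm0)
    have kk : ∀ i j, ∫ p in bl0 n, nq (dxk i (dyk j w) (p, p)) ≤ C₃ * (Q + M) ^ 2 := by
      intro i j
      refine (wd_int fi hm0 hC₁.le fI' (by positivity) (fun p => nq_nn _)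
        (fun p hp => kxy p hp i j)).trans ?_
      refine le_trans (le_of_eq ?_) (wd_fin hm0 hv0 hC₂.le hQ hM)
      rw [← hv, div_pow, show 2 * (n + 2) = n + (n + 4) by ring, pow_add lam n (n + 4)]
      field_simp
    have hci : ∀ i j, IntegrableOn (fun p => nq (dxk i (dyk j w) (p, p))) (bl0 n) := by
      intro i j
      refine ContinuousOn.integrableOn_compact bl0_cpt ?_
      unfold nq
      refine continuousOn_finsetSum _ fun a _ => continuousOn_finsetSum _ fun b _ => ?_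
      have h1 := ((SmK_dxk hUn (SmK_dyk hUn hw j) i) a b).continuousOn
      exact ((h1.comp (f := fun p : V n => (p, p)) (by fun_prop)
        (fun p hp => hpU p hp)).norm).pow 2
    rw [integral_finsetSum _ fun i _ => integrable_finsetSum _ fun j _ => hci i j]
    calc _ ≤ ∑ _i : Fin n, ∑ _j : Fin n, C₃ * (Q + M) ^ 2 := by
          refine Finset.sum_le_sum fun i _ => ?_
          rw [integral_finsetSum _ fun j _ => hci i j]
          exact Finset.sum_le_sum fun j _ => kk i j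
      _ = n * n * C₃ * (Q + M) ^ 2 := by
          simp only [Finset.sum_const, Finset.card_univ, Fintype.card_fin, nsmul_eq_mul]
          ring
      _ ≤ _ := by
          have : 0 ≤ (n * C₃ + 1) * (Q + M) ^ 2 := by positivity
          nlinarith
  · have kx : ∀ p ∈ bl0 n, ∀ i, nq (dxk i w (p, p)) ≤
        m * (2 * C₁ ^ 2 * (lam ^ (2 * (n + 1)) *
          (∫ z in Metric.ball (p, p) (2 / lam), nq (w z)) + (M / lam) ^ 2)) := by
      intro p hp i
      have h1 : ∀ q, |vec (dxk i w) q (p, p)| ≤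
          C₁ * (lam ^ (n + 1) * √(∫ z in Metric.ball (p, p) (2 / lam), nq (w z)) + M / lam) := by
        intro q
        rw [← dx_vec hUn hw (hpU p hp) i q]
        refine (it1 _ (nx i)).trans ((key p hp q 1 (by norm_num)).trans (le_of_eq ?_))
        have : M * lam ^ 1 / lam ^ 2 = M / lam := by field_simp
        rw [this]
      exact (nq_le h1).trans (mul_le_mul_of_nonneg_left (sq_est (m := 0) (hI0 p)) hm0)
    have kk : ∀ i, ∫ p in bl0 n, nq (dxk i w (p, p)) ≤ C₃ * (Q + M) ^ 2 / τ := by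
      intro i
      refine (wd_int fi hm0 hC₁.le fI' (by positivity) (fun p => nq_nn _)
        (fun p hp => kx p hp i)).trans ?_
      have h1 := div_le_div_of_nonneg_right (wd_fin (c := C₁) (n := n) hm0 hv0 hC₂.le hQ hM)
        hτpos.le
      refine le_trans (le_of_eq ?_) h1
      rw [← hv, div_pow, div_pow, ← hll, show 2 * (n + 1) = n + (n + 2) by ring,
        pow_add lam n (n + 2), show n + 4 = (n + 2) + 2 by ring, pow_add lam (n + 2) 2]
      field_simp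
    have hci : ∀ i, IntegrableOn (fun p => nq (dxk i w (p, p))) (bl0 n) := by
      intro i
      refine ContinuousOn.integrableOn_compact bl0_cpt ?_
      unfold nq
      refine continuousOn_finsetSum _ fun a _ => continuousOn_finsetSum _ fun b _ => ?_
      have h1 := ((SmK_dxk hUn hw i) a b).continuousOn
      exact ((h1.comp (f := fun p : V n => (p, p)) (by fun_prop)
        (fun p hp => hpU p hp)).norm).pow 2
    rw [integral_finsetSum _ fun i _ => hci i]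
    calc _ ≤ ∑ _i : Fin n, C₃ * (Q + M) ^ 2 / τ := Finset.sum_le_sum fun i _ => kk i
      _ = n * C₃ * (Q + M) ^ 2 / τ := by
          simp only [Finset.sum_const, Finset.card_univ, Fintype.card_fin, nsmul_eq_mul]
          ring
      _ ≤ _ := by
          apply div_le_div_of_nonneg_right _ hτpos.le
          have : 0 ≤ (n * n * C₃ + 1) * (Q + M) ^ 2 := by positivity
          nlinarith

end Vale.Agent.P088.PJ.H901
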