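import Vale.Agent.P088.R2.H901.Dic
import Vale.Agent.P088.R2.H904.V.Sub

/-!
# P088: row WS1, from real systems to matrix functions
-/

open MeasureTheory Set
open scoped ContDiff Matrix

set_option linter.unusedSectionVars false
set_option linter.unusedVariables false

noncomputable section

namespace Vale.Agent.P088.PJ.H901

open Vale.Agent.P088.LR Vale.Agent.P088.LR.U Vale.Agent.P088.LR.H158
open Vale.Agent.P088.HY (VV Bs Bn Un DB Co CoOk Com LxG LyG Lx Ly dx dy)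
open Vale.Agent.P088.PJ.H904 (e0 CoR RowWSR RowWS1)

variable {n N : ℕ}

/-- The matrix function with given real components. -/
def unv (w : Fin (mm N) → VV n → ℝ) : KC n N := fun z => Matrix.of fun a b =>
  (w (eqv N (a, b, 0)) z : ℂ) + (w (eqv N (a, b, 1)) z : ℂ) * Complex.I

theorem vec_unv (w : Fin (mm N) → VV n → ℝ) : vec (unv w) = w := by
  funext p z
  obtain ⟨⟨a, b, c⟩, rfl⟩ := (eqv N).surjective p
  fin_cases c
  · simp [vec, unv, cm]
  · simp [vec, unv, cm]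

theorem unv_sm {O : Set (VV n)} {w : Fin (mm N) → VV n → ℝ} (hw : ∀ p, ContDiffOn ℝ ∞ (w p) O) :
    SmK O (unv w) := by
  intro a b
  simp only [unv, Matrix.of_apply]
  exact (Complex.ofRealCLM.contDiff.comp_contDiffOn (hw _)).add
    ((Complex.ofRealCLM.contDiff.comp_contDiffOn (hw _)).mul contDiffOn_const)

theorem vec_inj {K K' : KC n N} {z : VV n} (h : ∀ p, vec K p z = vec K' p z) : K z = K' z := by
  ext a b
  have h0 := h (eqv N (a, b, 0))
  have h1 := h (eqv N (a, b, 1))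
  simp only [vec, Equiv.symm_apply_apply, cm, if_true] at h0 h1
  apply Complex.ext
  · simpa using h0
  · simpa using h1

theorem coL_e0 (β : Fin n → MC n N) : coL β = e0 (coL β).b := rfl

theorem coR_e0 (β : Fin n → MC n N) : coR β = e0 (coR β).b := rfl

theorem rowWS1 : RowWS1 := by
  intro h n N hn
  obtain ⟨k, C, c, δ₀, τ₀, hC, hc, hδ₀, hτ₀, h⟩ := h n (mm N) hn
  refine ⟨k, C, c, δ₀, τ₀, hC, hc, hδ₀, hτ₀, ?_⟩
  intro s₁ s₂ β₁ β₂ h₁ h₂ η τ hη hDB hτ hτη F₁ F₂ hF₁ hF₂ hcomp hz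
  have L := coL_ok hδ₀.le zero_le_one h₁.sb h₁.cb
  have R := coR_ok hδ₀.le zero_le_one h₂.sb h₂.cb
  have hU : IsOpen (Un n) := HY.H16.isOpen_Un
  have hUs : IsOpen (Us n (7 / 4)) := (HY.H16.isOpen_Bs _).prod (HY.H16.isOpen_Bs _)
  have hF₁' : ∀ O : Set (VV n), SmK O F₁ := fun O a b => (hF₁ a b).mono (subset_univ _)
  have hF₂' : ∀ O : Set (VV n), SmK O F₂ := fun O a b => (hF₂ a b).mono (subset_univ _)
  obtain ⟨w, hw, hw₁, hw₂, hwi, hwI⟩ := h s₁ s₂ (coL β₁).b (coR β₂).b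
    ⟨h₁.sm, h₁.sy, h₁.one, h₁.cl, L.sb, L.bb⟩ ⟨h₂.sm, h₂.sy, h₂.one, h₂.cl, R.sb, R.bb⟩
    (fun i j x y => (com_LR β₁ β₂).bb i j x y) η τ hη hDB hτ hτη (vec F₁) (vec F₂)
    (fun p => contDiffOn_univ.1 (vec_cd hF₁ p)) (fun p => contDiffOn_univ.1 (vec_cd hF₂ p))
    (fun z hz' p => by
      rw [← coR_e0, ← coL_e0, vec_Rk hUs (hF₁' _) hz', vec_Lk hUs (hF₂' _) hz']
      simp only [vec, hcomp z hz'])
    (fun z hz' p => by
      have := hz z hz'
      simp only [vec, this.1, this.2, Matrix.zero_apply, map_zero, and_self])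
  have hK := unv_sm hw
  have e : ∀ z, nq (unv w z) = ∑ p, w p z ^ 2 := by
    intro z; rw [← vec_sq, vec_unv]
  refine ⟨unv w, hK, ?_, ?_, ?_, ?_⟩
  · intro z hz'
    refine vec_inj fun p => ?_
    rw [← vec_Lk hU hK hz', vec_unv, coL_e0]
    exact hw₁ z hz' p
  · intro z hz'
    refine vec_inj fun p => ?_
    rw [← vec_Rk hU hK hz', vec_unv, coR_e0]
    exact hw₂ z hz' p
  · simpa only [e] using hwi
  · simp only [e, ← vec_sq (N := N)]
    simpa only [vec_unv] using hwI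

end Vale.Agent.P088.PJ.H901
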